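import Mathlib

set_option autoImplicit false

namespace Crest.Agent.R254

open scoped RealInnerProductSpace
open Module

lemma det_one_add_proj {V : Type*} [NormedAddCommGroup V] [InnerProductSpace ℝ V]
    [FiniteDimensional ℝ V] (M : Submodule ℝ V) :
    ∃ S : V →L[ℝ] V, S.det = 2 ^ finrank ℝ Mᗮ ∧
      ∀ x, ∃ y ∈ Mᗮ, ‖y‖ ≤ ‖x‖ ∧ S x = x + y := by
  let e := Submodule.prodEquivOfIsCompl M Mᗮ M.isCompl_orthogonal
  let f : (M × Mᗮ) →ₗ[ℝ] (M × Mᗮ) := LinearMap.prodMap LinearMap.id ((2 : ℝ) • LinearMap.id)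
  refine ⟨LinearMap.toContinuousLinearMap ((e : (M × Mᗮ) →ₗ[ℝ] V) ∘ₗ f ∘ₗ e.symm), ?_, ?_⟩
  · change LinearMap.det ((e : (M × Mᗮ) →ₗ[ℝ] V) ∘ₗ f ∘ₗ e.symm) = _
    rw [LinearMap.det_conj, LinearMap.det_prodMap, LinearMap.det_smul]
    simp
  · intro x
    obtain ⟨⟨m, n⟩, rfl⟩ := e.surjective x
    have e1 : e (m, n) = (m : V) + n := rfl
    refine ⟨n, n.2, ?_, ?_⟩
    · rw [e1]
      have h := norm_add_sq_real (m : V) n
      rw [Submodule.inner_right_of_mem_orthogonal m.2 n.2] at h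
      exact (pow_le_pow_iff_left₀ (norm_nonneg _) (norm_nonneg _) two_ne_zero).1
        (by nlinarith [sq_nonneg ‖(m : V)‖])
    · change e (f (e.symm (e (m, n)))) = _
      rw [e.symm_apply_apply, e1]
      change (m : V) + (2 : ℝ) • (n : V) = _
      rw [two_smul, add_assoc]

/-- a weak Dvoretzky--Rogers lemma -/
theorem dvoretzky_rogers {B : Type*} [NormedAddCommGroup B] [NormedSpace ℝ B]
    (hB : ¬ FiniteDimensional ℝ B) (n : ℕ) :
    ∃ u : EuclideanSpace ℝ (Fin n) →L[ℝ] B, (∀ x, ‖u x‖ ≤ ‖x‖) ∧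
      ∀ i, 2 / 5 ≤ ‖u (EuclideanSpace.single i 1)‖ := by
  classical
  have hrk : ((2 * n + 2 : ℕ) : Cardinal) ≤ Module.rank ℝ B := by
    rw [FiniteDimensional, ← Module.rank_lt_aleph0_iff, not_lt] at hB
    exact (Cardinal.natCast_lt_aleph0).le.trans hB
  obtain ⟨b, hb⟩ := exists_linearIndependent_of_le_rank hrk
  let V := EuclideanSpace ℝ (Fin (2 * n + 2))
  let j₀ : V →ₗ[ℝ] B := Fintype.linearCombination ℝ b ∘ₗ (WithLp.linearEquiv 2 ℝ _).toLinearMap
  have hj₀ : LinearMap.ker j₀ = ⊥ := by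
    rw [LinearMap.ker_eq_bot]
    exact hb.fintypeLinearCombination_injective.comp (WithLp.linearEquiv 2 ℝ _).injective
  obtain ⟨K, -, hK⟩ := j₀.exists_antilipschitzWith hj₀
  let j : V →L[ℝ] B := LinearMap.toContinuousLinearMap j₀
  let 𝒮 : Set (V →L[ℝ] V) := {A | ∀ x, ‖j (A x)‖ ≤ ‖x‖}
  have hcl : IsClosed 𝒮 := by
    have : 𝒮 = ⋂ x, {A : V →L[ℝ] V | ‖j (A x)‖ ≤ ‖x‖} := by ext A; simp [𝒮]
    rw [this]
    exact isClosed_iInter fun x => isClosed_le (by fun_prop) continuous_const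
  have hbd : Bornology.IsBounded 𝒮 := by
    refine (Metric.isBounded_closedBall (x := (0 : V →L[ℝ] V)) (r := K)).subset fun A hA => ?_
    rw [mem_closedBall_zero_iff]
    refine A.opNorm_le_bound K.2 fun x => ?_
    have h1 := hK.le_mul_dist (A x) 0
    rw [map_zero, dist_zero_right, dist_zero_right] at h1
    exact h1.trans (mul_le_mul_of_nonneg_left (hA x) K.2)
  have hcomp : IsCompact 𝒮 := Metric.isCompact_of_isClosed_isBounded hcl hbd
  have hA₀ : (‖j‖ + 1)⁻¹ • ContinuousLinearMap.id ℝ V ∈ 𝒮 := by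
    intro x
    simp only [smul_apply, ContinuousLinearMap.id_apply, map_smul]
    rw [norm_smul, norm_inv, Real.norm_of_nonneg (by positivity), inv_mul_le_iff₀ (by positivity)]
    nlinarith [j.le_opNorm x, norm_nonneg x]
  obtain ⟨A, hA, hmax⟩ := hcomp.exists_isMaxOn ⟨_, hA₀⟩
    (f := fun A : V →L[ℝ] V => |A.det|) (ContinuousLinearMap.continuous_det.abs.continuousOn)
  have hV : finrank ℝ V = 2 * n + 2 := by simp [V]
  have hpos : 0 < |A.det| := by
    refine lt_of_lt_of_le ?_ (hmax hA₀)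
    have : ((‖j‖ + 1)⁻¹ • ContinuousLinearMap.id ℝ V).det = (‖j‖ + 1)⁻¹ ^ finrank ℝ V := by
      change LinearMap.det ((‖j‖ + 1)⁻¹ • (LinearMap.id : V →ₗ[ℝ] V)) = _
      rw [LinearMap.det_smul, LinearMap.det_id, mul_one]
    simp only [this]
    positivity
  have claim : ∀ M : Submodule ℝ V, finrank ℝ M ≤ n + 1 →
      ∃ x ∈ Mᗮ, ‖x‖ = 1 ∧ 2 / 5 ≤ ‖j (A x)‖ := by
    intro M hM
    by_contra hcon
    push Not at hcon
    have h1 : ∀ y ∈ Mᗮ, ‖j (A y)‖ ≤ 2 / 5 * ‖y‖ := by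
      intro y hy
      by_cases hy0 : y = 0
      · simp [hy0]
      have hn : 0 < ‖y‖ := norm_pos_iff.2 hy0
      have := hcon (‖y‖⁻¹ • y) (Submodule.smul_mem _ _ hy)
        (by rw [norm_smul, norm_inv, norm_norm, inv_mul_cancel₀ hn.ne'])
      rw [map_smul, map_smul, norm_smul, norm_inv, norm_norm, inv_mul_lt_iff₀ hn] at this
      linarith
    obtain ⟨S, hS, hSx⟩ := det_one_add_proj M
    have h2 : (5 / 7 : ℝ) • (A.comp S) ∈ 𝒮 := by
      intro x
      obtain ⟨y, hy, hyx, e⟩ := hSx x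
      simp only [smul_apply, ContinuousLinearMap.comp_apply, map_smul, e,
        map_add]
      rw [norm_smul, Real.norm_of_nonneg (by norm_num)]
      have h3 := norm_add_le (j (A x)) (j (A y))
      have h4 := h1 y hy
      have h5 := hA x
      linarith
    have h3 := hmax h2
    have h4 : ((5 / 7 : ℝ) • (A.comp S)).det = (5 / 7) ^ finrank ℝ V * (A.det * S.det) := by
      change LinearMap.det ((5 / 7 : ℝ) • ((A : V →ₗ[ℝ] V) ∘ₗ (S : V →ₗ[ℝ] V))) = _
      rw [LinearMap.det_smul, LinearMap.det_comp]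
    have h5 := M.finrank_add_finrank_orthogonal
    have h6 : (2 : ℝ) ^ (n + 1) ≤ 2 ^ finrank ℝ Mᗮ :=
      pow_le_pow_right₀ (by norm_num) (by omega)
    simp only [Set.mem_ofPred_eq] at h3
    rw [h4, hS, hV, abs_mul, abs_mul, abs_of_pos (by positivity),
      abs_of_pos (show (0 : ℝ) < 2 ^ finrank ℝ Mᗮ by positivity)] at h3
    have h7 : (1 : ℝ) < (5 / 7) ^ (2 * n + 2) * 2 ^ (n + 1) := by
      have : ((5 / 7 : ℝ)) ^ (2 * n + 2) * 2 ^ (n + 1) = (50 / 49) ^ (n + 1) := by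
        rw [show 2 * n + 2 = 2 * (n + 1) by ring, pow_mul, ← mul_pow]; norm_num
      rw [this]
      exact one_lt_pow₀ (by norm_num) (by omega)
    have h8 : (0 : ℝ) < (5 / 7) ^ (2 * n + 2) := by positivity
    have h9 := mul_le_mul_of_nonneg_left h6 (mul_pos h8 hpos).le
    nlinarith
  have greedy : ∀ i ≤ n, ∃ v : Fin i → V, Orthonormal ℝ v ∧ ∀ l, 2 / 5 ≤ ‖j (A (v l))‖ := by
    intro i
    induction i with
    | zero => exact fun _ => ⟨fun l => l.elim0, by simp [Orthonormal], fun l => l.elim0⟩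
    | succ i ih =>
      intro hi
      obtain ⟨v, hv, hv'⟩ := ih (by omega)
      obtain ⟨x, hx, hx1, hx2⟩ := claim (Submodule.span ℝ (Set.range v)) (by
        have := finrank_range_le_card (R := ℝ) v
        rw [Set.finrank, Fintype.card_fin] at this
        omega)
      refine ⟨Matrix.vecCons x v, orthonormal_vecCons_iff.2 ⟨hx1, fun l => ?_, hv⟩, ?_⟩
      · exact Submodule.inner_left_of_mem_orthogonal (Submodule.subset_span (Set.mem_range_self l)) hx
      · intro l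
        refine Fin.cases ?_ (fun l => ?_) l
        · simpa using hx2
        · simpa using hv' l
  obtain ⟨v, hv, hv'⟩ := greedy n le_rfl
  let i₀ : EuclideanSpace ℝ (Fin n) →ₗ[ℝ] V :=
    Fintype.linearCombination ℝ v ∘ₗ (WithLp.linearEquiv 2 ℝ _).toLinearMap
  have hi₀ : ∀ x, i₀ x = ∑ l, x l • v l := fun x => by
    simp [i₀, Fintype.linearCombination_apply]
  refine ⟨j.comp (A.comp (LinearMap.toContinuousLinearMap i₀)), fun x => ?_, fun l => ?_⟩
  · refine (hA (i₀ x)).trans (le_of_eq ?_)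
    have h := hv.inner_sum (fun l => x l) (fun l => x l) Finset.univ
    rw [← hi₀, real_inner_self_eq_norm_sq] at h
    have h2 : ‖i₀ x‖ ^ 2 = ‖x‖ ^ 2 := by
      rw [h, EuclideanSpace.real_norm_sq_eq]
      simp [sq]
    exact (pow_left_inj₀ (norm_nonneg _) (norm_nonneg _) two_ne_zero).1 h2
  · have : i₀ (EuclideanSpace.single l 1) = v l := by
      rw [hi₀]; simp
    change 2 / 5 ≤ ‖j (A (i₀ (EuclideanSpace.single l 1)))‖
    rw [this]; exact hv' l

end Crest.Agent.R254
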