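import Crest.Agent.R254.DR

set_option autoImplicit false
set_option linter.unusedSectionVars false

namespace Crest.Agent.R254

open scoped RealInnerProductSpace
open MeasureTheory ProbabilityTheory Real

variable {V : Type*} [NormedAddCommGroup V] [InnerProductSpace ℝ V] [FiniteDimensional ℝ V]
  [MeasurableSpace V] [BorelSpace V] {B : Type*} [NormedAddCommGroup B] [NormedSpace ℝ B]

lemma integrable_norm_clm (u : V →L[ℝ] B) : Integrable (fun x => ‖u x‖) (stdGaussian V) :=
  (u.integrable_comp (IsGaussian.integrable_fun_id (μ := stdGaussian V))).norm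

lemma integral_abs_dual (L : StrongDual ℝ V) (hL : ‖L‖ ≤ 1) :
    ∫ y, |L y| ∂(stdGaussian V) ≤ 1 := by
  have h2 : MemLp L 2 (stdGaussian V) := IsGaussian.memLp_dual _ _ _ (by simp)
  have h3 : ∫ y, (L y) ^ 2 ∂(stdGaussian V) = ‖L‖ ^ 2 := by
    rw [← variance_dual_stdGaussian, variance_of_integral_eq_zero L.continuous.aemeasurable
      (integral_strongDual_stdGaussian L)]
  have h4 : ∫ y, |L y| ∂(stdGaussian V) ≤ ∫ y, (1 / 2 + (L y) ^ 2 / 2) ∂(stdGaussian V) := by
    apply integral_mono (h2.integrable (by norm_num)).abs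
      ((integrable_const _).add (h2.integrable_sq.div_const _))
    intro y
    simp only [Pi.add_apply]
    nlinarith [sq_nonneg (|L y| - 1), sq_abs (L y)]
  rw [integral_add (integrable_const _) (h2.integrable_sq.div_const _), integral_div 2 (fun y => (L y) ^ 2), h3] at h4
  simp only [integral_const, probReal_univ, smul_eq_mul] at h4
  have := pow_le_one₀ (norm_nonneg L) hL (n := 2)
  linarith

lemma mp_rot (θ : ℝ) : MeasurePreserving (ContinuousLinearMap.rotation θ : V × V → V × V)
    ((stdGaussian V).prod (stdGaussian V)) ((stdGaussian V).prod (stdGaussian V)) :=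
  ⟨(ContinuousLinearMap.rotation θ).continuous.measurable,
    IsGaussian.map_rotation_eq_self_of_forall_strongDual_eq_zero
      (fun L => integral_strongDual_stdGaussian L) θ⟩

/-- the norm of the rotated vector -/
noncomputable def rotF (u : V →L[ℝ] B) (θ : ℝ) (p : V × V) : ℝ :=
  ‖u (cos θ • p.1 + sin θ • p.2)‖

lemma rotF_cont (u : V →L[ℝ] B) (θ : ℝ) : Continuous (rotF u θ) := by
  unfold rotF; fun_prop

lemma rotF_add (u : V →L[ℝ] B) (θ h : ℝ) (p : V × V) :
    rotF u (θ + h) p = rotF u h (ContinuousLinearMap.rotation θ p) := by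
  simp only [rotF, ContinuousLinearMap.rotation_apply, cos_add, sin_add]
  congr 2
  module

lemma rotF_zero (u : V →L[ℝ] B) (p : V × V) : rotF u 0 p = ‖u p.1‖ := by simp [rotF]

lemma rotF_integrable (u : V →L[ℝ] B) (θ : ℝ) :
    Integrable (rotF u θ) ((stdGaussian V).prod (stdGaussian V)) := by
  have h1 : Integrable (fun p : V × V => ‖u p.1‖) ((stdGaussian V).prod (stdGaussian V)) :=
    measurePreserving_fst.integrable_comp_of_integrable (integrable_norm_clm u)
  have h2 := (mp_rot (V := V) θ).integrable_comp_of_integrable h1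
  refine h2.congr (ae_of_all _ fun p => ?_)
  simp [rotF, ContinuousLinearMap.rotation_apply]

lemma rotF_integrable_sub (u : V →L[ℝ] B) (θ θ' : ℝ) :
    Integrable (fun p => rotF u θ p - rotF u θ' p) ((stdGaussian V).prod (stdGaussian V)) :=
  (rotF_integrable u θ).sub (rotF_integrable u θ')

lemma integral_comp_rot (θ : ℝ) (g : V × V → ℝ) (hg : Continuous g) :
    ∫ p, g (ContinuousLinearMap.rotation θ p) ∂((stdGaussian V).prod (stdGaussian V)) =
      ∫ p, g p ∂((stdGaussian V).prod (stdGaussian V)) := by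
  conv_rhs => rw [← (mp_rot (V := V) θ).map_eq]
  rw [integral_map (mp_rot (V := V) θ).measurable.aemeasurable hg.aestronglyMeasurable]

lemma rotF_integral (u : V →L[ℝ] B) (θ : ℝ) :
    ∫ p, rotF u θ p ∂((stdGaussian V).prod (stdGaussian V)) = ∫ x, ‖u x‖ ∂(stdGaussian V) := by
  have h1 := integral_comp_rot θ (rotF u 0) (rotF_cont u 0)
  simp only [← rotF_add, add_zero] at h1
  rw [h1]
  simp only [rotF_zero]
  rw [integral_fun_fst (fun x => ‖u x‖)]
  simp

lemma one_step (u : V →L[ℝ] B) (hu : ∀ x, ‖u x‖ ≤ ‖x‖) (h : ℝ) :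
    ∫ p, |rotF u 0 p - rotF u h p| ∂((stdGaussian V).prod (stdGaussian V)) ≤
      2 * ((1 - cos h) * ∫ x, ‖u x‖ ∂(stdGaussian V) + |sin h|) := by
  have hi := rotF_integrable_sub u 0 h
  have hi' : Integrable (fun p => max (rotF u 0 p - rotF u h p) 0)
      ((stdGaussian V).prod (stdGaussian V)) := hi.pos_part
  have e1 : ∀ p, |rotF u 0 p - rotF u h p| =
      2 * max (rotF u 0 p - rotF u h p) 0 - (rotF u 0 p - rotF u h p) := by
    intro p
    rcases le_total (rotF u 0 p - rotF u h p) 0 with h1 | h1
    · rw [abs_of_nonpos h1, max_eq_right h1]; ring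
    · rw [abs_of_nonneg h1, max_eq_left h1]; ring
  simp only [e1]
  rw [integral_sub (hi'.const_mul 2) hi, integral_sub (rotF_integrable u 0) (rotF_integrable u h),
    rotF_integral, rotF_integral, sub_self, sub_zero, integral_const_mul, integral_prod _ hi']
  refine mul_le_mul_of_nonneg_left ?_ (by norm_num)
  have hc : 0 ≤ 1 - cos h := by linarith [cos_le_one h]
  have h2 : ∫ x, ∫ y, max (rotF u 0 (x, y) - rotF u h (x, y)) 0 ∂(stdGaussian V) ∂(stdGaussian V)
      ≤ ∫ x, ((1 - cos h) * ‖u x‖ + |sin h|) ∂(stdGaussian V) := by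
    apply integral_mono hi'.integral_prod_left
      (((integrable_norm_clm u).const_mul _).add (integrable_const _))
    intro x
    obtain ⟨φ, hφ, hφx⟩ := exists_dual_vector'' ℝ (u x)
    have hL : ‖φ.comp u‖ ≤ 1 := by
      refine ContinuousLinearMap.opNorm_le_bound _ zero_le_one fun y => ?_
      have := φ.le_opNorm (u y)
      rw [ContinuousLinearMap.comp_apply]
      nlinarith [norm_nonneg (u y), hu y]
    have h2 : MemLp (φ.comp u) 2 (stdGaussian V) := IsGaussian.memLp_dual _ _ _ (by simp)
    have h3 := (h2.integrable (by norm_num)).abs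
    have h4 : ∫ y, max (rotF u 0 (x, y) - rotF u h (x, y)) 0 ∂(stdGaussian V) ≤
        ∫ y, ((1 - cos h) * ‖u x‖ + |sin h| * |(φ.comp u) y|) ∂(stdGaussian V) := by
      apply integral_mono_of_nonneg (ae_of_all _ fun y => le_max_right _ _)
        ((integrable_const _).add (h3.const_mul _))
      refine ae_of_all _ fun y => max_le ?_ (by simp only [Pi.add_apply]; positivity)
      have h5 : φ (u (cos h • x + sin h • y)) ≤ rotF u h (x, y) := by
        have := φ.le_opNorm (u (cos h • x + sin h • y))
        have h6 := le_abs_self (φ (u (cos h • x + sin h • y)))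
        rw [Real.norm_eq_abs] at this
        simp only [rotF]
        nlinarith [norm_nonneg (u (cos h • x + sin h • y))]
      simp only [map_add, map_smul, smul_eq_mul, hφx, RCLike.ofReal_real_eq_id, id] at h5
      have h7 := neg_abs_le (sin h * φ (u y))
      rw [abs_mul] at h7
      simp only [rotF_zero, ContinuousLinearMap.comp_apply, Pi.add_apply]
      linarith
    rw [integral_add (integrable_const _) (h3.const_mul _), integral_const_mul |sin h|] at h4
    simp only [integral_const, probReal_univ, smul_eq_mul, one_mul] at h4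
    have h5 := mul_le_mul_of_nonneg_left (integral_abs_dual _ hL) (abs_nonneg (sin h))
    simp only [Pi.add_apply]
    linarith
  rw [integral_add ((integrable_norm_clm u).const_mul _) (integrable_const _),
    integral_const_mul] at h2
  simpa using h2

lemma chain (u : V →L[ℝ] B) (hu : ∀ x, ‖u x‖ ≤ ‖x‖) (h : ℝ) (k : ℕ) :
    ∫ p, |rotF u 0 p - rotF u (k * h) p| ∂((stdGaussian V).prod (stdGaussian V)) ≤
      k * (2 * ((1 - cos h) * ∫ x, ‖u x‖ ∂(stdGaussian V) + |sin h|)) := by
  induction k with
  | zero => simp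
  | succ k ih =>
    have h1 := integral_comp_rot (k * h) (fun p => |rotF u 0 p - rotF u h p|)
      ((rotF_cont u 0).sub (rotF_cont u h)).abs
    simp only [← rotF_add, add_zero] at h1
    have h2 := one_step u hu h
    have i1 := (rotF_integrable_sub u 0 (k * h)).abs
    have i2 := (rotF_integrable_sub u (k * h) (k * h + h)).abs
    have h3 : ∫ p, |rotF u 0 p - rotF u (k * h + h) p| ∂((stdGaussian V).prod (stdGaussian V)) ≤
        ∫ p, (|rotF u 0 p - rotF u (k * h) p| + |rotF u (k * h) p - rotF u (k * h + h) p|)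
          ∂((stdGaussian V).prod (stdGaussian V)) :=
      integral_mono ((rotF_integrable u 0).sub (rotF_integrable u (k * h + h))).abs (i1.add i2)
        (fun p => abs_sub_le _ _ _)
    rw [integral_add i1 i2] at h3
    push_cast
    rw [add_mul, one_mul]
    linarith

lemma two_point (u : V →L[ℝ] B) (hu : ∀ x, ‖u x‖ ≤ ‖x‖) :
    ∫ p, |rotF u 0 p - rotF u (π / 2) p| ∂((stdGaussian V).prod (stdGaussian V)) ≤ 5 := by
  set M := ∫ x, ‖u x‖ ∂(stdGaussian V) with hM
  have hM0 : 0 ≤ M := integral_nonneg fun _ => norm_nonneg _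
  obtain ⟨k, hk⟩ := exists_nat_gt (4 * M)
  have hk0 : (0 : ℝ) < k := by linarith
  set h := π / 2 / k with hh
  have hh0 : 0 < h := by positivity
  have e : k * h = π / 2 := by rw [hh]; field_simp
  have h1 := chain u hu h k
  rw [e, ← hM] at h1
  refine h1.trans ?_
  have h2 := one_sub_sq_div_two_le_cos (x := h)
  have h3 := abs_sin_le_abs (x := h)
  rw [abs_of_pos hh0] at h3
  have h4 : (1 - cos h) * M ≤ h ^ 2 / 2 * M := mul_le_mul_of_nonneg_right (by linarith) hM0
  have h5 : k * (2 * ((1 - cos h) * M + |sin h|)) ≤ k * (2 * (h ^ 2 / 2 * M + h)) :=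
    mul_le_mul_of_nonneg_left (by linarith) hk0.le
  have h6 : k * (2 * (h ^ 2 / 2 * M + h)) = (k * h) * (h * M) + 2 * (k * h) := by ring
  have h7 : h * M ≤ 1 / 2 := by
    have : k * (h * M) ≤ k * (1 / 2) := by
      rw [← mul_assoc, e]; nlinarith [pi_le_four]
    exact le_of_mul_le_mul_left this hk0
  rw [h6, e] at h5
  nlinarith [pi_le_four, pi_pos]

lemma concentration (u : V →L[ℝ] B) (hu : ∀ x, ‖u x‖ ≤ ‖x‖) (t : ℝ) :
    t * (stdGaussian V).real {x | t ≤ |‖u x‖ - ∫ y, ‖u y‖ ∂(stdGaussian V)|} ≤ 5 := by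
  have hi := integrable_norm_clm u
  refine (mul_meas_ge_le_integral_of_nonneg (ae_of_all _ fun x => abs_nonneg _)
    (hi.sub (integrable_const _)).abs t).trans (le_trans ?_ (two_point u hu))
  have i1 := (rotF_integrable_sub u 0 (π / 2)).abs
  rw [integral_prod _ i1]
  apply integral_mono (hi.sub (integrable_const _)).abs i1.integral_prod_left
  intro x
  have e : ‖u x‖ - ∫ y, ‖u y‖ ∂(stdGaussian V) = ∫ y, (‖u x‖ - ‖u y‖) ∂(stdGaussian V) := by
    rw [integral_sub (integrable_const _) hi]; simp
  simp only [Pi.sub_apply, e]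
  refine (abs_integral_le_integral_abs).trans (le_of_eq ?_)
  simp [rotF]

end Crest.Agent.R254
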