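import Crest.Agent.R254.Conc

set_option autoImplicit false
set_option linter.unusedSectionVars false

namespace Crest.Agent.R254

open scoped RealInnerProductSpace
open MeasureTheory ProbabilityTheory Real

variable {B : Type*} [NormedAddCommGroup B] [NormedSpace ℝ B]

lemma cube_measure (n : ℕ) (R : ℝ) :
    (stdGaussian (EuclideanSpace ℝ (Fin n))).real {x | ∀ l, |x l| ≤ R} =
      ((gaussianReal 0 1).real (Set.Icc (-R) R)) ^ n := by
  have hm : MeasurableSet {x : EuclideanSpace ℝ (Fin n) | ∀ l, |x l| ≤ R} := by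
    have : {x : EuclideanSpace ℝ (Fin n) | ∀ l, |x l| ≤ R} = ⋂ l, {x | |x l| ≤ R} := by
      ext x; simp
    rw [this]
    exact (isClosed_iInter fun l => isClosed_le (by fun_prop) continuous_const).measurableSet
  rw [← map_pi_eq_stdGaussian, Measure.real, Measure.map_apply (by fun_prop) hm]
  have : (WithLp.toLp 2 ⁻¹' {x : EuclideanSpace ℝ (Fin n) | ∀ l, |x l| ≤ R}) =
      Set.univ.pi (fun _ : Fin n => Set.Icc (-R) R) := by
    ext x; simp [abs_le, Pi.le_def, forall_and]
  rw [this, Measure.pi_pi]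
  simp [Measure.real]

lemma gauss_Icc_lt (R : ℝ) : (gaussianReal 0 1).real (Set.Icc (-R) R) < 1 := by
  have h1 : (gaussianReal 0 1) (Set.Ioi R) ≠ 0 := by
    intro h
    have := gaussianReal_absolutelyContinuous' 0 (v := 1) one_ne_zero h
    simp at this
  have h2 : 0 < (gaussianReal 0 1).real (Set.Ioi R) :=
    ENNReal.toReal_pos h1 (measure_ne_top _ _)
  have h3 := measureReal_union (μ := gaussianReal 0 1) (s₁ := Set.Icc (-R) R) (s₂ := Set.Ioi R)
    (Set.disjoint_left.2 fun x hx hx' => absurd hx.2 (not_le.2 hx')) measurableSet_Ioi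
  have h4 : (gaussianReal 0 1).real (Set.Icc (-R) R ∪ Set.Ioi R) ≤ 1 := measureReal_le_one
  linarith

/-- reflection of the `i`-th coordinate -/
noncomputable def flip {n : ℕ} (i : Fin n) :
    EuclideanSpace ℝ (Fin n) ≃ₗᵢ[ℝ] EuclideanSpace ℝ (Fin n) :=
  LinearIsometryEquiv.piLpCongrRight 2
    (fun l => if l = i then LinearIsometryEquiv.neg ℝ else LinearIsometryEquiv.refl ℝ ℝ)

lemma flip_apply {n : ℕ} (i l : Fin n) (x : EuclideanSpace ℝ (Fin n)) :
    flip i x l = if l = i then -x l else x l := by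
  simp only [flip, LinearIsometryEquiv.piLpCongrRight_apply]
  split_ifs <;> simp

lemma mean_lower {n : ℕ} (u : EuclideanSpace ℝ (Fin n) →L[ℝ] B)
    (hu : ∀ i, 2 / 5 ≤ ‖u (EuclideanSpace.single i 1)‖) (R : ℝ) (hR : 0 ≤ R) :
    2 / 5 * R * (1 - ((gaussianReal 0 1).real (Set.Icc (-R) R)) ^ n) ≤
      ∫ x, ‖u x‖ ∂(stdGaussian (EuclideanSpace ℝ (Fin n))) := by
  classical
  set μ := stdGaussian (EuclideanSpace ℝ (Fin n)) with hμ
  let A : Fin n → Set (EuclideanSpace ℝ (Fin n)) := fun i =>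
    {x | R < |x i|} ∩ ⋂ l, ⋂ (_ : l < i), {x | |x l| ≤ R}
  have hAm : ∀ i, MeasurableSet (A i) := fun i =>
    (isOpen_lt continuous_const (by fun_prop)).measurableSet.inter
      (isClosed_iInter fun l => isClosed_iInter fun _ =>
        isClosed_le (by fun_prop) continuous_const).measurableSet
  have hAd : Pairwise (Function.onFun Disjoint A) := by
    intro i l hil
    refine Set.disjoint_left.2 fun x hx hx' => ?_
    simp only [A, Set.mem_inter_iff, Set.mem_ofPred_eq, Set.mem_iInter] at hx hx'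
    rcases lt_or_gt_of_ne hil with h | h
    · linarith [hx'.2 i h, hx.1]
    · linarith [hx.2 l h, hx'.1]
  have hi : Integrable (fun x => ‖u x‖) μ := integrable_norm_clm u
  have hA : ∀ i, 2 / 5 * R * μ.real (A i) ≤ ∫ x in A i, ‖u x‖ ∂μ := by
    intro i
    have mp : MeasurePreserving (flip i) μ μ :=
      ⟨(flip i).continuous.measurable, stdGaussian_map (flip i)⟩
    have hpre : flip i ⁻¹' A i = A i := by
      have : ∀ (x : EuclideanSpace ℝ (Fin n)) l, |flip i x l| = |x l| := by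
        intro x l; rw [flip_apply]; split_ifs <;> simp
      ext x
      simp only [A, Set.mem_preimage, Set.mem_inter_iff, Set.mem_ofPred_eq, Set.mem_iInter, this]
    have h1 := mp.setIntegral_preimage_emb (flip i).toHomeomorph.measurableEmbedding
      (fun x => ‖u x‖) (A i)
    rw [hpre] at h1
    have hi2 : Integrable (fun x => ‖u (flip i x)‖) μ := mp.integrable_comp_of_integrable hi
    have h2 : ∫ x in A i, (4 / 5 * R) ∂μ ≤ ∫ x in A i, (‖u x‖ + ‖u (flip i x)‖) ∂μ := by
      refine setIntegral_mono_on (integrable_const _).integrableOn (hi.add hi2).integrableOn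
        (hAm i) fun x hx => ?_
      have e : x - flip i x = (2 * x i) • EuclideanSpace.single i (1 : ℝ) := by
        ext l
        rw [PiLp.sub_apply, flip_apply]
        by_cases h : l = i
        · subst h; simp; ring
        · simp [h]
      have h3 := norm_sub_le (u x) (u (flip i x))
      rw [← map_sub, e, map_smul, norm_smul, Real.norm_eq_abs, abs_mul] at h3
      have h4 : R < |x i| := hx.1
      have h5 := mul_le_mul h4.le (hu i) (by norm_num) (abs_nonneg _)
      norm_num at h3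
      linarith
    rw [integral_add hi.integrableOn hi2.integrableOn, h1] at h2
    simp only [integral_const, MeasurableSet.univ, measureReal_restrict_apply, Set.univ_inter,
      smul_eq_mul] at h2
    linarith
  have h1 := Finset.sum_le_sum (s := Finset.univ) (fun i _ => hA i)
  rw [← integral_iUnion_fintype hAm hAd (fun i => hi.integrableOn), ← Finset.mul_sum] at h1
  have h2 : ∫ x in ⋃ i, A i, ‖u x‖ ∂μ ≤ ∫ x, ‖u x‖ ∂μ :=
    setIntegral_le_integral hi (ae_of_all _ fun _ => norm_nonneg _)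
  have h3 : (1 : ℝ) ≤ μ.real {x | ∀ l, |x l| ≤ R} + ∑ i, μ.real (A i) := by
    have h4 : (Set.univ : Set (EuclideanSpace ℝ (Fin n))) ⊆ {x | ∀ l, |x l| ≤ R} ∪ ⋃ i, A i := by
      intro x _
      by_cases hx : ∀ l, |x l| ≤ R
      · exact Or.inl hx
      right
      push Not at hx
      obtain ⟨i, hi, hmin⟩ := Finset.exists_min_image (Finset.univ.filter fun l => R < |x l|) id
        (by obtain ⟨l, hl⟩ := hx; exact ⟨l, by simp [hl]⟩)
      refine Set.mem_iUnion.2 ⟨i, (Finset.mem_filter.1 hi).2, ?_⟩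
      simp only [Set.mem_iInter, Set.mem_ofPred_eq]
      intro l hl
      by_contra h
      exact absurd (hmin l (by simp [not_le.1 h])) (not_le.2 hl)
    have h5 := measureReal_mono (μ := μ) h4
    rw [probReal_univ] at h5
    refine h5.trans ((measureReal_union_le _ _).trans ?_)
    linarith [measureReal_iUnion_fintype_le (μ := μ) A]
  rw [hμ, cube_measure, ← hμ] at h3
  refine le_trans ?_ (h1.trans h2)
  exact mul_le_mul_of_nonneg_left (by linarith) (by positivity)

lemma exists_large_mean (hB : ¬ FiniteDimensional ℝ B) (R : ℝ) (hR : 0 ≤ R) :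
    ∃ (n : ℕ) (u : EuclideanSpace ℝ (Fin n) →L[ℝ] B), (∀ x, ‖u x‖ ≤ ‖x‖) ∧
      R ≤ ∫ x, ‖u x‖ ∂(stdGaussian (EuclideanSpace ℝ (Fin n))) := by
  obtain ⟨n, hn⟩ := exists_pow_lt_of_lt_one (show (0 : ℝ) < 1 / 2 by norm_num)
    (gauss_Icc_lt (5 * R))
  obtain ⟨u, hu, hu'⟩ := dvoretzky_rogers hB n
  refine ⟨n, u, hu, le_trans ?_ (mean_lower u hu' (5 * R) (by positivity))⟩
  nlinarith

/-- Dvoretzky's theorem for finitely many directions. -/
lemma dvo_fin (hB : ¬ FiniteDimensional ℝ B) {H : Type*} [NormedAddCommGroup H]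
    [InnerProductSpace ℝ H] [FiniteDimensional ℝ H] (D : Finset H) :
    ∃ T : H →ₗ[ℝ] B, ∀ x ∈ D, ‖x‖ ≤ ‖T x‖ ∧ ‖T x‖ ≤ 3 * ‖x‖ := by
  classical
  obtain ⟨n, u, hu, hM⟩ := exists_large_mean hB (10 * D.card + 1) (by positivity)
  set M := ∫ x, ‖u x‖ ∂(stdGaussian (EuclideanSpace ℝ (Fin n))) with hMdef
  have hM0 : 0 < M := lt_of_lt_of_le (by positivity) hM
  let W := PiLp 2 (fun _ : Fin n => H)
  borelize W
  let A : H → W → EuclideanSpace ℝ (Fin n) := fun x G => WithLp.toLp 2 (fun i => ⟪G i, x⟫)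
  have hAc : ∀ x, Continuous (A x) := fun x =>
    (PiLp.continuous_toLp 2 _).comp (continuous_pi fun i =>
      (PiLp.continuous_apply 2 (fun _ : Fin n => H) i).inner continuous_const)
  have hlaw : ∀ x : H, ‖x‖ = 1 →
      (stdGaussian W).map (A x) = stdGaussian (EuclideanSpace ℝ (Fin n)) := by
    intro x hx
    apply Measure.ext_of_charFun
    ext t
    let τ : W := WithLp.toLp 2 (fun i => t i • x)
    have h1 : ∀ G : W, ⟪A x G, t⟫ = ⟪G, τ⟫ := by
      intro G
      rw [PiLp.inner_apply, PiLp.inner_apply]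
      simp [A, τ, inner_smul_right]
    have h2 : ‖τ‖ ^ 2 = ‖t‖ ^ 2 := by
      rw [PiLp.norm_sq_eq_of_L2, EuclideanSpace.norm_sq_eq]
      simp [τ, norm_smul, hx]
    rw [charFun_apply, integral_map (hAc x).measurable.aemeasurable (by fun_prop)]
    simp only [h1]
    rw [← charFun_apply, charFun_stdGaussian, charFun_stdGaussian]
    norm_cast
    rw [h2]
  let bad : Set (EuclideanSpace ℝ (Fin n)) := {y | M / 2 ≤ |‖u y‖ - M|}
  have hbm : MeasurableSet bad := (isClosed_le continuous_const (by fun_prop)).measurableSet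
  have hbad : (stdGaussian (EuclideanSpace ℝ (Fin n))).real bad ≤ 10 / M := by
    have := concentration u hu (M / 2)
    rw [le_div_iff₀ hM0]
    linarith
  let D' := D.filter (fun x => x ≠ 0)
  have hsum : (stdGaussian W).real (⋃ x ∈ D', A (‖x‖⁻¹ • x) ⁻¹' bad) < 1 := by
    refine (measureReal_biUnion_finset_le _ _).trans_lt ?_
    have h1 : ∀ x ∈ D', (stdGaussian W).real (A (‖x‖⁻¹ • x) ⁻¹' bad) ≤ 10 / M := by
      intro x hx
      have hx0 : x ≠ 0 := (Finset.mem_filter.1 hx).2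
      have := hlaw (‖x‖⁻¹ • x)
        (by rw [norm_smul, norm_inv, norm_norm, inv_mul_cancel₀ (norm_ne_zero_iff.2 hx0)])
      rw [← this, map_measureReal_apply (hAc _).measurable hbm] at hbad
      exact hbad
    refine (Finset.sum_le_card_nsmul _ _ _ h1).trans_lt ?_
    have h2 : (D'.card : ℝ) ≤ D.card := by exact_mod_cast Finset.card_filter_le _ _
    rw [nsmul_eq_mul, ← mul_div_assoc, div_lt_one hM0]
    linarith
  obtain ⟨G, hG⟩ : ∃ G : W, G ∉ ⋃ x ∈ D', A (‖x‖⁻¹ • x) ⁻¹' bad := by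
    by_contra h
    push Not at h
    rw [Set.eq_univ_of_forall h, probReal_univ] at hsum
    exact lt_irrefl _ hsum
  let T₀ : H →ₗ[ℝ] EuclideanSpace ℝ (Fin n) :=
    { toFun := fun x => A x G
      map_add' := fun x y => by ext i; simp [A, inner_add_right]
      map_smul' := fun c x => by ext i; simp [A, inner_smul_right] }
  refine ⟨(2 / M) • ((u : EuclideanSpace ℝ (Fin n) →ₗ[ℝ] B) ∘ₗ T₀), fun x hx => ?_⟩
  by_cases hx0 : x = 0
  · simp [hx0]
  have hn : 0 < ‖x‖ := norm_pos_iff.2 hx0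
  simp only [Set.mem_iUnion, not_exists] at hG
  have h1 : ¬ (M / 2 ≤ |‖u (T₀ (‖x‖⁻¹ • x))‖ - M|) := hG x (Finset.mem_filter.2 ⟨hx, hx0⟩)
  rw [not_le, abs_lt, map_smul, map_smul, norm_smul, norm_inv, norm_norm] at h1
  have e : ‖((2 / M) • ((u : EuclideanSpace ℝ (Fin n) →ₗ[ℝ] B) ∘ₗ T₀)) x‖ =
      2 / M * (‖x‖ * (‖x‖⁻¹ * ‖u (T₀ x)‖)) := by
    rw [LinearMap.smul_apply, norm_smul, Real.norm_of_nonneg (by positivity), ← mul_assoc ‖x‖,
      mul_inv_cancel₀ hn.ne', one_mul]
    rfl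
  rw [e, div_mul_eq_mul_div, le_div_iff₀ hM0, div_le_iff₀ hM0]
  constructor <;> nlinarith [h1.1, h1.2]

/-- finite subsets of inner product spaces embed in `B` with distortion `3` -/
theorem dvo (hB : ¬ FiniteDimensional ℝ B) {H : Type*} [NormedAddCommGroup H]
    [InnerProductSpace ℝ H] (K : Finset H) :
    ∃ T : H → B, ∀ p ∈ K, ∀ q ∈ K, ‖p - q‖ ≤ ‖T p - T q‖ ∧ ‖T p - T q‖ ≤ 3 * ‖p - q‖ := by
  classical
  let S := Submodule.span ℝ (↑K : Set H)
  have := FiniteDimensional.span_finset ℝ K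
  let ι : H → S := fun p => if h : p ∈ K then ⟨p, Submodule.subset_span h⟩ else 0
  obtain ⟨T, hT⟩ := dvo_fin hB ((K ×ˢ K).image (fun x => ι x.1 - ι x.2))
  refine ⟨fun p => T (ι p), fun p hp q hq => ?_⟩
  have h1 := hT (ι p - ι q) (Finset.mem_image.2 ⟨(p, q), Finset.mem_product.2 ⟨hp, hq⟩, rfl⟩)
  have e : ‖ι p - ι q‖ = ‖p - q‖ := by
    simp only [ι, dif_pos hp, dif_pos hq]; rfl
  rwa [e, map_sub] at h1

end Crest.Agent.R254
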