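import Crest.Agent.R254.Layout2

set_option autoImplicit false
set_option linter.unusedSectionVars false

namespace Crest.Agent.R254

lemma exists_sep {H : Type*} [NormedAddCommGroup H] (U : Finset H) :
    ∃ ε : ℝ, 0 < ε ∧ ∀ p ∈ U, ∀ q ∈ U, p ≠ q → ε ≤ ‖p - q‖ := by
  classical
  rcases ((U ×ˢ U).filter (fun x => x.1 ≠ x.2)).eq_empty_or_nonempty with h | h
  · refine ⟨1, one_pos, fun p hp q hq hpq => ?_⟩
    have : (p, q) ∈ (U ×ˢ U).filter (fun x => x.1 ≠ x.2) := by simp [hp, hq, hpq]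
    rw [h] at this; simp at this
  · obtain ⟨x, hx, hmin⟩ := Finset.exists_min_image _ (fun x : H × H => ‖x.1 - x.2‖) h
    refine ⟨‖x.1 - x.2‖, norm_pos_iff.2 (sub_ne_zero.2 (Finset.mem_filter.1 hx).2), ?_⟩
    intro p hp q hq hpq
    exact hmin (p, q) (by simp [hp, hq, hpq])

variable {H E : Type*} [NormedAddCommGroup H] [NormedSpace ℝ H] [NormedAddCommGroup E]
  [InnerProductSpace ℝ E] [DecidableEq H]

/-- placing a point of the small copy in the cell `x` -/
noncomputable def place (T : ℕ) (x : ℕ × H) (y : ℝ × H) : ℝ × H :=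
  ((x.1 : ℝ), x.2) + (T : ℝ)⁻¹ • y

open Classical in
/-- the iterated layouts -/
noncomputable def iter (T : ℕ) (Cs : Finset (ℕ × H)) : ℕ → Finset (ℝ × H)
  | 0 => {((0 : ℝ), (0 : H)), ((T : ℝ), (0 : H))}
  | n + 1 => Cs.biUnion (fun x => (iter T Cs n).image (place T x))

lemma mem_iter_succ {T : ℕ} {Cs : Finset (ℕ × H)} {n : ℕ} {z : ℝ × H} :
    z ∈ iter T Cs (n + 1) ↔ ∃ x ∈ Cs, ∃ y ∈ iter T Cs n, place T x y = z := by
  simp [iter]

lemma place_zero (T : ℕ) (x : ℕ × H) : place T x (0, 0) = ((x.1 : ℝ), x.2) := by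
  simp [place]

lemma place_end {T : ℕ} (hT : 0 < T) (x : ℕ × H) :
    place T x ((T : ℝ), 0) = (((x.1 + 1 : ℕ) : ℝ), x.2) := by
  have : (T : ℝ) ≠ 0 := by exact_mod_cast hT.ne'
  simp [place, this]

lemma place_sub (T : ℕ) (x : ℕ × H) (y y' : ℝ × H) :
    place T x y - place T x y' = (T : ℝ)⁻¹ • (y - y') := by
  simp only [place, smul_sub]; abel

lemma ends_mem {T : ℕ} (hT : 0 < T) {Cs : Finset (ℕ × H)} (h0 : ∀ k < T, (k, (0 : H)) ∈ Cs)
    (n : ℕ) : ((0 : ℝ), (0 : H)) ∈ iter T Cs n ∧ ((T : ℝ), (0 : H)) ∈ iter T Cs n := by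
  induction n with
  | zero => simp [iter]
  | succ n ih =>
    constructor
    · exact mem_iter_succ.2 ⟨(0, 0), h0 0 hT, _, ih.1, by rw [place_zero]; simp⟩
    · refine mem_iter_succ.2 ⟨(T - 1, 0), h0 _ (by omega), _, ih.2, ?_⟩
      rw [place_end hT]
      simp only
      rw [Nat.sub_add_cancel hT]

lemma cone_iter {T M : ℕ} {D : ℝ} (hT : 2 ≤ T) (hD : 0 ≤ D) (hM : 2 * D ≤ M)
    {Cs : Finset (ℕ × H)}
    (hC : ∀ x ∈ Cs, (x.2 = 0 ∧ x.1 < T) ∨ (M ≤ x.1 ∧ x.1 + 1 + M ≤ T ∧ ‖x.2‖ ≤ D)) (n : ℕ) :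
    ∀ y ∈ iter T Cs n, ‖y.2‖ ≤ y.1 ∧ ‖y.2‖ ≤ T - y.1 ∧ ‖y.2‖ ≤ 2 * D := by
  have hT' : (2 : ℝ) ≤ T := by exact_mod_cast hT
  induction n with
  | zero =>
    intro y hy
    simp only [iter, Finset.mem_insert, Finset.mem_singleton] at hy
    rcases hy with rfl | rfl <;> simp [hD]
  | succ n ih =>
    intro z hz
    obtain ⟨x, hx, y, hy, rfl⟩ := mem_iter_succ.1 hz
    obtain ⟨h1, h2, h3⟩ := ih y hy
    have hTi : (0 : ℝ) < (T : ℝ)⁻¹ := by positivity
    have hTT : (T : ℝ)⁻¹ * T = 1 := inv_mul_cancel₀ (by positivity)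
    have hTh : (T : ℝ)⁻¹ ≤ 1 / 2 := by
      rw [inv_eq_one_div]; exact one_div_le_one_div_of_le (by norm_num) hT'
    have hn : ‖(T : ℝ)⁻¹ • y.2‖ = (T : ℝ)⁻¹ * ‖y.2‖ := by
      rw [norm_smul, Real.norm_of_nonneg hTi.le]
    have hy0 := norm_nonneg y.2
    have e1 : (T : ℝ)⁻¹ * ‖y.2‖ ≤ (T : ℝ)⁻¹ * y.1 := mul_le_mul_of_nonneg_left h1 hTi.le
    have e2 : (T : ℝ)⁻¹ * ‖y.2‖ ≤ (T : ℝ)⁻¹ * (T - y.1) := mul_le_mul_of_nonneg_left h2 hTi.le
    have e3 : (T : ℝ)⁻¹ * ‖y.2‖ ≤ D := by nlinarith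
    have e4 : 0 ≤ (T : ℝ)⁻¹ * ‖y.2‖ := by positivity
    have hx0 : (0 : ℝ) ≤ x.1 := Nat.cast_nonneg _
    simp only [place, Prod.fst_add, Prod.snd_add, Prod.smul_fst, Prod.smul_snd, smul_eq_mul]
    rcases hC x hx with ⟨h4, h5⟩ | ⟨h4, h5, h6⟩
    · have h5' : (x.1 : ℝ) + 1 ≤ T := by exact_mod_cast h5
      rw [h4, zero_add, hn]
      refine ⟨by linarith, by nlinarith, by linarith⟩
    · have h4' : (M : ℝ) ≤ x.1 := by exact_mod_cast h4
      have h5' : (x.1 : ℝ) + 1 + M ≤ T := by exact_mod_cast h5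
      have := norm_add_le x.2 ((T : ℝ)⁻¹ • y.2)
      rw [hn] at this
      refine ⟨by linarith, by nlinarith, by linarith⟩

lemma energy_iter {T : ℕ} {L : ℝ} (hL : 1 ≤ L) (hT : 0 < T) {Cs : Finset (ℕ × H)}
    (h0 : ∀ k < T, (k, (0 : H)) ∈ Cs)
    (hen : ∀ (f : ℕ → H → E) (A : ℝ), A ≤ L ^ 2 → AdmF L A (fun k b => (k, b) ∈ Cs) f →
      ‖f T 0 - f 0 0‖ ^ 2 ≤ T * (T * A - 1)) (n : ℕ) :
    ∀ f : ℝ × H → E, BL 1 L (iter T Cs n) f →
      ‖f (T, 0) - f (0, 0)‖ ^ 2 ≤ T * (T * L ^ 2 - n) := by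
  have hT' : (0 : ℝ) < T := by exact_mod_cast hT
  induction n with
  | zero =>
    intro f hf
    have := (hf _ (ends_mem hT h0 0).2 _ (ends_mem hT h0 0).1).2
    have e : ‖((T : ℝ), (0 : H)) - ((0 : ℝ), (0 : H))‖ = T := by
      simp [Prod.norm_def]
    rw [e] at this
    have h2 := pow_le_pow_left₀ (norm_nonneg _) this 2
    simp only [Nat.cast_zero, sub_zero]
    nlinarith
  | succ n ih =>
    intro f hf
    have hpres : ∀ k b, Pres (fun k b => (k, b) ∈ Cs) k b → ((k : ℝ), b) ∈ iter T Cs (n + 1) := by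
      rintro k b (h | ⟨j, rfl, h⟩)
      · exact mem_iter_succ.2 ⟨_, h, _, (ends_mem hT h0 n).1, place_zero _ _⟩
      · exact mem_iter_succ.2 ⟨_, h, _, (ends_mem hT h0 n).2, place_end hT _⟩
    have key := hen (fun k b => f (k, b)) (L ^ 2 - n / T)
      (by have : (0 : ℝ) ≤ n / T := by positivity
          linarith) ⟨?_, ?_⟩
    · simp only [Nat.cast_zero] at key
      refine key.trans (le_of_eq ?_)
      push_cast; field_simp; ring
    · intro k b b' hb hb'
      have := hf _ (hpres k b hb) _ (hpres k b' hb')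
      have e : ‖((k : ℝ), b) - ((k : ℝ), b')‖ = ‖b - b'‖ := by
        simp [Prod.norm_def]
      rw [e, one_mul] at this
      exact this
    · intro k b hkb
      have := ih (fun y => (T : ℝ) • f (place T (k, b) y)) (by
        intro p hp q hq
        have h1 := hf _ (mem_iter_succ.2 ⟨_, hkb, p, hp, rfl⟩) _
          (mem_iter_succ.2 ⟨_, hkb, q, hq, rfl⟩)
        rw [place_sub, norm_smul, Real.norm_of_nonneg (by positivity)] at h1
        rw [← smul_sub, norm_smul, Real.norm_of_nonneg hT'.le]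
        constructor
        · have := mul_le_mul_of_nonneg_left h1.1 hT'.le
          refine le_trans (le_of_eq ?_) this
          field_simp
        · have := mul_le_mul_of_nonneg_left h1.2 hT'.le
          refine this.trans (le_of_eq ?_)
          field_simp)
      simp only [place_zero, place_end hT] at this
      rw [← smul_sub, norm_smul, Real.norm_of_nonneg hT'.le, mul_pow] at this
      have e : (T : ℝ) * (T * L ^ 2 - n) = T ^ 2 * (L ^ 2 - n / T) := by field_simp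
      rw [e] at this
      exact le_of_mul_le_mul_left this (by positivity)

lemma slab_iter {T M Λ : ℕ} {D ε C : ℝ} (hT : 2 ≤ T) (hD : 0 ≤ D) (hM : 2 * D + 1 ≤ M)
    (hC1 : 1 ≤ C) (hε : (8 * C + 4) * D < ε * T)
    {Cs : Finset (ℕ × H)}
    (hC : ∀ x ∈ Cs, (x.2 = 0 ∧ x.1 < T) ∨ (M ≤ x.1 ∧ x.1 + 1 + M ≤ T ∧ ‖x.2‖ ≤ D))
    (hsep : ∀ x ∈ Cs, ∀ x' ∈ Cs, x.2 ≠ x'.2 → ε ≤ ‖x.2 - x'.2‖)
    (hwin : ∀ n₀, ∃ G : Finset H, Pack (↑G : Set H) (2 * C + 1) Λ ∧
      ∀ x ∈ Cs, n₀ ≤ x.1 → x.1 ≤ n₀ + M → x.2 = 0 ∨ x.2 ∈ G) (n : ℕ) :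
    ∀ r : ℝ, 0 < r → ∀ Z : Finset (ℝ × H), Z ⊆ iter T Cs n →
      (∀ z ∈ Z, ∀ z' ∈ Z, z ≠ z' → r ≤ dist z z' ∧ dist z z' ≤ C * r) →
      (∀ z ∈ Z, ∀ z' ∈ Z, |z.1 - z'.1| ≤ r / 4) → Z.card ≤ Λ + 1 := by
  classical
  have hT' : (2 : ℝ) ≤ T := by exact_mod_cast hT
  have hcone := cone_iter hT hD (by linarith) hC
  have htr : ∀ (r : ℝ) (z z' : ℝ × H), 0 < r → r ≤ dist z z' → |z.1 - z'.1| ≤ r / 4 →
      dist z z' = ‖z.2 - z'.2‖ := by
    intro r z z' hr h1 h2
    rw [Prod.dist_eq, Real.dist_eq, dist_eq_norm] at *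
    rcases le_total |z.1 - z'.1| ‖z.2 - z'.2‖ with h | h
    · exact max_eq_right h
    · rw [max_eq_left h] at h1; linarith
  induction n with
  | zero =>
    intro r hr Z hZ hs ht
    refine le_trans (Finset.card_le_one.2 ?_) (by omega)
    intro z hz z' hz'
    by_contra hne
    have h1 := (hs z hz z' hz' hne).1
    rw [htr r z z' hr h1 (ht z hz z' hz')] at h1
    have e : ∀ y ∈ iter T Cs 0, y.2 = 0 := by
      intro y hy
      simp only [iter, Finset.mem_insert, Finset.mem_singleton] at hy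
      rcases hy with rfl | rfl <;> rfl
    rw [e z (hZ hz), e z' (hZ hz')] at h1
    simp at h1; linarith
  | succ n ih =>
    intro r hr Z hZ hs ht
    by_cases hone : Z.card ≤ 1
    · omega
    have hs' : ∀ z ∈ Z, ∀ z' ∈ Z, z ≠ z' → r ≤ ‖z.2 - z'.2‖ ∧ ‖z.2 - z'.2‖ ≤ C * r := by
      intro z hz z' hz' hne
      have h1 := hs z hz z' hz' hne
      rwa [htr r z z' hr h1.1 (ht z hz z' hz')] at h1
    have hr4 : r ≤ 4 * D := by
      obtain ⟨z, hz, z', hz', hne⟩ := Finset.one_lt_card.1 (not_le.1 hone)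
      have h1 := (hs' z hz z' hz' hne).1
      have h2 := (hcone _ z (hZ hz)).2.2
      have h3 := (hcone _ z' (hZ hz')).2.2
      have := norm_sub_le z.2 z'.2
      linarith
    have hex : ∀ z : ℝ × H, ∃ x : ℕ × H, ∃ y : ℝ × H, z ∈ Z →
        x ∈ Cs ∧ y ∈ iter T Cs n ∧ place T x y = z := by
      intro z
      by_cases hz : z ∈ Z
      · obtain ⟨x, hx, y, hy, e⟩ := mem_iter_succ.1 (hZ hz)
        exact ⟨x, y, fun _ => ⟨hx, hy, e⟩⟩
      · exact ⟨(0, 0), 0, fun h => absurd h hz⟩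
    choose x y hxy using hex
    have hTi : (0 : ℝ) < (T : ℝ)⁻¹ := by positivity
    have hTT : (T : ℝ)⁻¹ * T = 1 := inv_mul_cancel₀ (by positivity)
    have hz1 : ∀ z ∈ Z, z.1 = (x z).1 + (T : ℝ)⁻¹ * (y z).1 := by
      intro z hz
      conv_lhs => rw [← (hxy z hz).2.2]
      simp [place]
    have hz2 : ∀ z ∈ Z, ‖z.2 - (x z).2‖ = (T : ℝ)⁻¹ * ‖(y z).2‖ := by
      intro z hz
      have : z.2 = (x z).2 + (T : ℝ)⁻¹ • (y z).2 := by
        conv_lhs => rw [← (hxy z hz).2.2]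
        simp [place]
      rw [this, add_sub_cancel_left, norm_smul, Real.norm_of_nonneg hTi.le]
    have hb : ∀ z ∈ Z, ‖z.2 - (x z).2‖ ≤ z.1 - (x z).1 ∧ ‖z.2 - (x z).2‖ ≤ (x z).1 + 1 - z.1 ∧
        ‖z.2 - (x z).2‖ ≤ (T : ℝ)⁻¹ * (2 * D) := by
      intro z hz
      obtain ⟨h1, h2, h3⟩ := hcone n _ (hxy z hz).2.1
      rw [hz2 z hz, hz1 z hz]
      have e1 := mul_le_mul_of_nonneg_left h1 hTi.le
      have e2 := mul_le_mul_of_nonneg_left h2 hTi.le
      have e3 := mul_le_mul_of_nonneg_left h3 hTi.le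
      refine ⟨by linarith, by nlinarith, e3⟩
    have hlab : ∀ z ∈ Z, ∀ z' ∈ Z, ‖z.2 - z'.2‖ ≤ ‖(x z).2 - (x z').2‖ +
        ‖z.2 - (x z).2‖ + ‖z'.2 - (x z').2‖ ∧ ‖(x z).2 - (x z').2‖ ≤ ‖z.2 - z'.2‖ +
        ‖z.2 - (x z).2‖ + ‖z'.2 - (x z').2‖ := by
      intro z hz z' hz'
      simp only [← dist_eq_norm]
      have a1 := dist_triangle4 z.2 (x z).2 (x z').2 z'.2
      have a2 := dist_triangle4 (x z).2 z.2 z'.2 (x z').2
      rw [dist_comm (x z').2 z'.2] at a1
      rw [dist_comm (x z).2 z.2] at a2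
      constructor <;> linarith
    by_cases hr8 : (T : ℝ)⁻¹ * (8 * D) ≤ r
    · -- labels are separated and lie in one history
      have hne : Z.Nonempty := Finset.card_pos.1 (by omega)
      obtain ⟨z₀, hz₀, hmin⟩ := Finset.exists_min_image Z (fun z => (x z).1) hne
      obtain ⟨G, hG, hGx⟩ := hwin (x z₀).1
      have hsepl : ∀ z ∈ Z, ∀ z' ∈ Z, z ≠ z' → r / 2 ≤ ‖(x z).2 - (x z').2‖ ∧
          ‖(x z).2 - (x z').2‖ ≤ (2 * C + 1) * (r / 2) := by
        intro z hz z' hz' hne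
        have a1 := hs' z hz z' hz' hne
        have a2 := hlab z hz z' hz'
        have a3 := (hb z hz).2.2
        have a4 := (hb z' hz').2.2
        constructor <;> nlinarith [a1.1, a1.2, a2.1, a2.2]
      have hinj : Set.InjOn (fun z => (x z).2) Z := by
        intro z hz z' hz' e
        by_contra hne
        have := (hsepl z hz z' hz' hne).1
        simp only at e
        rw [e] at this
        simp at this; linarith
      rw [← Finset.card_image_of_injOn hinj]
      have h1 : ((Z.image (fun z => (x z).2)).erase 0).card ≤ Λ := by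
        apply hG (r / 2) (by positivity)
        · intro b hb'
          have hb'' := Finset.mem_erase.1 hb'
          obtain ⟨z, hz, rfl⟩ := Finset.mem_image.1 hb''.2
          have a1 := hb z hz
          have a2 := hb z₀ hz₀
          have a3 := abs_le.1 (ht z hz z₀ hz₀)
          have a4 : ((x z).1 : ℝ) ≤ (x z₀).1 + M := by
            linarith [a1.1, a2.2.1, norm_nonneg (z.2 - (x z).2), norm_nonneg (z₀.2 - (x z₀).2)]
          rcases hGx (x z) (hxy z hz).1 (hmin z hz) (by exact_mod_cast a4) with h | h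
          · exact absurd h hb''.1
          · exact h
        · intro b hb' b' hb'' hne
          obtain ⟨z, hz, rfl⟩ := Finset.mem_image.1 (Finset.mem_erase.1 hb').2
          obtain ⟨z', hz', rfl⟩ := Finset.mem_image.1 (Finset.mem_erase.1 hb'').2
          rw [dist_eq_norm]
          exact hsepl z hz z' hz' (by rintro rfl; exact hne rfl)
      have h2 := Finset.pred_card_le_card_erase (s := Z.image (fun z => (x z).2)) (a := 0)
      omega
    · -- all points lie in one cell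
      push Not at hr8
      have hsame : ∀ z ∈ Z, ∀ z' ∈ Z, x z = x z' := by
        intro z hz z' hz'
        by_cases hne : z = z'
        · rw [hne]
        have a1 := hs' z hz z' hz' hne
        have a2 := hlab z hz z' hz'
        have a3 := hb z hz
        have a4 := hb z' hz'
        have a5 := abs_le.1 (ht z hz z' hz')
        have e2 : (x z).2 = (x z').2 := by
          by_contra h
          have a6 := hsep _ (hxy z hz).1 _ (hxy z' hz').1 h
          have a7 : (T : ℝ)⁻¹ * ((8 * C + 4) * D) < (T : ℝ)⁻¹ * (ε * T) :=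
            mul_lt_mul_of_pos_left hε hTi
          have a8 : C * r ≤ C * ((T : ℝ)⁻¹ * (8 * D)) :=
            mul_le_mul_of_nonneg_left hr8.le (by linarith)
          have a9 : (T : ℝ)⁻¹ * (ε * T) = ε := by field_simp
          nlinarith [a1.2, a2.2, a3.2.2, a4.2.2]
        have e1 : (x z).1 = (x z').1 := by
          rw [e2, sub_self, norm_zero] at a2
          rw [e2] at a3
          rcases lt_trichotomy (x z).1 (x z').1 with h | h | h
          · have : ((x z).1 : ℝ) + 1 ≤ (x z').1 := by exact_mod_cast h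
            linarith [a1.1, a2.1, a3.2.1, a4.1]
          · exact h
          · have : ((x z').1 : ℝ) + 1 ≤ (x z).1 := by exact_mod_cast h
            linarith [a1.1, a2.1, a3.1, a4.2.1]
        exact Prod.ext e1 e2
      have hdiff : ∀ z ∈ Z, ∀ z' ∈ Z, y z - y z' = (T : ℝ) • (z - z') := by
        intro z hz z' hz'
        have e := place_sub T (x z) (y z) (y z')
        rw [(hxy z hz).2.2, hsame z hz z' hz', (hxy z' hz').2.2] at e
        rw [e, smul_smul, mul_inv_cancel₀ (by positivity), one_smul]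
      have hinj : Set.InjOn y Z := by
        intro z hz z' hz' e
        have := hdiff z hz z' hz'
        rw [e, sub_self] at this
        exact sub_eq_zero.1 ((smul_eq_zero.1 this.symm).resolve_left (by positivity))
      rw [← Finset.card_image_of_injOn hinj]
      apply ih (T * r) (by positivity)
      · intro b hb'
        obtain ⟨z, hz, rfl⟩ := Finset.mem_image.1 hb'
        exact (hxy z hz).2.1
      · intro b hb' b' hb'' hne
        obtain ⟨z, hz, rfl⟩ := Finset.mem_image.1 hb'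
        obtain ⟨z', hz', rfl⟩ := Finset.mem_image.1 hb''
        have a1 := hs z hz z' hz' (by rintro rfl; exact hne rfl)
        rw [dist_eq_norm] at a1 ⊢
        rw [hdiff z hz z' hz', norm_smul, Real.norm_of_nonneg (by positivity)]
        constructor <;> nlinarith [a1.1, a1.2]
      · intro b hb' b' hb''
        obtain ⟨z, hz, rfl⟩ := Finset.mem_image.1 hb'
        obtain ⟨z', hz', rfl⟩ := Finset.mem_image.1 hb''
        have a1 := ht z hz z' hz'
        have e := congrArg Prod.fst (hdiff z hz z' hz')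
        simp only [Prod.fst_sub, Prod.smul_fst, smul_eq_mul] at e
        rw [e, abs_mul, abs_of_nonneg (by positivity)]
        nlinarith

/-- From a winning online strategy to an offline non-embeddable set. -/
theorem offline {L : ℝ} (hL : 1 ≤ L) (C Λ : ℕ) (hC : 1 ≤ C)
    (h : Win (fun G : Finset H => Pack (↑G : Set H) (2 * C + 1) Λ) (1 / 2) (2 * L) ∅
      (Set.univ : Set (H → E))) :
    ∃ K : Finset (ℝ × H), Pack (↑K : Set (ℝ × H)) C ((Λ + 1) * (8 * C + 1)) ∧
      ∀ f : ℝ × H → E, ¬ BL 1 L K f := by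
  classical
  obtain ⟨U, -, hU⟩ := layout hL h (by simpa using pack_empty _ _)
  obtain ⟨ε, hε, hsep⟩ := exists_sep (insert 0 U)
  obtain ⟨D, hD0, hD⟩ : ∃ D : ℝ, 0 ≤ D ∧ ∀ p ∈ U, ‖p‖ ≤ D :=
    ⟨∑ p ∈ U, ‖p‖, Finset.sum_nonneg (fun _ _ => norm_nonneg _),
      fun p hp => Finset.single_le_sum (f := fun p => ‖p‖) (fun _ _ => norm_nonneg _) hp⟩
  obtain ⟨M, hM⟩ := exists_nat_ge (2 * D + 1 + (8 * C + 4) * D / ε)
  have hq : 0 ≤ (8 * C + 4) * D / ε := by positivity
  obtain ⟨S, T, hT, hgeo, hen⟩ := hU ε D M hε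
    (fun p hp q hq => hsep p (Finset.mem_insert_of_mem hp) q (Finset.mem_insert_of_mem hq)) hD
  have hM1 : 1 ≤ M := by
    have : (1 : ℝ) ≤ M := by linarith
    exact_mod_cast this
  have hT' : (M : ℝ) + 1 ≤ T := by exact_mod_cast hT
  set Cs : Finset (ℕ × H) := (Finset.range T).image (fun k => (k, (0 : H))) ∪ S with hCs
  have hmem : ∀ x ∈ Cs, (x.2 = 0 ∧ x.1 < T) ∨ x ∈ S := by
    intro x hx
    rcases Finset.mem_union.1 hx with hx | hx
    · obtain ⟨k, hk, rfl⟩ := Finset.mem_image.1 hx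
      exact Or.inl ⟨rfl, Finset.mem_range.1 hk⟩
    · exact Or.inr hx
  have h0 : ∀ k < T, (k, (0 : H)) ∈ Cs := fun k hk =>
    Finset.mem_union_left _ (Finset.mem_image.2 ⟨k, Finset.mem_range.2 hk, rfl⟩)
  obtain ⟨n, hn⟩ := exists_nat_gt ((T : ℝ) * L ^ 2)
  refine ⟨iter T Cs n, ?_, ?_⟩
  · apply pack_of_slab C Prod.fst
    · intro x y
      rw [Prod.dist_eq, Real.dist_eq]; exact le_max_left _ _
    · intro r hr Z hZ
      refine slab_iter (M := M) (D := D) (ε := ε) (by omega) hD0 (by linarith)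
        (by exact_mod_cast hC) ?_ ?_ ?_ ?_ n r hr Z hZ
      · have : (8 * C + 4) * D / ε < T := by linarith
        rw [div_lt_iff₀ hε] at this
        linarith
      · intro x hx
        rcases hmem x hx with h | h
        · exact Or.inl h
        · exact Or.inr ⟨(hgeo.marg x h).1, (hgeo.marg x h).2, hD _ (hgeo.lab x h)⟩
      · have : ∀ x ∈ Cs, x.2 ∈ insert 0 U := by
          intro x hx
          rcases hmem x hx with h | h
          · rw [h.1]; exact Finset.mem_insert_self _ _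
          · exact Finset.mem_insert_of_mem (hgeo.lab x h)
        intro x hx x' hx'
        exact hsep _ (this x hx) _ (this x' hx')
      · intro n₀
        obtain ⟨G, hG, -, hx⟩ := hgeo.win n₀
        refine ⟨G, hG, fun x hx' e1 e2 => ?_⟩
        rcases hmem x hx' with h | h
        · exact Or.inl h.1
        · exact Or.inr (hx x h e1 e2)
  · intro f hf
    have := energy_iter hL (by omega) h0 (fun f A hA hf => by
      have := hen _ f A 0 hA hf (fun k hk => by simpa using h0 k hk) (by simp)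
        (fun x hx => by rw [zero_add]; exact Finset.mem_union_right _ hx) 0 (Set.mem_univ _) (by simp)
      simpa using this) n f hf
    have h2 : (0 : ℝ) < T := by linarith
    nlinarith [sq_nonneg ‖f (T, 0) - f (0, 0)‖]

end Crest.Agent.R254
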