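import Crest.Agent.R254.StepA
import Crest.Agent.R254.StepB
import Crest.Agent.R254.Dvo

set_option autoImplicit false
set_option linter.unusedSectionVars false

namespace Crest.Agent.R254

open Filter Topology

lemma l2_infinite : ¬ FiniteDimensional ℝ (lp (fun _ : ℕ => ℝ) 2) := by
  intro h
  have h1 := (default : HilbertBasis ℕ ℝ (lp (fun _ : ℕ => ℝ) 2)).orthonormal.linearIndependent
  have : Finite ℕ := h1.finite
  exact not_finite ℕ

def Lam0 : ℕ := ((2 * 49 ^ 2 + 1) * (8 * 49 + 1) + 1) * (8 * 24 + 1)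

variable {B : Type*} [NormedAddCommGroup B] [NormedSpace ℝ B]

lemma piece1 (hB : ¬ FiniteDimensional ℝ B) (d : ℕ) (L : ℝ) (hL : 1 ≤ L) :
    ∃ K : Finset B, Pack (↑K : Set B) 4 Lam0 ∧
      ∀ f : B → EuclideanSpace ℝ (Fin d), ¬ BL 1 L K f := by
  classical
  have h1 := online l2_infinite d 49 (2 * (6 * L)) (by linarith)
  obtain ⟨K₀, hK₀, hne⟩ := offline (L := 6 * L) (by linarith) 24 _ (by norm_num)
    (by convert h1 using 3; norm_num)
  obtain ⟨T, hT⟩ := dvo hB (K₀.image (WithLp.toLp 2))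
  have hT' : ∀ p ∈ K₀, ∀ q ∈ K₀, ‖p - q‖ ≤ ‖T (WithLp.toLp 2 p) - T (WithLp.toLp 2 q)‖ ∧
      ‖T (WithLp.toLp 2 p) - T (WithLp.toLp 2 q)‖ ≤ 6 * ‖p - q‖ := by
    intro p hp q hq
    have h2 := hT _ (Finset.mem_image_of_mem _ hp) _ (Finset.mem_image_of_mem _ hq)
    have h3 := WithLp.prod_norm_sq_eq_of_L2 (WithLp.toLp 2 p - WithLp.toLp 2 q)
    have e1 : (WithLp.toLp 2 p - WithLp.toLp 2 q).fst = (p - q).1 := rfl
    have e2 : (WithLp.toLp 2 p - WithLp.toLp 2 q).snd = (p - q).2 := rfl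
    rw [e1, e2] at h3
    have h4 := norm_fst_le (p - q)
    have h5 := norm_snd_le (p - q)
    have h6 : ‖p - q‖ ≤ ‖WithLp.toLp 2 p - WithLp.toLp 2 q‖ := by
      rw [Prod.norm_def]
      refine max_le ?_ ?_ <;>
        refine (pow_le_pow_iff_left₀ (norm_nonneg _) (norm_nonneg _) two_ne_zero).1 ?_ <;>
        nlinarith [sq_nonneg ‖(p - q).1‖, sq_nonneg ‖(p - q).2‖]
    have h7 : ‖WithLp.toLp 2 p - WithLp.toLp 2 q‖ ≤ 2 * ‖p - q‖ := by
      refine (pow_le_pow_iff_left₀ (norm_nonneg _) (by positivity) two_ne_zero).1 ?_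
      nlinarith [pow_le_pow_left₀ (norm_nonneg _) h4 2, pow_le_pow_left₀ (norm_nonneg _) h5 2,
        sq_nonneg ‖p - q‖]
    constructor <;> linarith [h2.1, h2.2]
  refine ⟨K₀.image (fun p => T (WithLp.toLp 2 p)), ?_, fun f hf => ?_⟩
  · rw [Finset.coe_image]
    refine hK₀.image _ one_pos (b := 6) (by norm_num) (by norm_num) ?_
    intro p hp q hq
    simp only [dist_eq_norm, one_mul]
    exact hT' p hp q hq
  · apply hne (fun p => f (T (WithLp.toLp 2 p)))
    intro p hp q hq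
    have h2 := hf _ (Finset.mem_image_of_mem _ hp) _ (Finset.mem_image_of_mem _ hq)
    have h3 := hT' p hp q hq
    constructor
    · linarith [h2.1, h3.1]
    · nlinarith [h2.2, h3.2]

lemma piece2 (hB : ¬ FiniteDimensional ℝ B) (d : ℕ) (L : ℝ) (hL : 1 ≤ L) (x₀ : B) (r : ℝ)
    (hr : 0 < r) : ∃ K : Finset B, Pack (↑K : Set B) 4 Lam0 ∧ (∀ p ∈ K, ‖p - x₀‖ ≤ r) ∧
      ∀ a : ℝ, 0 < a → ∀ f : B → EuclideanSpace ℝ (Fin d), ¬ BL a (a * L) K f := by
  classical
  obtain ⟨K, hK, hne⟩ := piece1 hB d L hL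
  have hD : ∀ p ∈ K, ‖p‖ ≤ ∑ p ∈ K, ‖p‖ := fun p hp =>
    Finset.single_le_sum (f := fun p => ‖p‖) (fun _ _ => norm_nonneg _) hp
  have hD0 : 0 ≤ ∑ p ∈ K, ‖p‖ := Finset.sum_nonneg (fun _ _ => norm_nonneg _)
  set D := ∑ p ∈ K, ‖p‖
  set s := r / (D + 1) with hs
  have hs0 : 0 < s := by positivity
  have e : ∀ p q : B, ‖x₀ + s • p - (x₀ + s • q)‖ = s * ‖p - q‖ := by
    intro p q
    rw [add_sub_add_left_eq_sub, ← smul_sub, norm_smul, Real.norm_of_nonneg hs0.le]
  refine ⟨K.image (fun p => x₀ + s • p), ?_, ?_, fun a ha f hf => ?_⟩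
  · rw [Finset.coe_image]
    refine hK.image _ hs0 hs0 le_rfl ?_
    intro p _ q _
    simp only [dist_eq_norm, e, le_refl, and_self]
  · intro p hp
    obtain ⟨q, hq, rfl⟩ := Finset.mem_image.1 hp
    rw [add_sub_cancel_left, norm_smul, Real.norm_of_nonneg hs0.le, hs, div_mul_eq_mul_div,
      div_le_iff₀ (by positivity)]
    nlinarith [hD q hq]
  · apply hne (fun p => (a * s)⁻¹ • f (x₀ + s • p))
    intro p hp q hq
    have h2 := hf _ (Finset.mem_image_of_mem _ hp) _ (Finset.mem_image_of_mem _ hq)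
    rw [e] at h2
    have has : 0 < a * s := by positivity
    rw [← smul_sub, norm_smul, norm_inv, Real.norm_of_nonneg has.le, le_inv_mul_iff₀ has,
      inv_mul_le_iff₀ has]
    constructor <;> linarith [h2.1, h2.2]

theorem main (hB : ¬ FiniteDimensional ℝ B) :
    ∃ K : Set B, IsCompact K ∧ Pack K 4 (Lam0 + 1) ∧
      ∀ (d : ℕ) (a b : ℝ), 0 < a → ∀ f : B → EuclideanSpace ℝ (Fin d),
        ¬ ∀ p ∈ K, ∀ q ∈ K, a * ‖p - q‖ ≤ ‖f p - f q‖ ∧ ‖f p - f q‖ ≤ b * ‖p - q‖ := by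
  classical
  have : Nontrivial B := by
    by_contra h
    rw [not_nontrivial_iff_subsingleton] at h
    exact hB inferInstance
  obtain ⟨x, hx⟩ := exists_norm_eq B zero_le_one
  let α : ℕ → ℝ := fun n => (1 / 100) ^ n
  have hα : ∀ n, 0 < α n := fun n => by positivity
  have hαm : ∀ {n m : ℕ}, n ≤ m → α m ≤ α n := fun h =>
    pow_le_pow_of_le_one (by norm_num) (by norm_num) h
  choose P hP1 hP2 hP3 using fun n : ℕ => piece2 hB n.unpair.1 (n.unpair.2 + 1)
    (by linarith [Nat.cast_nonneg (α := ℝ) n.unpair.2]) (α n • x) (α n / 4)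
    (by linarith [hα n])
  have hn : ∀ n, ∀ p ∈ P n, 3 / 4 * α n ≤ ‖p‖ ∧ ‖p‖ ≤ 5 / 4 * α n := by
    intro n p hp
    have h1 := hP2 n p hp
    have h2 := abs_le.1 (abs_norm_sub_norm_le p (α n • x))
    rw [norm_smul, hx, mul_one, Real.norm_of_nonneg (hα n).le] at h2
    constructor <;> linarith [h2.1, h2.2]
  let S : Set B := ⋃ n, ↑(P n)
  refine ⟨insert 0 S, ?_, ?_, ?_⟩
  · have h1 : Tendsto (Subtype.val : S → B) cofinite (𝓝 0) := by
      rw [Metric.tendsto_nhds]
      intro ε hε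
      obtain ⟨N, hN⟩ := exists_pow_lt_of_lt_one (show 0 < ε / 2 by positivity)
        (show (1 / 100 : ℝ) < 1 by norm_num)
      rw [eventually_cofinite]
      refine (Set.Finite.preimage Subtype.val_injective.injOn
        ((Finset.range N).biUnion P).finite_toSet).subset ?_
      rintro ⟨p, hp⟩ h
      obtain ⟨n, hpn⟩ := Set.mem_iUnion.1 hp
      simp only [Set.mem_ofPred_eq, dist_zero_right, not_lt] at h
      refine Finset.mem_biUnion.2 ⟨n, Finset.mem_range.2 ?_, hpn⟩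
      by_contra hlt
      have h2 := hαm (not_lt.1 hlt)
      have h3 := (hn n p hpn).2
      have h4 : α N < ε / 2 := hN
      linarith
    have := h1.isCompact_insert_range_of_cofinite
    rwa [Subtype.range_coe] at this
  · intro r hr Z hZ hs
    by_cases hex : ∃ n, ∃ p ∈ Z, p ∈ P n
    · obtain ⟨p, hpZ, hpP⟩ := Nat.find_spec hex
      set n₀ := Nat.find hex with hn₀
      have h1 : (Z.filter (fun z => z ∈ P n₀)).card ≤ Lam0 := by
        apply hP1 n₀ r hr
        · intro z hz; exact (Finset.mem_filter.1 hz).2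
        · intro z hz z' hz'
          exact hs z (Finset.mem_filter.1 hz).1 z' (Finset.mem_filter.1 hz').1
      have h2 : ∀ z ∈ Z.filter (fun z => ¬ z ∈ P n₀), ‖z‖ ≤ α n₀ / 80 := by
        intro z hz
        obtain ⟨hz1, hz2⟩ := Finset.mem_filter.1 hz
        rcases hZ hz1 with h | h
        · rw [h, norm_zero]; linarith [hα n₀]
        · obtain ⟨n, hzn⟩ := Set.mem_iUnion.1 h
          have h3 : n₀ ≤ n := Nat.find_min' hex ⟨z, hz1, hzn⟩
          have h4 : n₀ + 1 ≤ n := lt_of_le_of_ne h3 (by rintro rfl; exact hz2 hzn)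
          have h5 := hαm h4
          have h6 : α (n₀ + 1) = α n₀ / 100 := by simp only [α]; ring
          linarith [(hn n z hzn).2]
      have h3 : (Z.filter (fun z => ¬ z ∈ P n₀)).card ≤ 1 := by
        refine Finset.card_le_one.2 fun z hz z' hz' => ?_
        by_contra hne
        have h4 := (hs z (Finset.mem_filter.1 hz).1 z' (Finset.mem_filter.1 hz').1 hne).1
        have h5 := (hs p hpZ z (Finset.mem_filter.1 hz).1
          (by rintro rfl; exact (Finset.mem_filter.1 hz).2 hpP)).2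
        rw [dist_eq_norm] at h4 h5
        have h6 := norm_sub_le z z'
        have h7 := norm_sub_norm_le p z
        linarith [h2 z hz, h2 z' hz', (hn n₀ p hpP).1, hα n₀]
      have h4 := Finset.card_filter_add_card_filter_not (s := Z) (fun z => z ∈ P n₀)
      omega
    · refine le_trans (Finset.card_le_one.2 fun z hz z' hz' => ?_) (by omega)
      have : ∀ z ∈ Z, z = 0 := fun z hz => by
        rcases hZ hz with h | h
        · exact h
        · obtain ⟨n, hzn⟩ := Set.mem_iUnion.1 h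
          exact absurd ⟨n, z, hz, hzn⟩ hex
      rw [this z hz, this z' hz']
  · intro d a b ha f hf
    obtain ⟨L, hL⟩ := exists_nat_ge (b / a)
    have h1 := hP3 (Nat.pair d L) a ha
    rw [Nat.unpair_pair] at h1
    apply h1 f
    intro p hp q hq
    have h2 := hf p (Or.inr (Set.mem_iUnion.2 ⟨_, hp⟩)) q (Or.inr (Set.mem_iUnion.2 ⟨_, hq⟩))
    refine ⟨h2.1, h2.2.trans (mul_le_mul_of_nonneg_right ?_ (norm_nonneg _))⟩
    rw [div_le_iff₀ ha] at hL
    simp only
    nlinarith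

end Crest.Agent.R254
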