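import Crest.Agent.R254.Pack

set_option autoImplicit false

namespace Crest.Agent.R254

variable {H E : Type*} [NormedAddCommGroup H] [NormedAddCommGroup E] [DecidableEq H]

/-- `F` is bi-Lipschitz on the finite set `B` with constants `a`, `b`. -/
def BL (a b : ℝ) (B : Finset H) (F : H → E) : Prop :=
  ∀ p ∈ B, ∀ q ∈ B, a * ‖p - q‖ ≤ ‖F p - F q‖ ∧ ‖F p - F q‖ ≤ b * ‖p - q‖

omit [DecidableEq H] in
lemma BL.mono {a b : ℝ} {B B' : Finset H} {F : H → E} (h : BL a b B F) (hB : B' ⊆ B) :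
    BL a b B' F := fun p hp q hq => h p (hB hp) q (hB hq)

/-- The online embedding game: the adversary wins from the position `B` against all maps in `Φ`. -/
inductive Win (good : Finset H → Prop) (a b : ℝ) : Finset H → Set (H → E) → Prop
  | done (B : Finset H) (Φ : Set (H → E)) (h : ∀ F ∈ Φ, ¬ BL a b B F) : Win good a b B Φ
  | step (B : Finset H) (Φ : Set (H → E)) (p : H) (hp : p ∉ B) (hg : good (insert p B))
      (h : Win good a b (insert p B) {F' | ∃ F ∈ Φ, ∀ x ∈ B, F x = F' x}) : Win good a b B Φ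
  | split (B : Finset H) (Φ Φ₁ Φ₂ : Set (H → E)) (hc : Φ ⊆ Φ₁ ∪ Φ₂)
      (h₁ : Win good a b B Φ₁) (h₂ : Win good a b B Φ₂) : Win good a b B Φ

variable {good : Finset H → Prop} {a b : ℝ}

lemma Win.anti {B : Finset H} {Φ Φ' : Set (H → E)} (h : Win good a b B Φ) (hs : Φ' ⊆ Φ) :
    Win good a b B Φ' :=
  Win.split B Φ' Φ Φ (hs.trans Set.subset_union_left) h h

/-- `Φ` only depends on the values on `B`. -/
def Det (B : Finset H) (Φ : Set (H → E)) : Prop :=
  ∀ F F' : H → E, (∀ x ∈ B, F x = F' x) → F ∈ Φ → F' ∈ Φ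

omit [NormedAddCommGroup H] [NormedAddCommGroup E] [DecidableEq H] in
lemma Det.mono {B B' : Finset H} {Φ : Set (H → E)} (h : Det B Φ) (hB : B ⊆ B') : Det B' Φ :=
  fun F F' e hF => h F F' (fun x hx => e x (hB hx)) hF

omit [NormedAddCommGroup H] [NormedAddCommGroup E] [DecidableEq H] in
lemma Det.inter {B : Finset H} {Φ Ψ : Set (H → E)} (h : Det B Φ) (h' : Det B Ψ) :
    Det B (Φ ∩ Ψ) :=
  fun F F' e hF => ⟨h F F' e hF.1, h' F F' e hF.2⟩

lemma Win.add {B : Finset H} {Φ : Set (H → E)} (p : H) (hd : Det B Φ) (hg : good (insert p B))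
    (h : Win good a b (insert p B) Φ) : Win good a b B Φ := by
  by_cases hp : p ∈ B
  · rwa [Finset.insert_eq_of_mem hp] at h
  · refine Win.step B Φ p hp hg (h.anti ?_)
    rintro F' ⟨F, hF, e⟩
    exact hd F F' e hF

/-- One may assume that the maps are bi-Lipschitz on the present position. -/
lemma Win.of_BL {B : Finset H} {Φ : Set (H → E)}
    (h : Win good a b B (Φ ∩ {F | BL a b B F})) : Win good a b B Φ := by
  refine Win.split B Φ (Φ ∩ {F | BL a b B F}) {F | ¬ BL a b B F} ?_ h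
    (Win.done _ _ fun F hF => hF)
  intro F hF
  by_cases hb : BL a b B F
  · exact Or.inl ⟨hF, hb⟩
  · exact Or.inr hb

lemma Win.finite_split {ι : Type*} (s : Finset ι) {B : Finset H} (Ψ : ι → Set (H → E))
    (h : ∀ i ∈ s, Win good a b B (Ψ i)) {Φ : Set (H → E)}
    (hc : ∀ F ∈ Φ, BL a b B F → ∃ i ∈ s, F ∈ Ψ i) : Win good a b B Φ := by
  classical
  induction s using Finset.induction_on generalizing Φ with
  | empty =>
    refine Win.done _ _ fun F hF hb => ?_
    obtain ⟨i, hi, -⟩ := hc F hF hb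
    simp at hi
  | insert i s hi ih =>
    refine Win.split B Φ (Ψ i) (Φ \ Ψ i) ?_ (h i (Finset.mem_insert_self _ _)) ?_
    · intro F hF
      by_cases h1 : F ∈ Ψ i
      · exact Or.inl h1
      · exact Or.inr ⟨hF, h1⟩
    · apply ih (fun j hj => h j (Finset.mem_insert_of_mem hj))
      intro F hF hb
      obtain ⟨j, hj, hFj⟩ := hc F hF.1 hb
      rcases Finset.mem_insert.1 hj with rfl | hj
      · exact absurd hFj hF.2
      · exact ⟨j, hj, hFj⟩

end Crest.Agent.R254
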