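import Crest.Agent.R254.Pigeon

set_option autoImplicit false
set_option linter.unusedSectionVars false

namespace Crest.Agent.R254

open scoped RealInnerProductSpace

variable {H : Type*} [NormedAddCommGroup H] [InnerProductSpace ℝ H] [DecidableEq H]

/-- admissible new point in the site with centre `c`, direction `w`, radius `s` -/
def Adm (e c w : H) (s : ℝ) (M : Submodule ℝ H) (q : H) : Prop :=
  red e w (q - c) ∈ Mᗮ ∧ ‖q - c‖ ≤ s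

def New (e c w : H) (s : ℝ) (M : Submodule ℝ H) (u : H) (δ : ℝ) (q : H) : Prop :=
  Adm e c w s M q ∧ ⟪u, red e w (q - c)⟫ = δ * ⟪e, q - c⟫

structure Prm (e : H) (δ θ : ℝ) : Prop where
  he : ‖e‖ = 1
  δ0 : 0 < δ
  δθ : δ ≤ θ
  θ1 : θ ≤ 1 / 8

structure Ctx (e : H) (δ θ : ℝ) (k : ℕ) (c w : H) (s : ℝ) (M W : Submodule ℝ H)
    (B₀ : Finset H) (Pi₀ : Set (H × H)) : Prop where
  fin : FiniteDimensional ℝ M
  eM : e ∈ M
  cM : c ∈ M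
  wW : w ∈ W
  WM : W ≤ M
  BM : ∀ p ∈ B₀, p ∈ M
  ew : ⟪e, w⟫ = 1
  slope : ‖w - e‖ ^ 2 + 4 * k * δ ^ 2 ≤ θ ^ 2
  s0 : 0 < s
  ds : DS e (8 * θ) B₀ Pi₀
  pr : ∀ π ∈ Pi₀, π.1 ∈ B₀ ∧ π.2 ∈ B₀
  x1 : ∀ π ∈ Pi₀, ∀ q, Adm e c w s M q → Tri e (8 * θ) π.2 π.1 q
  x2 : ∀ p ∈ B₀, ∀ q', Adm e c w s M q' → ∀ χ ∈ Mᗮ, RR e (4 * θ) q' p (q' + χ) W 0

structure Gen (e : H) (δ θ ε τ : ℝ) (g : ℕ) (c w : H) (s : ℝ) (M W : Submodule ℝ H)
    (B₀ : Finset H) (Pi₀ : Set (H × H)) (u : H) (B : Finset H) (Pi : Set (H × H))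
    (P w' : H) (ℓ : ℝ) : Prop where
  sub : B₀ ⊆ B
  ds : DS e (8 * θ) B Pi
  pr : ∀ π ∈ Pi, π.1 ∈ B ∧ π.2 ∈ B
  PB : P ∈ B
  QB : P + ℓ • w' ∈ B
  ℓ0 : 0 < ℓ
  orth : w' - w ∈ Mᗮ
  uw : ⟪u, w' - w⟫ = δ
  drift : ‖w' - w - δ • u‖ ^ 2 ≤ g * (12 * τ) ^ 2
  Porth : red e w (P - c) ∈ Mᗮ
  PS3 : ⟪u, red e w (P - c)⟫ = δ * ⟪e, P - c⟫
  ballP : ‖P - c‖ + ℓ ≤ s
  ballQ : ‖P + ℓ • w' - c‖ + ℓ ≤ s
  pts : ∀ q ∈ B, q ∈ B₀ ∨ (New e c w s M u δ q ∧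
    ∀ a, 0 ≤ a → a ≤ ℓ → δ / 4 * min a (ℓ - a) ≤ ‖q - (P + a • w')‖)
  prs : ∀ π ∈ Pi, π ∈ Pi₀ ∨ (New e c w s M u δ π.1 ∧
    ∀ a, 0 ≤ a → a ≤ ℓ → RR e (4 * θ) π.1 π.2 (P + a • w') W (ε * ‖P + a • w' - π.1‖))

/-- the span of everything known at the start of an episode -/
def bigM (M : Submodule ℝ H) (u w' : H) (B : Finset H) : Submodule ℝ H :=
  M ⊔ Submodule.span ℝ (↑(insert u (insert w' B)) : Set H)

def bigW (W : Submodule ℝ H) (w' : H) : Submodule ℝ H := W ⊔ Submodule.span ℝ {w'}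

section big
variable {M W : Submodule ℝ H} {u w' : H} {B : Finset H}

lemma le_bigM : M ≤ bigM M u w' B := le_sup_left

lemma u_bigM : u ∈ bigM M u w' B :=
  Submodule.mem_sup_right (Submodule.subset_span (by simp))

lemma w_bigM : w' ∈ bigM M u w' B :=
  Submodule.mem_sup_right (Submodule.subset_span (by simp))

lemma B_bigM {p : H} (hp : p ∈ B) : p ∈ bigM M u w' B :=
  Submodule.mem_sup_right (Submodule.subset_span (by simp [hp]))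

lemma orth_bigM {χ : H} (h : χ ∈ (bigM M u w' B)ᗮ) : χ ∈ Mᗮ :=
  Submodule.orthogonal_le le_bigM h

lemma le_bigW : W ≤ bigW W w' := le_sup_left

lemma w_bigW : w' ∈ bigW W w' := Submodule.mem_sup_right (Submodule.mem_span_singleton_self _)

lemma mem_bigW {ζ : H} (h : ζ ∈ bigW W w') : ∃ ζ₀ ∈ W, ∃ b : ℝ, ζ = ζ₀ + b • w' := by
  obtain ⟨y, hy, z, hz, rfl⟩ := Submodule.mem_sup.1 h
  obtain ⟨b, rfl⟩ := Submodule.mem_span_singleton.1 hz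
  exact ⟨y, hy, b, rfl⟩

lemma bigW_le (h : W ≤ M) : bigW W w' ≤ bigM M u w' B :=
  sup_le (h.trans le_bigM) ((Submodule.span_singleton_le_iff_mem _ _).2 w_bigM)

end big

lemma red_sub (e w a b : H) : red e w a - red e w b = red e w (a - b) := by
  simp only [red, inner_sub_right, sub_smul]; abel

variable {e : H} {δ θ ε τ : ℝ} {k g : ℕ} {c w : H} {s : ℝ} {M W : Submodule ℝ H}
  {B₀ : Finset H} {Pi₀ : Set (H × H)} {u : H} {B : Finset H} {Pi : Set (H × H)}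
  {P w' : H} {ℓ : ℝ}

lemma Prm.θ0 (hp : Prm e δ θ) : 0 < θ := hp.δ0.trans_le hp.δθ

lemma Ctx.we (hp : Prm e δ θ) (hc : Ctx e δ θ k c w s M W B₀ Pi₀) : ‖w - e‖ ≤ θ := by
  have h1 := hc.slope
  have h2 : 0 ≤ 4 * (k : ℝ) * δ ^ 2 := by positivity
  exact (pow_le_pow_iff_left₀ (norm_nonneg _) hp.θ0.le two_ne_zero).1 (by linarith)

lemma Ctx.w2 (hp : Prm e δ θ) (hc : Ctx e δ θ k c w s M W B₀ Pi₀) : ‖w‖ ≤ 2 := by
  have h1 := hc.we hp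
  have h2 := norm_sub_norm_le w e
  linarith [hp.he, hp.θ1]

lemma Adm.t_le (hp : Prm e δ θ) {q : H} (h : Adm e c w s M q) : |⟪e, q - c⟫| ≤ s :=
  (abs_t_le hp.he _).trans h.2

lemma Adm.red_le (hp : Prm e δ θ) (hw : ‖w‖ ≤ 2) {q : H} (h : Adm e c w s M q) :
    ‖red e w (q - c)‖ ≤ 3 * s := by
  refine (norm_sub_le _ _).trans ?_
  rw [norm_smul, Real.norm_eq_abs]
  have h1 := h.t_le hp
  have h2 : |⟪e, q - c⟫| * ‖w‖ ≤ s * 2 :=
    mul_le_mul h1 hw (norm_nonneg _) ((abs_nonneg _).trans h1)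
  linarith [h.2]

lemma decomp_eq (e P w' q : H) (ℓ : ℝ) :
    q = P + (ℓ / 2 + ⟪e, q - (P + (ℓ / 2) • w')⟫) • w' + red e w' (q - (P + (ℓ / 2) • w')) := by
  simp only [red, add_smul]; abel

lemma Gen.ew (hc : Ctx e δ θ k c w s M W B₀ Pi₀)
    (hg : Gen e δ θ ε τ g c w s M W B₀ Pi₀ u B Pi P w' ℓ) : ⟪e, w'⟫ = 1 := by
  have h := Submodule.inner_right_of_mem_orthogonal hc.eM hg.orth
  rw [inner_sub_right, hc.ew] at h
  linarith

lemma Gen.centre (hg : Gen e δ θ ε τ g c w s M W B₀ Pi₀ u B Pi P w' ℓ) :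
    ‖P + (ℓ / 2) • w' - c‖ + ℓ ≤ s := by
  have e1 : P + (ℓ / 2) • w' - c = (1 / 2 : ℝ) • ((P - c) + (P + ℓ • w' - c)) := by module
  rw [e1, norm_smul]
  have := norm_add_le (P - c) (P + ℓ • w' - c)
  norm_num
  linarith [hg.ballP, hg.ballQ]

lemma Gen.new_of (hc : Ctx e δ θ k c w s M W B₀ Pi₀)
    (hg : Gen e δ θ ε τ g c w s M W B₀ Pi₀ u B Pi P w' ℓ) {a : ℝ} {χ : H}
    (hχ : χ ∈ (bigM M u w' B)ᗮ) (hs : ‖P + a • w' + χ - c‖ ≤ s) :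
    New e c w s M u δ (P + a • w' + χ) := by
  have h1 : ⟪e, χ⟫ = 0 := Submodule.inner_right_of_mem_orthogonal (le_bigM hc.eM) hχ
  have h2 : ⟪u, χ⟫ = 0 := Submodule.inner_right_of_mem_orthogonal u_bigM hχ
  have e0 : P + a • w' + χ - c = (P - c) + a • w' + χ := by abel
  have e1 : ⟪e, P + a • w' + χ - c⟫ = ⟪e, P - c⟫ + a := by
    rw [e0, inner_add_right, inner_add_right, inner_smul_right, hg.ew hc, h1]; ring
  have e2 : red e w (P + a • w' + χ - c) = red e w (P - c) + a • (w' - w) + χ := by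
    rw [red, e1, red]; module
  refine ⟨⟨?_, hs⟩, ?_⟩
  · rw [e2]
    exact Mᗮ.add_mem (Mᗮ.add_mem hg.Porth (Mᗮ.smul_mem _ hg.orth)) (orth_bigM hχ)
  · rw [e2, e1, inner_add_right, inner_add_right, inner_smul_right, hg.PS3, hg.uw, h2]; ring

lemma Gen.new_of_adm (hc : Ctx e δ θ k c w s M W B₀ Pi₀)
    (hg : Gen e δ θ ε τ g c w s M W B₀ Pi₀ u B Pi P w' ℓ) (hτ1 : τ ≤ 1) {q : H}
    (hq : Adm e (P + (ℓ / 2) • w') w' (τ * ℓ) (bigM M u w' B) q) :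
    New e c w s M u δ q ∧ ‖q - c‖ + ℓ ≤ s + τ * ℓ := by
  have h1 : ‖q - c‖ + ℓ ≤ s + τ * ℓ := by
    have := norm_sub_le_norm_sub_add_norm_sub q (P + (ℓ / 2) • w') c
    linarith [hg.centre, hq.2]
  refine ⟨?_, h1⟩
  have e1 := decomp_eq e P w' q ℓ
  rw [e1]
  apply hg.new_of hc hq.1
  rw [← e1]
  nlinarith [hg.ℓ0]

lemma Gen.slope' (hp : Prm e δ θ) (hc : Ctx e δ θ (k + 1) c w s M W B₀ Pi₀) (hu : ‖u‖ = 1)
    (hg : Gen e δ θ ε τ g c w s M W B₀ Pi₀ u B Pi P w' ℓ)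
    (hdr : ‖w' - w - δ • u‖ ≤ θ * δ / 3) : ‖w' - e‖ ^ 2 + 4 * k * δ ^ 2 ≤ θ ^ 2 := by
  have e1 : w' - e = (w - e) + (w' - w) := by abel
  have h1 := pyth (M.sub_mem (hc.WM hc.wW) hc.eM) hg.orth
  have h2 : ‖w' - w‖ ≤ 2 * δ := by
    have e2 : w' - w = (w' - w - δ • u) + δ • u := by abel
    rw [e2]
    refine (norm_add_le _ _).trans ?_
    rw [norm_smul, hu, Real.norm_of_nonneg hp.δ0.le]
    nlinarith [hp.θ1, hp.δ0]
  have h3 := pow_le_pow_left₀ (norm_nonneg _) h2 2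
  have h4 := hc.slope
  rw [e1, h1]
  push_cast at h4
  nlinarith

/-- the inner-product estimate for old points of the present run -/
lemma key_X2 (hp : Prm e δ θ) (hc : Ctx e δ θ k c w s M W B₀ Pi₀) (hu : ‖u‖ = 1)
    (huM : u ∈ Mᗮ) {M' : Submodule ℝ H} (hM : M ≤ M') (huM' : u ∈ M') (hw' : w' ∈ M')
    (huw : ⟪u, w' - w⟫ = δ) (hdr : ‖w' - w - δ • u‖ ≤ θ * δ / 3)
    {p q' η' χ' : H} (hpM : p ∈ M') (hq' : q' - η' ∈ M') (hχ' : χ' ∈ M'ᗮ)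
    (hpn : New e c w s M u δ p) (hqn : New e c w s M u δ q') (hη : ‖η'‖ ≤ θ * ‖p - q'‖) :
    RR e (4 * θ) q' p (q' + χ') (bigW W w') 0 := by
  intro ζ' hζ'
  obtain ⟨ζ, hζ, b', rfl⟩ := mem_bigW hζ'
  have hwM : w ∈ M := hc.WM hc.wW
  have hζM : ζ ∈ M := hc.WM hζ
  set v := χ' + (ζ + b' • w') with hv
  have e0 : q' + χ' + (ζ + b' • w') - q' = v := by rw [hv]; abel
  rw [e0, add_zero]
  set d := p - q' with hd
  set b := ⟪e, d⟫ with hb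
  set χ₁ := red e w d with hχ₁
  set dr := w' - w - δ • u with hdrdef
  have ed : (p - c) - (q' - c) = d := by rw [hd]; abel
  have hχ₁M : χ₁ ∈ Mᗮ := by
    rw [hχ₁, ← ed, ← red_sub]; exact Mᗮ.sub_mem hpn.1.1 hqn.1.1
  have huχ : ⟪u, χ₁⟫ = δ * b := by
    rw [hχ₁, hb, ← ed, ← red_sub, inner_sub_right, hpn.2, hqn.2, inner_sub_right e (p - c)]; ring
  have e1 : red e e d = χ₁ + b • (w - e) := by
    rw [hχ₁, red, red, ← hb, smul_sub]; abel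
  have e2 : v = χ' + (ζ + b' • w) + b' • (δ • u + dr) := by rw [hv, hdrdef]; module
  have hbd : |b| ≤ ‖d‖ := abs_t_le hp.he d
  have hbv : |b'| * δ ≤ ‖v‖ := by
    have h1 : ⟪u, v⟫ = b' * δ := by
      have e3 : v = χ' + (ζ + b' • w) + b' • (w' - w) := by rw [hv]; module
      rw [e3, inner_add_right, inner_add_right, inner_smul_right, huw,
        Submodule.inner_right_of_mem_orthogonal huM' hχ',
        Submodule.inner_left_of_mem_orthogonal (M.add_mem hζM (M.smul_mem _ hwM)) huM]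
      ring
    have h2 := abs_t_le hu v
    rwa [h1, abs_mul, abs_of_pos hp.δ0] at h2
  have hχv : ‖χ'‖ ≤ ‖v‖ := by
    rw [hv, add_comm]
    exact pyth_right (M'.add_mem (hM hζM) (M'.smul_mem _ hw')) hχ'
  have hχ₁n : ‖χ₁‖ ≤ 3 * ‖d‖ := by
    refine (norm_sub_le _ _).trans ?_
    rw [norm_smul, Real.norm_eq_abs]
    have := mul_le_mul hbd (hc.w2 hp) (norm_nonneg _) (norm_nonneg _)
    linarith
  have t1 : ⟪v, b • (w - e)⟫ ≤ θ * ‖v‖ * ‖d‖ := by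
    refine (real_inner_le_norm _ _).trans ?_
    rw [norm_smul, Real.norm_eq_abs]
    have := mul_le_mul hbd (hc.we hp) (norm_nonneg _) (norm_nonneg _)
    nlinarith [norm_nonneg v]
  have t2 : ⟪χ', χ₁⟫ ≤ θ * ‖v‖ * ‖d‖ := by
    have e3 : χ₁ = (p - (q' - η') - b • w) - η' := by rw [hχ₁, red, ← hb, hd]; abel
    have hm : p - (q' - η') - b • w ∈ M' :=
      M'.sub_mem (M'.sub_mem hpM hq') (M'.smul_mem _ (hM hwM))
    rw [e3, inner_sub_right, Submodule.inner_left_of_mem_orthogonal hm hχ', zero_sub]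
    have h1 := (neg_le_abs _).trans (abs_real_inner_le_norm χ' η')
    have h2 := mul_le_mul hχv hη (norm_nonneg _) (norm_nonneg _)
    linarith
  have t3 : b' * (δ * (δ * b)) ≤ θ * ‖v‖ * ‖d‖ := by
    have h1 : b' * (δ * (δ * b)) ≤ (|b'| * δ) * (δ * |b|) := by
      have : b' * b ≤ |b'| * |b| := by rw [← abs_mul]; exact le_abs_self _
      nlinarith [mul_pos hp.δ0 hp.δ0]
    have h2 : δ * |b| ≤ θ * ‖d‖ := mul_le_mul hp.δθ hbd (abs_nonneg _) hp.θ0.le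
    have h3 := mul_le_mul hbv h2 (mul_nonneg hp.δ0.le (abs_nonneg _)) (norm_nonneg _)
    linarith
  have t4 : b' * ⟪dr, χ₁⟫ ≤ θ * ‖v‖ * ‖d‖ := by
    have h1 : b' * ⟪dr, χ₁⟫ ≤ |b'| * (‖dr‖ * ‖χ₁‖) := by
      refine (le_abs_self _).trans ?_
      rw [abs_mul]
      exact mul_le_mul_of_nonneg_left (abs_real_inner_le_norm _ _) (abs_nonneg _)
    have h2 : ‖dr‖ * ‖χ₁‖ ≤ (θ * δ / 3) * (3 * ‖d‖) :=
      mul_le_mul hdr hχ₁n (norm_nonneg _) ((norm_nonneg _).trans hdr)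
    have h3 := mul_le_mul_of_nonneg_left h2 (abs_nonneg b')
    have h4 := mul_le_mul_of_nonneg_right hbv (mul_nonneg hp.θ0.le (norm_nonneg d))
    nlinarith
  have t5 : ⟪v, χ₁⟫ = ⟪χ', χ₁⟫ + b' * (δ * (δ * b)) + b' * ⟪dr, χ₁⟫ := by
    conv_lhs => rw [e2]
    rw [inner_add_left, inner_add_left,
      Submodule.inner_right_of_mem_orthogonal (M.add_mem hζM (M.smul_mem _ hwM)) hχ₁M,
      real_inner_smul_left, inner_add_left, real_inner_smul_left, huχ]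
    ring
  rw [e1, inner_add_right, t5]
  linarith

lemma Gen.ctx_down (hp : Prm e δ θ) (hc : Ctx e δ θ (k + 1) c w s M W B₀ Pi₀) (hu : ‖u‖ = 1)
    (huM : u ∈ Mᗮ) (hg : Gen e δ θ ε τ g c w s M W B₀ Pi₀ u B Pi P w' ℓ)
    (hτ0 : 0 < τ) (hτ : 96 * τ ≤ θ * δ) (hε0 : 0 ≤ ε) (hε : ε ≤ 4 * θ)
    (hdr : ‖w' - w - δ • u‖ ≤ θ * δ / 3) :
    Ctx e δ θ k (P + (ℓ / 2) • w') w' (τ * ℓ) (bigM M u w' B) (bigW W w') B Pi := by
  have hθ0 := hp.θ0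
  have hδ0 := hp.δ0
  have hθ1 := hp.θ1
  have hδθ := hp.δθ
  have hℓ := hg.ℓ0
  have hτδ : 96 * τ ≤ δ / 8 := by nlinarith
  have hτ1 : τ ≤ 1 / 4 := by linarith
  have hsl := hg.slope' hp hc hu hdr
  have hw2 : ‖w'‖ ≤ 2 := by
    have h2 : 0 ≤ 4 * (k : ℝ) * δ ^ 2 := by positivity
    have h1 : ‖w' - e‖ ≤ θ :=
      (pow_le_pow_iff_left₀ (norm_nonneg _) hθ0.le two_ne_zero).1 (by linarith)
    have h3 := norm_sub_norm_le w' e
    linarith [hp.he]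
  have hzM : ∀ a : ℝ, P + a • w' ∈ bigM M u w' B := fun a =>
    Submodule.add_mem _ (B_bigM hg.PB) (Submodule.smul_mem _ _ w_bigM)
  refine ⟨?_, le_bigM hc.eM, hzM _, w_bigW, bigW_le hc.WM, fun p hp => B_bigM hp, hg.ew hc, hsl,
    by positivity, hg.ds, hg.pr, ?_, ?_⟩
  · have := hc.fin
    have := FiniteDimensional.span_finset ℝ (insert u (insert w' B))
    exact Submodule.finiteDimensional_sup _ _
  · intro π hπ q hq
    have hn := (hg.new_of_adm hc (by linarith) hq).1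
    rcases hg.prs π hπ with h | ⟨-, h⟩
    · exact hc.x1 π h q hn.1
    have ht := abs_le.1 (hq.t_le hp)
    have h1 := h (ℓ / 2 + ⟪e, q - (P + (ℓ / 2) • w')⟫) (by nlinarith [ht.1]) (by nlinarith [ht.2])
    have h2 := h1.orth (by linarith) (hzM _) (B_bigM (hg.pr π hπ).1) (B_bigM (hg.pr π hπ).2)
      (le_bigM hc.eM) (hc.WM.trans le_bigM) hq.1
    rw [← decomp_eq] at h2
    refine RR.tri (ε := ε) (h2.mono le_rfl ?_) (by linarith)
    apply mul_le_mul_of_nonneg_left _ hε0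
    have h3 := pyth_left (Submodule.sub_mem _ (hzM (ℓ / 2 + ⟪e, q - (P + (ℓ / 2) • w')⟫))
      (B_bigM (hg.pr π hπ).1)) hq.1
    refine h3.trans (le_of_eq ?_)
    congr 1
    conv_rhs => rw [decomp_eq e P w' q ℓ]
    abel
  · intro p hpB q' hq' χ' hχ'
    have hn := (hg.new_of_adm hc (by linarith) hq').1
    rcases hg.pts p hpB with h | ⟨hpn, h⟩
    · intro ζ' hζ'
      obtain ⟨ζ, hζ, b', rfl⟩ := mem_bigW hζ'
      have := hc.x2 p h q' hn.1 (χ' + b' • (w' - w))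
        (Mᗮ.add_mem (orth_bigM hχ') (Mᗮ.smul_mem _ hg.orth)) (ζ + b' • w)
        (W.add_mem hζ (W.smul_mem _ hc.wW))
      have e1 : q' + (χ' + b' • (w' - w)) + (ζ + b' • w) = q' + χ' + (ζ + b' • w') := by module
      rwa [e1] at this
    have ht := abs_le.1 (hq'.t_le hp)
    set a := ℓ / 2 + ⟪e, q' - (P + (ℓ / 2) • w')⟫ with ha
    set η' := red e w' (q' - (P + (ℓ / 2) • w')) with hη'
    have e1 : q' - η' = P + a • w' := by
      conv_lhs => rw [decomp_eq e P w' q' ℓ]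
      rw [← ha, ← hη']; abel
    have h1 := h a (by nlinarith [ht.1]) (by nlinarith [ht.2])
    have h2 : ℓ / 4 ≤ min a (ℓ - a) := le_min (by nlinarith [ht.1]) (by nlinarith [ht.2])
    have h3 : ‖η'‖ ≤ 3 * (τ * ℓ) := hq'.red_le hp hw2
    have h4 : ‖p - (P + a • w')‖ ≤ ‖p - q'‖ + ‖η'‖ := by
      rw [← e1]
      have : p - (q' - η') = (p - q') + η' := by abel
      rw [this]; exact norm_add_le _ _
    have h5 : δ * ℓ / 32 ≤ ‖p - q'‖ := by nlinarith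
    refine key_X2 hp hc hu huM le_bigM u_bigM w_bigM hg.uw hdr (η' := η') (B_bigM hpB)
      (by rw [e1]; exact hzM a) hχ' hpn hn ?_
    nlinarith

end Crest.Agent.R254
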