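import Crest.Agent.R254.GeoA

set_option autoImplicit false
set_option linter.unusedSectionVars false

namespace Crest.Agent.R254

open scoped RealInnerProductSpace

variable {H : Type*} [NormedAddCommGroup H] [InnerProductSpace ℝ H] [DecidableEq H]

structure Ret (e : H) (δ θ ε μ : ℝ) (j : ℕ) (c w : H) (s : ℝ) (M W : Submodule ℝ H)
    (B₀ : Finset H) (Pi₀ : Set (H × H)) (B : Finset H) (Pi : Set (H × H)) (x x₀ : H) (ρ : ℝ)
    (β : ℕ → ℝ) (u : H) : Prop where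
  sub : B₀ ⊆ B
  ds : DS e (8 * θ) B Pi
  pr : ∀ π ∈ Pi, π.1 ∈ B ∧ π.2 ∈ B
  u1 : ‖u‖ = 1
  uM : u ∈ Mᗮ
  pts : ∀ q ∈ B, q ∈ B₀ ∨ New e c w s M u δ q
  prs : ∀ π ∈ Pi, π ∈ Pi₀ ∨ (New e c w s M u δ π.1 ∧
    RR e (4 * θ) π.1 π.2 x W (ε * ‖x - π.1‖))
  xB : x ∈ B
  x₀B : x₀ ∈ B
  xnew : New e c w s M u δ x
  room : ‖x - c‖ + 2 * j * ρ ≤ s
  ρμ : μ * s ≤ ρ
  βv : ∀ l, β l = 0 ∨ β l = 1 ∨ β l = -1
  far : (x = x₀ ∧ ∃ l < j, β l ≠ 0) ∨ ∀ ζ ∈ M, δ * ρ ≤ ‖x + ζ - x₀‖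

variable {e : H} {δ θ ε ε' τ μ : ℝ} {k g j : ℕ} {c w : H} {s : ℝ} {M W : Submodule ℝ H}
  {B₀ : Finset H} {Pi₀ : Set (H × H)} {u : H} {B : Finset H} {Pi : Set (H × H)}
  {P w' : H} {ℓ : ℝ}

lemma pr_addP {B : Finset H} {Pi : Set (H × H)} (h : ∀ π ∈ Pi, π.1 ∈ B ∧ π.2 ∈ B) (q : H) :
    ∀ π ∈ addP Pi q B, π.1 ∈ insert q B ∧ π.2 ∈ insert q B := by
  rintro π (h1 | ⟨h1, h2⟩)
  · exact ⟨Finset.mem_insert_of_mem (h π h1).1, Finset.mem_insert_of_mem (h π h1).2⟩
  · exact ⟨h1 ▸ Finset.mem_insert_self _ _, Finset.mem_insert_of_mem h2⟩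

lemma Ctx.new_c (hc : Ctx e δ θ k c w s M W B₀ Pi₀) (u : H) : New e c w s M u δ c := by
  refine ⟨⟨?_, ?_⟩, ?_⟩
  · simp [red]
  · simp [hc.s0.le]
  · simp [red]

lemma Ctx.ds_c (hc : Ctx e δ θ k c w s M W B₀ Pi₀) :
    DS e (8 * θ) (insert c B₀) (addP Pi₀ c B₀) :=
  hc.ds.insert c (fun π hπ => hc.x1 π hπ c (hc.new_c 0).1)

/-- the return state at the bottom level -/
lemma Ctx.bottom (hc : Ctx e δ θ 0 c w s M W B₀ Pi₀) (hu : ‖u‖ = 1) (huM : u ∈ Mᗮ)
    (β : ℕ → ℝ) (hβ : ∀ l, β l = 0 ∨ β l = 1 ∨ β l = -1) (hβ0 : ∃ l < j, β l ≠ 0) :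
    Ret e δ θ ε (1 / (2 * j + 2)) j c w s M W B₀ Pi₀ (insert c B₀) (addP Pi₀ c B₀) c c
      (s / (2 * j + 2)) β u := by
  refine ⟨Finset.subset_insert _ _, hc.ds_c, pr_addP hc.pr c, hu, huM, ?_, ?_,
    Finset.mem_insert_self _ _, Finset.mem_insert_self _ _, hc.new_c u, ?_, le_of_eq (by ring),
    hβ, Or.inl ⟨rfl, hβ0⟩⟩
  · intro q hq
    rcases Finset.mem_insert.1 hq with rfl | hq
    · exact Or.inr (hc.new_c u)
    · exact Or.inl hq
  · rintro π (h | ⟨h1, h2⟩)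
    · exact Or.inl h
    · right
      rw [h1]
      refine ⟨hc.new_c u, ?_⟩
      have := hc.x2 _ h2 c (hc.new_c u).1 0 (Submodule.zero_mem _)
      simpa using this
  · have := hc.s0
    rw [sub_self, norm_zero, zero_add, ← mul_div_assoc, div_le_iff₀ (by positivity)]
    nlinarith

/-- the first generation of a run -/
lemma Ctx.init (hp : Prm e δ θ) (hc : Ctx e δ θ (k + 1) c w s M W B₀ Pi₀) (hu : ‖u‖ = 1)
    (huM : u ∈ Mᗮ) (hε0 : 0 ≤ ε) :
    Gen e δ θ ε τ 0 c w s M W B₀ Pi₀ u (insert (c + (s / 4) • (w + δ • u)) (insert c B₀))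
      (addP (addP Pi₀ c B₀) (c + (s / 4) • (w + δ • u)) (insert c B₀)) c (w + δ • u) (s / 4) := by
  have hs := hc.s0
  have hθ0 := hp.θ0
  have heu : ⟪e, u⟫ = 0 := Submodule.inner_right_of_mem_orthogonal hc.eM huM
  have hew' : ⟪e, w + δ • u⟫ = 1 := by
    rw [inner_add_right, inner_smul_right, heu, hc.ew]; ring
  have hsl : ‖w + δ • u - e‖ ≤ θ := by
    have e1 : w + δ • u - e = (w - e) + δ • u := by abel
    have h1 := pyth (M.sub_mem (hc.WM hc.wW) hc.eM) (Mᗮ.smul_mem δ huM)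
    rw [norm_smul, hu, Real.norm_of_nonneg hp.δ0.le] at h1
    have h2 := hc.slope
    have h3 : 0 ≤ 4 * (k : ℝ) * δ ^ 2 := by positivity
    refine (pow_le_pow_iff_left₀ (norm_nonneg _) hθ0.le two_ne_zero).1 ?_
    rw [e1, h1]
    push_cast at h2
    nlinarith [sq_nonneg δ]
  have hw2 : ‖w + δ • u‖ ≤ 2 := by
    have h3 := norm_sub_norm_le (w + δ • u) e
    linarith [hp.he, hp.θ1]
  set Q := c + (s / 4) • (w + δ • u) with hQ
  have hQc : Q - c = (s / 4) • (w + δ • u) := by rw [hQ]; abel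
  have hQn : ‖Q - c‖ ≤ s / 2 := by
    rw [hQc, norm_smul, Real.norm_of_nonneg (by positivity)]; nlinarith
  have hQe : ⟪e, Q - c⟫ = s / 4 := by rw [hQc, inner_smul_right, hew', mul_one]
  have hQr : red e w (Q - c) = (s / 4 * δ) • u := by
    rw [red, hQe, hQc]; module
  have hQnew : New e c w s M u δ Q := by
    refine ⟨⟨by rw [hQr]; exact Mᗮ.smul_mem _ huM, by linarith⟩, ?_⟩
    rw [hQr, hQe, inner_smul_right, real_inner_self_eq_norm_sq, hu]; ring
  have hcp : ∀ p ∈ B₀, ∀ q', Adm e c w s M q' → ∀ a : ℝ,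
      RR e (4 * θ) q' p (q' + a • (w + δ • u)) W 0 := by
    intro p hpB q' hq' a
    have := (hc.x2 p hpB q' hq' ((a * δ) • u) (Mᗮ.smul_mem _ huM)).shift (W.smul_mem a hc.wW)
    have e1 : q' + (a * δ) • u + a • w = q' + a • (w + δ • u) := by module
    rwa [e1] at this
  have hds : DS e (8 * θ) (insert Q (insert c B₀)) (addP (addP Pi₀ c B₀) Q (insert c B₀)) := by
    apply hc.ds_c.insert
    rintro π (h | ⟨h1, h2⟩)
    · exact hc.x1 π h Q hQnew.1
    · rw [h1]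
      refine RR.tri (W := W) (θ := 4 * θ) (ε := 0) ?_ (by linarith)
      rw [zero_mul]
      exact hcp _ h2 c (hc.new_c u).1 _
  have hdist : ∀ a b : ℝ, |a - b| ≤ ‖c + a • (w + δ • u) - (c + b • (w + δ • u))‖ := by
    intro a b
    have h1 := abs_t_le hp.he (c + a • (w + δ • u) - (c + b • (w + δ • u)))
    have e1 : c + a • (w + δ • u) - (c + b • (w + δ • u)) = (a - b) • (w + δ • u) := by module
    rw [e1, inner_smul_right, hew', mul_one] at h1
    rwa [e1]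
  have hδ1 : δ / 4 ≤ 1 := by linarith [hp.δθ, hp.θ1]
  refine ⟨(Finset.subset_insert _ _).trans (Finset.subset_insert _ _), hds,
    pr_addP (pr_addP hc.pr c) Q, Finset.mem_insert_of_mem (Finset.mem_insert_self _ _),
    Finset.mem_insert_self _ _, by positivity, ?_, ?_, ?_, (hc.new_c u).1.1, (hc.new_c u).2,
    ?_, by linarith, ?_, ?_⟩
  · rw [add_sub_cancel_left]; exact Mᗮ.smul_mem _ huM
  · rw [add_sub_cancel_left, inner_smul_right, real_inner_self_eq_norm_sq, hu]; ring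
  · rw [add_sub_cancel_left]; simp
  · rw [sub_self, norm_zero]; linarith
  · intro q hq
    rcases Finset.mem_insert.1 hq with rfl | hq
    · refine Or.inr ⟨hQnew, fun a h0 h1 => ?_⟩
      have h2 := hdist (s / 4) a
      rw [abs_of_nonneg (by linarith)] at h2
      have h3 := min_le_right a (s / 4 - a)
      have h4 : 0 ≤ min a (s / 4 - a) := le_min h0 (by linarith)
      nlinarith
    rcases Finset.mem_insert.1 hq with rfl | hq
    · refine Or.inr ⟨hc.new_c u, fun a h0 h1 => ?_⟩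
      have h2 := hdist 0 a
      rw [zero_sub, abs_neg, abs_of_nonneg h0, zero_smul, add_zero] at h2
      have h3 := min_le_left a (s / 4 - a)
      have h4 : 0 ≤ min a (s / 4 - a) := le_min h0 (by linarith)
      nlinarith
    · exact Or.inl hq
  · rintro π ((h | ⟨h1, h2⟩) | ⟨h1, h2⟩)
    · exact Or.inl h
    · right
      rw [h1]
      exact ⟨hc.new_c u, fun a _ _ =>
        (hcp _ h2 c (hc.new_c u).1 a).mono le_rfl (by positivity)⟩
    · right
      rw [h1]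
      refine ⟨hQnew, fun a _ _ => ?_⟩
      have e1 : c + a • (w + δ • u) = Q + (a - s / 4) • (w + δ • u) := by rw [hQ]; module
      rcases Finset.mem_insert.1 h2 with h3 | h3
      · rw [h3]
        intro ζ _
        have e2 : red e e (c - Q) = -((s / 4) • (w + δ • u - e)) := by
          have : c - Q = -(Q - c) := by abel
          rw [red, this, inner_neg_right, hQe, hQc]; module
        refine (real_inner_le_norm _ _).trans ?_
        have h4 : ‖red e e (c - Q)‖ ≤ θ * ‖c - Q‖ := by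
          rw [e2, norm_neg, norm_smul, Real.norm_of_nonneg (by positivity), norm_sub_rev c Q]
          have h5 := abs_t_le hp.he (Q - c)
          rw [hQe, abs_of_pos (by positivity)] at h5
          nlinarith
        have h5 := mul_le_mul_of_nonneg_left h4 (norm_nonneg (c + a • (w + δ • u) + ζ - Q))
        have h6 := mul_nonneg (norm_nonneg (c + a • (w + δ • u) + ζ - Q)) (norm_nonneg (c - Q))
        have h7 := mul_nonneg (mul_nonneg hε0 (norm_nonneg (c + a • (w + δ • u) - Q)))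
          (norm_nonneg (c - Q))
        nlinarith
      · have := (hcp _ h3 Q hQnew.1 (a - s / 4)).mono le_rfl
          (show 0 ≤ ε * ‖c + a • (w + δ • u) - Q‖ by positivity)
        rwa [← e1] at this

/-- separation of a moving point from the points of the inner run -/
lemma sep_move (he : ‖e‖ = 1) (hδ0 : 0 < δ) (hδ1 : δ ≤ 1) {u' x q r : H} {b : ℝ}
    (hu : ‖u'‖ = 1) (hew : ⟪e, w'⟫ = 1) (huw : ⟪u', w'⟫ = 0) (her : ⟪e, r⟫ = 0)
    (hr : ‖r‖ ≤ δ / 4 * |b|) (hq : ⟪u', q - x⟫ = δ * ⟪e, q - x⟫) :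
    δ * |b| ≤ 4 * ‖x + b • w' + r - q‖ := by
  have e1 : x + b • w' + r - q = b • w' + r - (q - x) := by abel
  have h1 := abs_t_le he (x + b • w' + r - q)
  have h2 := abs_t_le hu (x + b • w' + r - q)
  have h3 := abs_t_le hu r
  rw [e1, inner_sub_right, inner_add_right, inner_smul_right] at h1 h2
  rw [hew, her] at h1
  rw [huw, hq] at h2
  rw [e1]
  set t := ⟪e, q - x⟫
  set Z := ‖b • w' + r - (q - x)‖
  have h4 : |b| ≤ Z + |t| := by
    have := abs_sub_abs_le_abs_sub b t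
    simp only [mul_one, add_zero] at h1
    linarith
  have h5 : δ * |t| ≤ Z + ‖r‖ := by
    have := abs_sub_abs_le_abs_sub (δ * t) ⟪u', r⟫
    rw [abs_sub_comm, abs_mul, abs_of_pos hδ0] at this
    simp only [mul_zero, zero_add] at h2
    linarith
  have h6 := mul_le_mul_of_nonneg_left h4 hδ0.le
  have hZ : 0 ≤ Z := norm_nonneg _
  nlinarith

lemma New.diff {c' u' x q : H} {s' : ℝ} {M' : Submodule ℝ H} (hq : New e c' w' s' M' u' δ q)
    (hx : New e c' w' s' M' u' δ x) (huw : ⟪u', w'⟫ = 0) :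
    ⟪u', q - x⟫ = δ * ⟪e, q - x⟫ := by
  have h1 := hq.2
  have h2 := hx.2
  simp only [red, inner_sub_right, inner_smul_right, huw, mul_zero, sub_zero] at h1 h2 ⊢
  linarith

lemma rr_move (hp : Prm e δ θ) {W' : Submodule ℝ H} {x q' p r : H} {b : ℝ} (hw : w' ∈ W')
    (hw2 : ‖w'‖ ≤ 2) (hτ : 12 * τ ≤ 1) (hτε : 96 * τ ≤ ε') (hε0 : 0 ≤ ε')
    (hε : ε = ε' * (1 + 13 / δ))
    (hr : ‖r‖ ≤ 12 * τ * |b|) (hsep : δ * |b| ≤ 4 * ‖x + b • w' + r - q'‖)
    (h : RR e (4 * θ) q' p x W' (ε' * ‖x - q'‖)) :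
    RR e (4 * θ) q' p (x + b • w' + r) W' (ε * ‖x + b • w' + r - q'‖) := by
  have hθ0 := hp.θ0
  have hδ0 := hp.δ0
  refine ((h.shift (W'.smul_mem b hw)).err hp.he (by linarith) (by linarith [hp.θ1]) r).mono
    le_rfl ?_
  set Z := ‖x + b • w' + r - q'‖ with hZ
  have hb := abs_nonneg b
  have h1 : ‖x - q'‖ ≤ Z + 3 * |b| := by
    have e1 : x - q' = (x + b • w' + r - q') - b • w' - r := by abel
    have h2 := norm_sub_le ((x + b • w' + r - q') - b • w') r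
    have h3 := norm_sub_le (x + b • w' + r - q') (b • w')
    rw [norm_smul, Real.norm_eq_abs] at h3
    rw [e1]
    nlinarith
  have h2 : |b| ≤ 4 * Z / δ := by rw [le_div_iff₀ hδ0]; linarith
  have h3 := mul_le_mul_of_nonneg_left h1 hε0
  have h4 := mul_le_mul_of_nonneg_left h2 hε0
  have h5 := mul_le_mul_of_nonneg_right hτε hb
  have e2 : ε * Z = ε' * Z + 13 / 4 * (ε' * (4 * Z / δ)) := by rw [hε]; field_simp
  rw [e2]
  nlinarith

end Crest.Agent.R254
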