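import Crest.Agent.R254.GeoB

set_option autoImplicit false
set_option linter.unusedSectionVars false

namespace Crest.Agent.R254

open scoped RealInnerProductSpace

variable {H : Type*} [NormedAddCommGroup H] [InnerProductSpace ℝ H] [DecidableEq H]

/-- the state after the probing step from `x` to `x'` -/
structure Post (e : H) (δ θ ε' : ℝ) (c w : H) (s : ℝ) (M W : Submodule ℝ H)
    (B : Finset H) (Pi : Set (H × H)) (B₃ : Finset H) (Pi₃ : Set (H × H)) (x x' u : H) :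
    Prop where
  sub : B ⊆ B₃
  ds : DS e (8 * θ) B₃ Pi₃
  pr : ∀ π ∈ Pi₃, π.1 ∈ B₃ ∧ π.2 ∈ B₃
  xB : x ∈ B₃
  x'B : x' ∈ B₃
  u1 : ‖u‖ = 1
  uM : u ∈ Mᗮ
  xnew : New e c w s M u δ x
  x'adm : Adm e c w s M x'
  pts : ∀ q ∈ B₃, q ∈ B ∨ New e c w s M u δ q ∨ q = x'
  prs : ∀ π ∈ Pi₃, π ∈ Pi ∨ (New e c w s M u δ π.1 ∧ RR e (4 * θ) π.1 π.2 x W (ε' * ‖x - π.1‖)) ∨
    (π.1 = x' ∧ RR e (4 * θ) x' π.2 x' W 0)

variable {e : H} {δ θ ε ε' τ μ ρ : ℝ} {k g j : ℕ} {c w : H} {s : ℝ} {M W : Submodule ℝ H}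
  {B₀ : Finset H} {Pi₀ : Set (H × H)} {u u' : H} {B B₂ B₃ : Finset H} {Pi Pi₂ Pi₃ : Set (H × H)}
  {P w' x x' x₀ : H} {ℓ : ℝ} {β : ℕ → ℝ}

lemma Ret.room' (hp : Prm e δ θ) (hc : Ctx e δ θ k c w s M W B₀ Pi₀)
    (hr : Ret e δ θ ε' μ (j + 1) c w s M W B₀ Pi₀ B₂ Pi₂ x x₀ ρ β u') (hρ : 0 < ρ) :
    ‖x + (β j * ρ) • w - c‖ + 2 * j * ρ ≤ s := by
  have e1 : x + (β j * ρ) • w - c = (x - c) + (β j * ρ) • w := by abel
  have h1 := norm_add_le (x - c) ((β j * ρ) • w)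
  have h2 : |β j| ≤ 1 := by rcases hr.βv j with h | h | h <;> rw [h] <;> simp
  rw [norm_smul, Real.norm_eq_abs, abs_mul, abs_of_pos hρ] at h1
  have h3 := hc.w2 hp
  have h4 : |β j| * ρ * ‖w‖ ≤ 1 * ρ * 2 := by gcongr
  have h5 := hr.room
  rw [e1]
  push_cast at h5
  linarith

lemma Ret.post (hp : Prm e δ θ) (hc : Ctx e δ θ k c w s M W B₀ Pi₀)
    (hr : Ret e δ θ ε' μ (j + 1) c w s M W B₀ Pi₀ B₂ Pi₂ x x₀ ρ β u') (hρ : 0 < ρ)
    (hε0 : 0 ≤ ε') (hε : ε = ε' * (1 + 13 / δ)) (hεθ : ε ≤ 4 * θ) :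
    Post e δ θ ε' c w s M W B₀ Pi₀ (insert (x + (β j * ρ) • w) B₂)
      (addP Pi₂ (x + (β j * ρ) • w) B₂) x (x + (β j * ρ) • w) u' := by
  set x' := x + (β j * ρ) • w with hx'
  have hθ0 := hp.θ0
  have hred : red e w (x' - c) = red e w (x - c) := by
    have e1 : x' - c = (x - c) + (β j * ρ) • w := by rw [hx']; abel
    rw [e1, red, red, inner_add_right, inner_smul_right, hc.ew]; module
  have hadm : Adm e c w s M x' := by
    refine ⟨by rw [hred]; exact hr.xnew.1.1, ?_⟩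
    have h1 := hr.room' hp hc hρ
    have h2 : 0 ≤ 2 * (j : ℝ) * ρ := by positivity
    linarith
  have huw : ⟪u', w⟫ = 0 := Submodule.inner_left_of_mem_orthogonal (hc.WM hc.wW) hr.uM
  refine ⟨hr.sub.trans (Finset.subset_insert _ _), hr.ds.insert x' ?_, pr_addP hr.pr x',
    Finset.mem_insert_of_mem hr.xB, Finset.mem_insert_self _ _, hr.u1, hr.uM, hr.xnew, hadm,
    ?_, ?_⟩
  · intro π hπ
    rcases hr.prs π hπ with h | ⟨h1, h2⟩
    · exact hc.x1 π h x' hadm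
    have h3 := sep_move (b := β j * ρ) (r := 0) hp.he hp.δ0 (by linarith [hp.δθ, hp.θ1]) hr.u1
      hc.ew huw (by simp) (by have := hp.δ0; rw [norm_zero]; positivity) (h1.diff hr.xnew huw)
    have h4 := rr_move (τ := 0) hp hc.wW (hc.w2 hp) (by norm_num) (by linarith) hε0 hε
      (by simp) h3 h2
    rw [add_zero] at h4
    exact h4.tri (by linarith)
  · intro q hq
    rcases Finset.mem_insert.1 hq with h | h
    · exact Or.inr (Or.inr h)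
    · rcases hr.pts q h with h | h
      · exact Or.inl h
      · exact Or.inr (Or.inl h)
  · rintro π (h | ⟨h1, h2⟩)
    · rcases hr.prs π h with h | h
      · exact Or.inl h
      · exact Or.inr (Or.inl h)
    · refine Or.inr (Or.inr ⟨h1, ?_⟩)
      rcases hr.pts _ h2 with h | h
      · have := hc.x2 _ h x' hadm 0 (Submodule.zero_mem _)
        rwa [add_zero] at this
      · apply RR.of_slope hp.he (w := w) (by linarith [hc.we hp])
        have e1 : π.2 - x' = (π.2 - c) - (x' - c) := by abel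
        rw [e1, ← red_sub]
        exact Submodule.orthogonal_le hc.WM (Mᗮ.sub_mem h.1.1 hadm.1)

/-- `z` is seen from `y` in a direction close to `w'`, at time distance at least `D` -/
def Near (e w' : H) (τ D : ℝ) (y z : H) : Prop :=
  ∃ (b : ℝ) (r : H), z = y + b • w' + r ∧ ‖r‖ ≤ 12 * τ * |b| ∧ ⟪e, r⟫ = 0 ∧ D ≤ |b|

/-- standing numerical assumptions -/
structure Num (δ θ ε ε' τ : ℝ) : Prop where
  τ0 : 0 < τ
  τθ : 96 * τ ≤ θ * δ
  τε : 96 * τ ≤ ε'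
  εe : ε = ε' * (1 + 13 / δ)
  εθ : ε ≤ 4 * θ

lemma Num.ε'0 (h : Num δ θ ε ε' τ) : 0 ≤ ε' := by linarith [h.τ0, h.τε]

lemma Num.ε'ε (hp : Prm e δ θ) (h : Num δ θ ε ε' τ) : ε' ≤ ε := by
  have h1 := h.ε'0
  have h2 := hp.δ0
  have h3 : 0 ≤ ε' * (13 / δ) := by positivity
  rw [h.εe]; linarith

lemma Num.τδ (hp : Prm e δ θ) (h : Num δ θ ε ε' τ) : 96 * τ ≤ δ / 8 := by
  nlinarith [h.τθ, hp.θ1, hp.δ0]

lemma target (hp : Prm e δ θ) (hn : Num δ θ ε ε' τ) (hc : Ctx e δ θ (k + 1) c w s M W B₀ Pi₀)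
    (hg : Gen e δ θ ε τ g c w s M W B₀ Pi₀ u B Pi P w' ℓ) (hw2 : ‖w'‖ ≤ 2)
    (hq : Post e δ θ ε' (P + (ℓ / 2) • w') w' (τ * ℓ) (bigM M u w' B) (bigW W w') B Pi B₃ Pi₃
      x x' u')
    {a D : ℝ} {χ : H} (ha0 : 0 ≤ a) (ha1 : a ≤ ℓ) (hχ : χ ∈ (bigM M u w' B)ᗮ)
    (hD : D ≤ min a (ℓ - a)) (h1 : Near e w' τ D x (P + a • w' + χ))
    (h2 : Near e w' τ D x' (P + a • w' + χ)) :
    (∀ q ∈ B₃, q ∈ B₀ ∨ (New e c w s M u δ q ∧ δ / 4 * D ≤ ‖q - (P + a • w' + χ)‖)) ∧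
    (∀ π ∈ Pi₃, π ∈ Pi₀ ∨ (New e c w s M u δ π.1 ∧
      RR e (4 * θ) π.1 π.2 (P + a • w' + χ) W (ε * ‖P + a • w' + χ - π.1‖))) := by
  have hθ0 := hp.θ0
  have hδ0 := hp.δ0
  have hθ1 := hp.θ1
  have hδθ := hp.δθ
  have hτδ := hn.τδ hp
  have hτ0 := hn.τ0
  have hε'0 := hn.ε'0
  have hε'ε := hn.ε'ε hp
  have hzM : P + a • w' ∈ bigM M u w' B :=
    Submodule.add_mem _ (B_bigM hg.PB) (Submodule.smul_mem _ _ w_bigM)
  have huw : ⟪u', w'⟫ = 0 := Submodule.inner_left_of_mem_orthogonal w_bigM hq.uM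
  have hold : ∀ q ∈ B, ‖P + a • w' - q‖ ≤ ‖P + a • w' + χ - q‖ := by
    intro q hqB
    have := pyth_left (Submodule.sub_mem _ hzM (B_bigM hqB)) hχ
    refine this.trans (le_of_eq ?_)
    congr 1; abel
  set z := P + a • w' + χ with hz
  obtain ⟨b, r, ez, hr, her, hDb⟩ := h1
  obtain ⟨b', r', ez', hr', her', hDb'⟩ := h2
  have hsep : ∀ q, New e (P + (ℓ / 2) • w') w' (τ * ℓ) (bigM M u w' B) u' δ q →
      δ * |b| ≤ 4 * ‖x + b • w' + r - q‖ := fun q hqn =>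
    sep_move hp.he hδ0 (by linarith) hq.u1 (hg.ew hc) huw her
      (by nlinarith [abs_nonneg b]) (hqn.diff hq.xnew huw)
  have hb' : |b'| ≤ ‖z - x'‖ := by
    have h3 := abs_t_le hp.he (z - x')
    have e1 : z - x' = b' • w' + r' := by rw [ez']; abel
    rw [e1, inner_add_right, inner_smul_right, hg.ew hc, her', mul_one, add_zero] at h3
    rwa [e1]
  constructor
  · intro q hqB
    rcases hq.pts q hqB with h | h | h
    · rcases hg.pts q h with h' | ⟨h', h''⟩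
      · exact Or.inl h'
      · refine Or.inr ⟨h', ?_⟩
        have h3 := h'' a ha0 ha1
        have h4 := hold q h
        rw [norm_sub_rev] at h3 ⊢
        nlinarith
    · refine Or.inr ⟨(hg.new_of_adm hc (by linarith) h.1).1, ?_⟩
      have h3 := hsep q h
      rw [← ez, norm_sub_rev] at h3
      nlinarith
    · refine Or.inr ⟨h ▸ (hg.new_of_adm hc (by linarith) hq.x'adm).1, ?_⟩
      rw [h, norm_sub_rev]
      nlinarith [abs_nonneg b']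
  · intro π hπ
    rcases hq.prs π hπ with h | ⟨h, h'⟩ | ⟨h, h'⟩
    · rcases hg.prs π h with h' | ⟨h', h''⟩
      · exact Or.inl h'
      · refine Or.inr ⟨h', ?_⟩
        refine ((h'' a ha0 ha1).orth (by linarith) hzM (B_bigM (hg.pr π h).1)
          (B_bigM (hg.pr π h).2) (le_bigM hc.eM) (hc.WM.trans le_bigM) hχ).mono le_rfl ?_
        exact mul_le_mul_of_nonneg_left (hold _ (hg.pr π h).1) (by linarith)
    · refine Or.inr ⟨(hg.new_of_adm hc (by linarith) h.1).1, ?_⟩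
      have := rr_move hp w_bigW hw2 (by linarith) hn.τε hε'0 hn.εe hr (hsep _ h) h'
      rw [← ez] at this
      exact this.mono le_bigW le_rfl
    · refine Or.inr ⟨h ▸ (hg.new_of_adm hc (by linarith) hq.x'adm).1, ?_⟩
      have := (h'.shift (Submodule.smul_mem _ b' w_bigW)).err hp.he (by linarith) (by linarith) r'
      rw [← ez'] at this
      rw [h]
      refine this.mono le_bigW ?_
      have h3 := hn.τε
      nlinarith [abs_nonneg b', norm_nonneg (z - x')]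

lemma Gen.w2 (hp : Prm e δ θ) (hc : Ctx e δ θ (k + 1) c w s M W B₀ Pi₀) (hu : ‖u‖ = 1)
    (hg : Gen e δ θ ε τ g c w s M W B₀ Pi₀ u B Pi P w' ℓ)
    (hdr : ‖w' - w - δ • u‖ ≤ θ * δ / 3) : ‖w'‖ ≤ 2 := by
  have hsl := hg.slope' hp hc hu hdr
  have h2 : 0 ≤ 4 * (k : ℝ) * δ ^ 2 := by positivity
  have h1 : ‖w' - e‖ ≤ θ :=
    (pow_le_pow_iff_left₀ (norm_nonneg _) hp.θ0.le two_ne_zero).1 (by linarith)
  have h3 := norm_sub_norm_le w' e
  linarith [hp.he, hp.θ1]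

/-- returning to the upper level -/
lemma ret_up (hp : Prm e δ θ) (hn : Num δ θ ε ε' τ) (hc : Ctx e δ θ (k + 1) c w s M W B₀ Pi₀)
    (hu : ‖u‖ = 1) (huM : u ∈ Mᗮ)
    (hg : Gen e δ θ ε τ g c w s M W B₀ Pi₀ u B Pi P w' ℓ) (hdr : ‖w' - w - δ • u‖ ≤ θ * δ / 3)
    {μ' : ℝ} (hr : Ret e δ θ ε' μ' (j + 1) (P + (ℓ / 2) • w') w' (τ * ℓ) (bigM M u w' B)
      (bigW W w') B Pi B₂ Pi₂ x x₀ ρ β u') (hρ : 0 < ρ) (hμ : μ * s ≤ ρ) :
    Ret e δ θ ε μ j c w s M W B₀ Pi₀ (insert (x + (β j * ρ) • w') B₂)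
      (addP Pi₂ (x + (β j * ρ) • w') B₂) (x + (β j * ρ) • w') x₀ ρ β u := by
  have hτδ := hn.τδ hp
  have hτ0 := hn.τ0
  have hδ1 : δ ≤ 1 := by linarith [hp.δθ, hp.θ1]
  have hℓ := hg.ℓ0
  have hc' := hg.ctx_down hp hc hu huM hτ0 hn.τθ (hn.ε'0.trans (hn.ε'ε hp)) hn.εθ hdr
  have hq := hr.post hp hc' hρ hn.ε'0 hn.εe hn.εθ
  have hroom := hr.room' hp hc' hρ
  set x' := x + (β j * ρ) • w' with hx'
  have ht := abs_le.1 (hq.x'adm.t_le hp)
  have e1 := decomp_eq e P w' x' ℓ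
  have key := target (D := 0) (a := ℓ / 2 + ⟪e, x' - (P + (ℓ / 2) • w')⟫) hp hn hc hg
    (hg.w2 hp hc hu hdr) hq (by nlinarith [ht.1]) (by nlinarith [ht.2]) hq.x'adm.1
    (le_min (by nlinarith [ht.1]) (by nlinarith [ht.2]))
    ⟨β j * ρ, 0, by rw [← e1, add_zero], by rw [norm_zero]; positivity, by simp, abs_nonneg _⟩
    ⟨0, 0, by rw [← e1]; simp, by simp, by simp, abs_nonneg _⟩
  rw [← e1] at key
  refine ⟨hg.sub.trans hq.sub, hq.ds, hq.pr, hu, huM, fun q hqB => ?_, key.2, hq.x'B,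
    Finset.mem_insert_of_mem hr.x₀B, (hg.new_of_adm hc (by linarith) hq.x'adm).1, ?_, hμ,
    hr.βv, ?_⟩
  · rcases key.1 q hqB with h | h
    · exact Or.inl h
    · exact Or.inr h.1
  · have h1 := norm_sub_le_norm_sub_add_norm_sub x' (P + (ℓ / 2) • w') c
    have h2 := hg.centre
    nlinarith
  · rcases hr.far with ⟨h1, l, hl, h2⟩ | h
    · by_cases hβ : β j = 0
      · left
        refine ⟨by rw [hx', hβ, zero_mul, zero_smul, add_zero, h1], l, ?_, h2⟩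
        rcases Nat.lt_succ_iff_lt_or_eq.1 hl with h | h
        · exact h
        · exact absurd hβ (h ▸ h2)
      · right
        intro ζ hζ
        have h3 := abs_t_le hu (x' + ζ - x₀)
        have e2 : x' + ζ - x₀ = (β j * ρ) • (w' - w) + ((β j * ρ) • w + ζ) := by
          rw [hx', h1]; module
        have h4 : |β j| = 1 := by
          rcases hr.βv j with h | h | h
          · exact absurd h hβ
          · rw [h]; simp
          · rw [h]; simp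
        have h5 : ⟪u, x' + ζ - x₀⟫ = β j * ρ * δ := by
          rw [e2, inner_add_right, inner_smul_right, hg.uw,
            Submodule.inner_left_of_mem_orthogonal
              (M.add_mem (M.smul_mem _ (hc.WM hc.wW)) hζ) huM, add_zero]
        rw [h5, abs_mul, abs_mul, h4, abs_of_pos hρ, abs_of_pos hp.δ0] at h3
        linarith
    · right
      intro ζ hζ
      have := h ((β j * ρ) • w' + ζ)
        (Submodule.add_mem _ (Submodule.smul_mem _ _ w_bigM) (le_bigM hζ))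
      rwa [← add_assoc] at this

/-- the next generation on a new piece -/
lemma piece (hp : Prm e δ θ) (hn : Num δ θ ε ε' τ) (hc : Ctx e δ θ (k + 1) c w s M W B₀ Pi₀)
    (hg : Gen e δ θ ε τ g c w s M W B₀ Pi₀ u B Pi P w' ℓ) (hw2 : ‖w'‖ ≤ 2)
    (hq : Post e δ θ ε' (P + (ℓ / 2) • w') w' (τ * ℓ) (bigM M u w' B) (bigW W w') B Pi B₃ Pi₃
      x x' u')
    {P₁ χP χ₁ : H} {a₁ ℓ₁ : ℝ} (hP₁ : P₁ = P + a₁ • w' + χP) (hχP : χP ∈ (bigM M u w' B)ᗮ)
    (hχ₁ : χ₁ ∈ (bigM M u w' B)ᗮ) (hχn : ‖χ₁‖ ≤ 12 * τ) (ha0 : 0 ≤ a₁) (ha1 : a₁ + ℓ₁ ≤ ℓ)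
    (hℓ₁ : 0 < ℓ₁) (hPB : P₁ ∈ B₃) (hQB : P₁ + ℓ₁ • (w' + χ₁) ∈ B₃)
    (hbP : ‖P₁ - c‖ + ℓ₁ ≤ s) (hbQ : ‖P₁ + ℓ₁ • (w' + χ₁) - c‖ + ℓ₁ ≤ s)
    (hN : ∀ a, 0 ≤ a → a ≤ ℓ₁ → Near e w' τ (min a (ℓ₁ - a)) x (P₁ + a • (w' + χ₁)) ∧
      Near e w' τ (min a (ℓ₁ - a)) x' (P₁ + a • (w' + χ₁))) :
    Gen e δ θ ε τ (g + 1) c w s M W B₀ Pi₀ u B₃ Pi₃ P₁ (w' + χ₁) ℓ₁ := by
  have ez : ∀ a : ℝ, P₁ + a • (w' + χ₁) = P + (a₁ + a) • w' + (χP + a • χ₁) := by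
    intro a; rw [hP₁]; module
  have key := fun a (h0 : 0 ≤ a) (h1 : a ≤ ℓ₁) =>
    target (D := min a (ℓ₁ - a)) (a := a₁ + a) (χ := χP + a • χ₁) hp hn hc hg hw2 hq
      (by linarith) (by linarith) (Submodule.add_mem _ hχP (Submodule.smul_mem _ _ hχ₁))
      (le_min ((min_le_left _ _).trans (by linarith)) ((min_le_right _ _).trans (by linarith)))
      (by rw [← ez]; exact (hN a h0 h1).1) (by rw [← ez]; exact (hN a h0 h1).2)
  have hnew : New e c w s M u δ P₁ := by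
    rw [hP₁]; apply hg.new_of hc hχP; rw [← hP₁]; linarith
  have e1 : w' + χ₁ - w = (w' - w) + χ₁ := by abel
  refine ⟨hg.sub.trans hq.sub, hq.ds, hq.pr, hPB, hQB, hℓ₁, ?_, ?_, ?_, hnew.1.1, hnew.2,
    hbP, hbQ, ?_, ?_⟩
  · rw [e1]; exact Mᗮ.add_mem hg.orth (orth_bigM hχ₁)
  · rw [e1, inner_add_right, hg.uw, Submodule.inner_right_of_mem_orthogonal u_bigM hχ₁, add_zero]
  · have e2 : w' + χ₁ - w - δ • u = (w' - w - δ • u) + χ₁ := by abel
    rw [e2, pyth (Submodule.sub_mem _ (Submodule.sub_mem _ w_bigM (le_bigM (hc.WM hc.wW)))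
      (Submodule.smul_mem _ _ u_bigM)) hχ₁]
    have h1 := pow_le_pow_left₀ (norm_nonneg _) hχn 2
    have h2 := hg.drift
    push_cast
    linarith
  · intro q hqB
    by_cases h : q ∈ B₀
    · exact Or.inl h
    · refine Or.inr ⟨(((key 0 le_rfl hℓ₁.le).1 q hqB).resolve_left h).1, fun a h0 h1 => ?_⟩
      rw [ez]
      exact (((key a h0 h1).1 q hqB).resolve_left h).2
  · intro π hπ
    by_cases h : π ∈ Pi₀
    · exact Or.inl h
    · refine Or.inr ⟨(((key 0 le_rfl hℓ₁.le).2 π hπ).resolve_left h).1, fun a h0 h1 => ?_⟩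
      rw [ez]
      exact (((key a h0 h1).2 π hπ).resolve_left h).2

lemma three (hp : Prm e δ θ) (hn : Num δ θ ε ε' τ) (hc : Ctx e δ θ (k + 1) c w s M W B₀ Pi₀)
    (hg : Gen e δ θ ε τ g c w s M W B₀ Pi₀ u B Pi P w' ℓ) (hw2 : ‖w'‖ ≤ 2)
    (hq : Post e δ θ ε' (P + (ℓ / 2) • w') w' (τ * ℓ) (bigM M u w' B) (bigW W w') B Pi B₃ Pi₃
      x x' u') (hρ : 0 < ρ) {y : H}
    (hxy : (x = y ∧ x' = y + ρ • w') ∨ (x = y + ρ • w' ∧ x' = y)) :
    ∃ (a : ℝ) (w₁ w₃ : H), ℓ / 4 ≤ a ∧ ℓ / 4 ≤ ℓ - a - ρ ∧ P + a • w₁ = y ∧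
      y + ρ • w' + (ℓ - a - ρ) • w₃ = P + ℓ • w' ∧
      Gen e δ θ ε τ (g + 1) c w s M W B₀ Pi₀ u B₃ Pi₃ P w₁ a ∧
      Gen e δ θ ε τ (g + 1) c w s M W B₀ Pi₀ u B₃ Pi₃ y w' ρ ∧
      Gen e δ θ ε τ (g + 1) c w s M W B₀ Pi₀ u B₃ Pi₃ (y + ρ • w') w₃ (ℓ - a - ρ) := by
  have hτδ := hn.τδ hp
  have hτ0 := hn.τ0
  have hτ1 : τ ≤ 1 / 8 := by linarith [hp.δθ, hp.θ1]
  have hℓ := hg.ℓ0
  have hy : Adm e (P + (ℓ / 2) • w') w' (τ * ℓ) (bigM M u w' B) y ∧ y ∈ B₃ := by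
    rcases hxy with ⟨h, -⟩ | ⟨-, h⟩
    · exact h ▸ ⟨hq.xnew.1, hq.xB⟩
    · exact h ▸ ⟨hq.x'adm, hq.x'B⟩
  have hy' : Adm e (P + (ℓ / 2) • w') w' (τ * ℓ) (bigM M u w' B) (y + ρ • w') ∧
      y + ρ • w' ∈ B₃ := by
    rcases hxy with ⟨-, h⟩ | ⟨h, -⟩
    · exact h ▸ ⟨hq.x'adm, hq.x'B⟩
    · exact h ▸ ⟨hq.xnew.1, hq.xB⟩
  have hboth : ∀ D z, Near e w' τ D y z → Near e w' τ D (y + ρ • w') z →
      Near e w' τ D x z ∧ Near e w' τ D x' z := by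
    intro D z h1 h2
    rcases hxy with ⟨h, h'⟩ | ⟨h, h'⟩
    · rw [h, h']; exact ⟨h1, h2⟩
    · rw [h, h']; exact ⟨h2, h1⟩
  have ht := abs_le.1 (hy.1.t_le hp)
  have ht' := abs_le.1 (hy'.1.t_le hp)
  have et : ⟪e, y + ρ • w' - (P + (ℓ / 2) • w')⟫ = ⟪e, y - (P + (ℓ / 2) • w')⟫ + ρ := by
    have : y + ρ • w' - (P + (ℓ / 2) • w') = (y - (P + (ℓ / 2) • w')) + ρ • w' := by abel
    rw [this, inner_add_right, inner_smul_right, hg.ew hc, mul_one]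
  rw [et] at ht'
  have ey := decomp_eq e P w' y ℓ
  have hχn := hy.1.red_le hp hw2
  have hχ := hy.1.1
  have hb := (hg.new_of_adm hc (by linarith) hy.1).2
  have hb' := (hg.new_of_adm hc (by linarith) hy'.1).2
  set t := ⟪e, y - (P + (ℓ / 2) • w')⟫
  set χ := red e w' (y - (P + (ℓ / 2) • w'))
  set a := ℓ / 2 + t with ha
  have hτℓ : τ * ℓ ≤ ℓ / 8 := by nlinarith
  have ha4 : ℓ / 4 ≤ a := by linarith [ht.1]
  have hc4 : ℓ / 4 ≤ ℓ - a - ρ := by linarith [ht'.2]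
  have ha0 : 0 < a := by linarith
  have hc0 : 0 < ℓ - a - ρ := by linarith
  have heχ : ⟪e, χ⟫ = 0 := Submodule.inner_right_of_mem_orthogonal (le_bigM hc.eM) hχ
  have hsm : ∀ A : ℝ, ℓ / 4 ≤ A → ‖A⁻¹ • χ‖ ≤ 12 * τ := by
    intro A hA
    have hA0 : 0 < A := by linarith
    rw [norm_smul, norm_inv, Real.norm_of_nonneg hA0.le, inv_mul_le_iff₀ hA0]
    nlinarith
  have e1 : P + a • (w' + a⁻¹ • χ) = y := by
    rw [smul_add, smul_smul, mul_inv_cancel₀ ha0.ne', one_smul, ← add_assoc, ← ey]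
  have e3 : y + ρ • w' + (ℓ - a - ρ) • (w' + -((ℓ - a - ρ)⁻¹ • χ)) = P + ℓ • w' := by
    rw [smul_add, smul_neg, smul_smul, mul_inv_cancel₀ hc0.ne', one_smul]
    conv_lhs => rw [ey]
    module
  refine ⟨a, w' + a⁻¹ • χ, w' + -((ℓ - a - ρ)⁻¹ • χ), ha4, hc4, e1, e3, ?_, ?_, ?_⟩
  · refine piece (χP := 0) (a₁ := 0) hp hn hc hg hw2 hq (by simp) (Submodule.zero_mem _)
      (Submodule.smul_mem _ _ hχ) (hsm a ha4) le_rfl (by linarith) ha0 (hq.sub hg.PB)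
      (by rw [e1]; exact hy.2) (by linarith [hg.ballP]) (by rw [e1]; linarith [ht.2]) ?_
    intro a' h0 h1
    have hr : ‖(a' - a) • a⁻¹ • χ‖ ≤ 12 * τ * |a' - a| := by
      rw [norm_smul, Real.norm_eq_abs, mul_comm]
      exact mul_le_mul_of_nonneg_right (hsm a ha4) (abs_nonneg _)
    have her : ⟪e, (a' - a) • a⁻¹ • χ⟫ = 0 := by
      rw [inner_smul_right, inner_smul_right, heχ]; ring
    have h2 : |a' - a| = a - a' := by rw [abs_of_nonpos (by linarith)]; ring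
    have h3 : |a' - a - ρ| = a - a' + ρ := by rw [abs_of_nonpos (by linarith)]; ring
    apply hboth
    · refine ⟨a' - a, _, ?_, hr, her, by rw [h2]; exact min_le_right _ _⟩
      conv_rhs => rw [← e1]
      module
    · refine ⟨a' - a - ρ, _, ?_, hr.trans ?_, her, ?_⟩
      · conv_rhs => rw [← e1]
        module
      · rw [h2, h3]; nlinarith
      · rw [h3]; linarith [min_le_right a' (a - a')]
  · have := piece (χP := χ) (a₁ := a) (χ₁ := 0) (ℓ₁ := ρ) hp hn hc hg hw2 hq ey hχ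
      (Submodule.zero_mem _) (by rw [norm_zero]; positivity) ha0.le (by linarith) hρ hy.2
      (by rw [add_zero]; exact hy'.2) (by linarith [ht.1, ht'.2])
      (by rw [add_zero]; linarith [ht.1, ht'.2]) ?_
    · rwa [add_zero] at this
    intro a' h0 h1
    apply hboth
    · exact ⟨a', 0, by simp, by rw [norm_zero]; positivity, by simp,
        by rw [abs_of_nonneg h0]; exact min_le_left _ _⟩
    · refine ⟨a' - ρ, 0, by module, by rw [norm_zero]; positivity, by simp, ?_⟩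
      rw [abs_of_nonpos (by linarith)]; linarith [min_le_right a' (ρ - a')]
  · refine piece (χP := χ) (a₁ := a + ρ) hp hn hc hg hw2 hq ?_ hχ
      (Submodule.neg_mem _ (Submodule.smul_mem _ _ hχ)) (by rw [norm_neg]; exact hsm _ hc4)
      (by linarith) (by linarith) hc0 hy'.2 (by rw [e3]; exact hq.sub hg.QB)
      (by linarith [ht'.1]) (by rw [e3]; linarith [hg.ballQ]) ?_
    · conv_lhs => rw [ey]
      module
    intro a' h0 h1
    have hr : ‖a' • -((ℓ - a - ρ)⁻¹ • χ)‖ ≤ 12 * τ * |a'| := by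
      rw [norm_smul, Real.norm_eq_abs, mul_comm, norm_neg]
      exact mul_le_mul_of_nonneg_right (hsm _ hc4) (abs_nonneg _)
    have her : ⟪e, a' • -((ℓ - a - ρ)⁻¹ • χ)⟫ = 0 := by
      rw [inner_smul_right, inner_neg_right, inner_smul_right, heχ]; ring
    apply hboth
    · refine ⟨a' + ρ, _, by module, hr.trans ?_, her, ?_⟩
      · rw [abs_of_nonneg h0, abs_of_nonneg (by linarith)]; nlinarith
      · rw [abs_of_nonneg (by linarith)]; linarith [min_le_left a' (ℓ - a - ρ - a')]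
    · exact ⟨a', _, by module, hr, her, by rw [abs_of_nonneg h0]; exact min_le_left _ _⟩

end Crest.Agent.R254
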