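import Crest.Agent.R254.Game

set_option autoImplicit false
set_option linter.unusedSectionVars false

namespace Crest.Agent.R254

section seq
variable {E : Type*} [NormedAddCommGroup E]

lemma chord_cs (x : ℕ → E) (s n : ℕ) :
    ‖x (s + n) - x s‖ ^ 2 ≤ n * ∑ k ∈ Finset.range n, ‖x (s + k + 1) - x (s + k)‖ ^ 2 := by
  have h1 : x (s + n) - x s = ∑ k ∈ Finset.range n, (x (s + k + 1) - x (s + k)) := by
    have := Finset.sum_range_sub (fun k => x (s + k)) n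
    simp only [add_zero] at this
    rw [← this]; rfl
  have h2 : ‖x (s + n) - x s‖ ≤ ∑ k ∈ Finset.range n, ‖x (s + k + 1) - x (s + k)‖ := by
    rw [h1]; exact norm_sum_le _ _
  have h3 := sq_sum_le_card_mul_sum_sq (s := Finset.range n)
    (f := fun k => ‖x (s + k + 1) - x (s + k)‖)
  rw [Finset.card_range] at h3
  exact (pow_le_pow_left₀ (norm_nonneg _) h2 2).trans h3

lemma chord_triv (x : ℕ → E) (s n : ℕ) (A : ℝ)
    (h : ∀ k < n, ‖x (s + k + 1) - x (s + k)‖ ^ 2 ≤ A) :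
    ‖x (s + n) - x s‖ ^ 2 ≤ n * (n * A) := by
  refine (chord_cs x s n).trans (mul_le_mul_of_nonneg_left ?_ (Nat.cast_nonneg _))
  have := Finset.sum_le_card_nsmul (Finset.range n) _ A (fun k hk => h k (Finset.mem_range.1 hk))
  simpa using this

lemma concat0 {x y z T₁ T₂ A Γ : ℝ} (hx : x ^ 2 ≤ T₁ * (T₁ * A - Γ)) (hy : y ^ 2 ≤ T₂ * (T₂ * A))
    (h1 : 0 < T₁) (h2 : 0 ≤ T₂) (hz0 : 0 ≤ z) (hz : z ≤ x + y) :
    z ^ 2 ≤ (T₁ + T₂) * ((T₁ + T₂) * A - Γ) := by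
  have hz2 : z ^ 2 ≤ (x + y) ^ 2 := pow_le_pow_left₀ hz0 hz 2
  refine hz2.trans ?_
  rcases h2.eq_or_lt with rfl | h2
  · have : y = 0 := by nlinarith [sq_nonneg y]
    subst this
    simpa using hx
  · have e1 : x ^ 2 / T₁ ≤ T₁ * A - Γ := by rw [div_le_iff₀ h1]; linarith
    have e2 : y ^ 2 / T₂ ≤ T₂ * A := by rw [div_le_iff₀ h2]; linarith
    have e3 : (x + y) ^ 2 ≤ (T₁ + T₂) * (x ^ 2 / T₁ + y ^ 2 / T₂) := by
      have : (T₁ + T₂) * (x ^ 2 / T₁ + y ^ 2 / T₂) - (x + y) ^ 2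
          = (T₂ * x - T₁ * y) ^ 2 / (T₁ * T₂) := by
        field_simp; ring
      have h4 : 0 ≤ (T₂ * x - T₁ * y) ^ 2 / (T₁ * T₂) := by positivity
      linarith
    refine e3.trans (mul_le_mul_of_nonneg_left (by linarith) (by linarith))

/-- An energy deficit on a sub-interval persists on the whole interval. -/
lemma chord_ext (x : ℕ → E) (s j n T : ℕ) (A Γ : ℝ) (hn : 0 < n) (hT : j + n ≤ T)
    (h : ∀ k < T, ‖x (s + k + 1) - x (s + k)‖ ^ 2 ≤ A)
    (hΓ : ‖x (s + j + n) - x (s + j)‖ ^ 2 ≤ n * (n * A - Γ)) :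
    ‖x (s + T) - x s‖ ^ 2 ≤ T * (T * A - Γ) := by
  obtain ⟨l, rfl⟩ := Nat.exists_eq_add_of_le hT
  have h1 := chord_triv x s j A (fun k hk => h k (by omega))
  have h2 := chord_triv x (s + j + n) l A (fun k hk => by
    have := h (j + n + k) (by omega)
    simpa only [add_assoc] using this)
  have hn' : (0 : ℝ) < n := by exact_mod_cast hn
  have h3 := concat0 hΓ h1 hn' (Nat.cast_nonneg _) (norm_nonneg (x (s + j + n) - x s))
    (norm_sub_le_norm_sub_add_norm_sub _ _ _)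
  have h4 := concat0 h3 h2 (by positivity) (Nat.cast_nonneg _)
    (norm_nonneg (x (s + j + n + l) - x s)) (by
      rw [add_comm ‖_‖]; exact norm_sub_le_norm_sub_add_norm_sub _ _ _)
  have e : s + (j + n + l) = s + j + n + l := by ring
  rw [e]
  push_cast
  convert h4 using 2 <;> ring

lemma sum_blocks (u : ℕ → ℝ) (T R : ℕ) (β : ℝ)
    (h : ∀ r < R, β ≤ ∑ k ∈ Finset.range T, u (r * T + k)) :
    R * β ≤ ∑ k ∈ Finset.range (R * T), u k := by
  induction R with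
  | zero => simp
  | succ R ih =>
    rw [Nat.succ_mul, Finset.sum_range_add]
    have := ih (fun r hr => h r (by omega))
    have h2 := h R (by omega)
    push_cast
    linarith

end seq

variable {H E : Type*} [NormedAddCommGroup H] [NormedAddCommGroup E] [InnerProductSpace ℝ E]
  [DecidableEq H]

/-- The point `(n, b)` is an end point of a cell. -/
def Pres (c : ℕ → H → Prop) (n : ℕ) (b : H) : Prop := c n b ∨ ∃ k, n = k + 1 ∧ c k b

structure AdmF (L A : ℝ) (c : ℕ → H → Prop) (f : ℕ → H → E) : Prop where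
  bl : ∀ n b b', Pres c n b → Pres c n b' →
    ‖b - b'‖ ≤ ‖f n b - f n b'‖ ∧ ‖f n b - f n b'‖ ≤ L * ‖b - b'‖
  cell : ∀ k b, c k b → ‖f (k + 1) b - f k b‖ ^ 2 ≤ A

structure Geo (good : Finset H → Prop) (B U : Finset H) (M : ℕ) (S : Finset (ℕ × H)) (T : ℕ) :
    Prop where
  marg : ∀ x ∈ S, M ≤ x.1 ∧ x.1 + 1 + M ≤ T
  lab : ∀ x ∈ S, x.2 ∈ U
  win : ∀ n₀, ∃ G, good G ∧ B ⊆ G ∧ ∀ x ∈ S, n₀ ≤ x.1 → x.1 ≤ n₀ + M → x.2 ∈ G

def Energy (L ζ : ℝ) (B : Finset H) (Φ : Set (H → E)) (S : Finset (ℕ × H)) (T : ℕ) : Prop :=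
  ∀ (c : ℕ → H → Prop) (f : ℕ → H → E) (A : ℝ) (n₀ : ℕ), A ≤ L ^ 2 → AdmF L A c f →
    (∀ k < T, c (n₀ + k) 0) → (∀ k < T, ∀ b ∈ B, c (n₀ + k) b) →
    (∀ x ∈ S, c (n₀ + x.1) x.2) → ∀ F₀ ∈ Φ,
    (∀ b ∈ B, ∀ n ≤ T, ‖f (n₀ + n) b - f (n₀ + n) 0 - F₀ b‖ ≤ ζ) →
    ‖f (n₀ + T) 0 - f n₀ 0‖ ^ 2 ≤ T * (T * A - 1)

variable {good : Finset H → Prop}

def shiftS (j : ℕ) (S : Finset (ℕ × H)) : Finset (ℕ × H) := S.image (fun x => (j + x.1, x.2))

omit [NormedAddCommGroup H] in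
lemma Geo.monoU {B U U' : Finset H} {M : ℕ} {S : Finset (ℕ × H)} {T : ℕ}
    (h : Geo good B U M S T) (hU : U ⊆ U') : Geo good B U' M S T :=
  ⟨h.marg, fun x hx => hU (h.lab x hx), h.win⟩

omit [NormedAddCommGroup H] in
lemma Geo.cat {B U : Finset H} {M : ℕ} {S₁ S₂ : Finset (ℕ × H)} {T₁ T₂ : ℕ}
    (h₁ : Geo good B U M S₁ T₁) (h₂ : Geo good B U M S₂ T₂) :
    Geo good B U M (S₁ ∪ shiftS T₁ S₂) (T₁ + T₂) := by
  refine ⟨?_, ?_, ?_⟩
  · intro x hx
    rcases Finset.mem_union.1 hx with hx | hx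
    · have := h₁.marg x hx; omega
    · obtain ⟨y, hy, rfl⟩ := Finset.mem_image.1 hx
      have := h₂.marg y hy
      simp only; omega
  · intro x hx
    rcases Finset.mem_union.1 hx with hx | hx
    · exact h₁.lab x hx
    · obtain ⟨y, hy, rfl⟩ := Finset.mem_image.1 hx
      exact h₂.lab y hy
  · intro n₀
    by_cases hn : n₀ < T₁
    · obtain ⟨G, hG, hB, hx⟩ := h₁.win n₀
      refine ⟨G, hG, hB, ?_⟩
      intro x hx' e1 e2
      rcases Finset.mem_union.1 hx' with hx' | hx'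
      · exact hx x hx' e1 e2
      · obtain ⟨y, hy, rfl⟩ := Finset.mem_image.1 hx'
        have := h₂.marg y hy
        simp only at e2; omega
    · obtain ⟨G, hG, hB, hx⟩ := h₂.win (n₀ - T₁)
      refine ⟨G, hG, hB, ?_⟩
      intro x hx' e1 e2
      rcases Finset.mem_union.1 hx' with hx' | hx'
      · have := h₁.marg x hx'; omega
      · obtain ⟨y, hy, rfl⟩ := Finset.mem_image.1 hx'
        simp only at e1 e2
        exact hx y hy (by omega) (by omega)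

omit [NormedAddCommGroup H] in
lemma Geo.rep {B U : Finset H} {M : ℕ} {S : Finset (ℕ × H)} {T : ℕ}
    (h : Geo good B U M S T) (hB : good B) (R : ℕ) :
    ∃ S', Geo good B U M S' (R * T) ∧ ∀ r < R, ∀ x ∈ S, (r * T + x.1, x.2) ∈ S' := by
  induction R with
  | zero =>
    exact ⟨∅, ⟨by simp, by simp, fun _ => ⟨B, hB, subset_rfl, by simp⟩⟩, by simp⟩
  | succ R ih =>
    obtain ⟨S', hS', hm⟩ := ih
    refine ⟨S' ∪ shiftS (R * T) S, by rw [Nat.succ_mul]; exact hS'.cat h, ?_⟩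
    intro r hr x hx
    rcases Nat.lt_succ_iff_lt_or_eq.1 hr with hr | rfl
    · exact Finset.mem_union_left _ (hm r hr x hx)
    · exact Finset.mem_union_right _ (Finset.mem_image.2 ⟨x, hx, rfl⟩)

omit [DecidableEq H] in
/-- If the offset of the label `p` oscillates on each of `R` blocks, the root line loses energy. -/
lemma unstable {L A D ζ : ℝ} {c : ℕ → H → Prop} {f : ℕ → H → E} (hL : 1 ≤ L) (hA : A ≤ L ^ 2)
    (hf : AdmF L A c f) (p : H) (hp : ‖p‖ ≤ D) (hζ : 0 < ζ) (s R T : ℕ) (hT : 0 < T)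
    (hR : (1 + 2 * L ^ 2 * D + L ^ 2 * D ^ 2) * (4 * T) / ζ ^ 2 ≤ R)
    (h0 : ∀ k < R * T, c (s + k) 0) (hc : ∀ k < R * T, c (s + k) p)
    (hosc : ∀ r < R, ∃ n ≤ T, ζ < ‖f (s + r * T + n) p - f (s + r * T + n) 0 -
      (f (s + r * T) p - f (s + r * T) 0)‖) :
    0 < R * T ∧
      ‖f (s + R * T) 0 - f s 0‖ ^ 2 ≤ ((R * T : ℕ) : ℝ) * (((R * T : ℕ) : ℝ) * A - 1) := by
  have hD : 0 ≤ D := (norm_nonneg _).trans hp
  have hT' : (0 : ℝ) < T := by exact_mod_cast hT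
  have hR0 : 0 < R := by
    have : (0 : ℝ) < (1 + 2 * L ^ 2 * D + L ^ 2 * D ^ 2) * (4 * T) / ζ ^ 2 := by positivity
    exact_mod_cast this.trans_le hR
  have hN : 0 < R * T := Nat.mul_pos hR0 hT
  refine ⟨hN, ?_⟩
  set N := R * T with hNdef
  set g : ℕ → E := fun n => f n p - f n 0 with hg
  set m : ℕ → E := fun n => (1 / 2 : ℝ) • (f n p + f n 0) with hm
  have hblock : ∀ r < R, ζ ^ 2 / T ≤ ∑ k ∈ Finset.range T,
      ‖g (s + (r * T + k) + 1) - g (s + (r * T + k))‖ ^ 2 := by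
    intro r hr
    obtain ⟨n, hn, hz⟩ := hosc r hr
    have h1 := chord_cs g (s + r * T) n
    have h2 : ζ ^ 2 ≤ ‖g (s + r * T + n) - g (s + r * T)‖ ^ 2 :=
      pow_le_pow_left₀ hζ.le hz.le 2
    have h3 : ∑ k ∈ Finset.range n, ‖g (s + r * T + k + 1) - g (s + r * T + k)‖ ^ 2 ≤
        ∑ k ∈ Finset.range T, ‖g (s + r * T + k + 1) - g (s + r * T + k)‖ ^ 2 :=
      Finset.sum_le_sum_of_subset_of_nonneg (Finset.range_mono hn) (fun _ _ _ => by positivity)
    have h4 : (0 : ℝ) ≤ ∑ k ∈ Finset.range n,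
        ‖g (s + r * T + k + 1) - g (s + r * T + k)‖ ^ 2 :=
      Finset.sum_nonneg (fun _ _ => by positivity)
    have hn' : (n : ℝ) ≤ T := by exact_mod_cast hn
    rw [div_le_iff₀ hT']
    simp only [← add_assoc]
    calc ζ ^ 2 ≤ n * ∑ k ∈ Finset.range n, ‖g (s + r * T + k + 1) - g (s + r * T + k)‖ ^ 2 :=
          h2.trans h1
      _ ≤ T * ∑ k ∈ Finset.range T, ‖g (s + r * T + k + 1) - g (s + r * T + k)‖ ^ 2 :=
          mul_le_mul hn' h3 h4 hT'.le
      _ = _ := mul_comm _ _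
  have hsum := sum_blocks (fun k => ‖g (s + k + 1) - g (s + k)‖ ^ 2) T R _ hblock
  have hpar : ∀ k ∈ Finset.range N, ‖m (s + k + 1) - m (s + k)‖ ^ 2 ≤
      A - ‖g (s + k + 1) - g (s + k)‖ ^ 2 / 4 := by
    intro k hk
    have hk := Finset.mem_range.1 hk
    have e1 := hf.cell _ _ (h0 k hk)
    have e2 := hf.cell _ _ (hc k hk)
    set x := f (s + k + 1) 0 - f (s + k) 0
    set y := f (s + k + 1) p - f (s + k) p
    have e3 : m (s + k + 1) - m (s + k) = (1 / 2 : ℝ) • (y + x) := by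
      simp only [hm, x, y]; rw [← smul_sub]; congr 1; abel
    have e4 : g (s + k + 1) - g (s + k) = y - x := by
      simp only [hg, x, y]; abel
    rw [e3, e4, norm_smul, mul_pow]
    have := parallelogram_law_with_norm ℝ y x
    norm_num
    nlinarith
  have hY1 := chord_cs m s N
  have hY2 := Finset.sum_le_sum hpar
  rw [Finset.sum_sub_distrib, ← Finset.sum_div] at hY2
  simp only [Finset.sum_const, Finset.card_range, nsmul_eq_mul] at hY2
  have hN' : (1 : ℝ) ≤ N := by exact_mod_cast hN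
  set Y := ‖m (s + N) - m s‖ with hY
  have hY3 : Y ^ 2 ≤ N * (N * A - R * (ζ ^ 2 / T) / 4) :=
    hY1.trans (mul_le_mul_of_nonneg_left (by linarith) (by linarith))
  have hpos : 0 ≤ R * (ζ ^ 2 / T) / 4 := by positivity
  have hY4 : Y ≤ N * L := by
    have : Y ^ 2 ≤ (N * L) ^ 2 := by
      refine hY3.trans ?_
      have : N * A ≤ N * L ^ 2 := mul_le_mul_of_nonneg_left hA (by linarith)
      nlinarith
    exact (pow_le_pow_iff_left₀ (norm_nonneg _) (by positivity) two_ne_zero).1 this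
  have hg1 : ‖g s‖ ≤ L * D := by
    have := (hf.bl s p 0 (Or.inl (by simpa using hc 0 hN)) (Or.inl (by simpa using h0 0 hN))).2
    rw [sub_zero] at this
    exact this.trans (mul_le_mul_of_nonneg_left hp (by linarith))
  have hg2 : ‖g (s + N)‖ ≤ L * D := by
    have e : s + N = s + (N - 1) + 1 := by omega
    have := (hf.bl (s + N) p 0 (Or.inr ⟨_, e, hc _ (by omega)⟩)
      (Or.inr ⟨_, e, h0 _ (by omega)⟩)).2
    rw [sub_zero] at this
    exact this.trans (mul_le_mul_of_nonneg_left hp (by linarith))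
  have hX : ‖f (s + N) 0 - f s 0‖ ≤ Y + L * D := by
    have e : f (s + N) 0 - f s 0 = (m (s + N) - m s) - (1 / 2 : ℝ) • (g (s + N) - g s) := by
      simp only [hm, hg]; module
    rw [e]
    refine (norm_sub_le _ _).trans ?_
    rw [norm_smul]
    have := norm_sub_le (g (s + N)) (g s)
    norm_num
    linarith
  have hX2 := pow_le_pow_left₀ (norm_nonneg _) hX 2
  refine hX2.trans ?_
  have hR2 : 1 + 2 * L ^ 2 * D + L ^ 2 * D ^ 2 ≤ R * (ζ ^ 2 / T) / 4 := by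
    rw [div_le_iff₀ (by positivity)] at hR
    rw [le_div_iff₀ (by norm_num), ← mul_div_assoc, le_div_iff₀ hT']
    linarith
  have hLD : 0 ≤ L * D := by positivity
  have e1 : 2 * Y * (L * D) ≤ N * (2 * L ^ 2 * D) := by nlinarith
  have e2 : (L * D) ^ 2 ≤ N * (L ^ 2 * D ^ 2) := by
    have : 0 ≤ L ^ 2 * D ^ 2 := by positivity
    nlinarith
  have e3 : N * (1 + 2 * L ^ 2 * D + L ^ 2 * D ^ 2) ≤ N * (R * (ζ ^ 2 / T) / 4) :=
    mul_le_mul_of_nonneg_left hR2 (by linarith)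
  nlinarith

end Crest.Agent.R254
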