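import Crest.Agent.R254.Layout

set_option autoImplicit false
set_option linter.unusedSectionVars false

namespace Crest.Agent.R254

variable {H E : Type*} [NormedAddCommGroup H] [NormedAddCommGroup E] [InnerProductSpace ℝ E]
  [DecidableEq H] {good : Finset H → Prop}

lemma pres_of_range {c : ℕ → H → Prop} {b : H} {n₀ T n : ℕ} (hT : 0 < T)
    (h : ∀ k < T, c (n₀ + k) b) (hn : n ≤ T) : Pres c (n₀ + n) b := by
  rcases hn.lt_or_eq with hn | rfl
  · exact Or.inl (h n hn)
  · exact Or.inr ⟨n₀ + (n - 1), by omega, h _ (by omega)⟩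

theorem layout {L : ℝ} (hL : 1 ≤ L) {B : Finset H} {Φ : Set (H → E)}
    (h : Win good (1 / 2) (2 * L) B Φ) : good B →
    ∃ U : Finset H, B ⊆ U ∧ ∀ (ε D : ℝ) (M : ℕ), 0 < ε →
      (∀ p ∈ U, ∀ q ∈ U, p ≠ q → ε ≤ ‖p - q‖) → (∀ p ∈ U, ‖p‖ ≤ D) →
      ∃ S T, M + 1 ≤ T ∧ Geo good B U M S T ∧ Energy L (ε / 4) B Φ S T := by
  induction h with
  | done B Φ h =>
    intro hB
    refine ⟨B, subset_rfl, fun ε D M hε hsep hD => ⟨∅, M + 1, le_rfl,
      ⟨by simp, by simp, fun _ => ⟨B, hB, subset_rfl, by simp⟩⟩, ?_⟩⟩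
    intro c f A n₀ hA hf h0 hc hS F₀ hF₀ happ
    exfalso
    apply h F₀ hF₀
    intro p hp q hq
    by_cases hpq : p = q
    · subst hpq; simp
    have e1 := happ p hp 0 (by omega)
    have e2 := happ q hq 0 (by omega)
    have e3 := hf.bl (n₀ + 0) p q (Or.inl (hc 0 (by omega) p hp)) (Or.inl (hc 0 (by omega) q hq))
    have e4 := hsep p hp q hq hpq
    set u := f (n₀ + 0) p - f (n₀ + 0) 0 - F₀ p
    set v := f (n₀ + 0) q - f (n₀ + 0) 0 - F₀ q
    have e5 : F₀ p - F₀ q = (f (n₀ + 0) p - f (n₀ + 0) q) - (u - v) := by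
      simp only [u, v]; abel
    have e6 : ‖u - v‖ ≤ ε / 2 := (norm_sub_le _ _).trans (by linarith)
    rw [e5]
    constructor
    · have := norm_sub_norm_le (f (n₀ + 0) p - f (n₀ + 0) q) (u - v)
      linarith [e3.1]
    · have := norm_sub_le (f (n₀ + 0) p - f (n₀ + 0) q) (u - v)
      nlinarith [e3.2, norm_nonneg (p - q)]
  | step B Φ p hp hg h ih =>
    intro hB
    obtain ⟨U, hBU, hU⟩ := ih hg
    refine ⟨U, (Finset.subset_insert _ _).trans hBU, fun ε D M hε hsep hD => ?_⟩
    obtain ⟨S', T', hT', hgeo, hen⟩ := hU ε D M hε hsep hD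
    have hpU : p ∈ U := hBU (Finset.mem_insert_self _ _)
    obtain ⟨R, hR⟩ := exists_nat_ge
      ((1 + 2 * L ^ 2 * D + L ^ 2 * D ^ 2) * (4 * T') / (ε / 4) ^ 2)
    have hD0 : 0 ≤ D := (norm_nonneg _).trans (hD p hpU)
    have hR0 : 0 < R := by
      have h1 : (0 : ℝ) < T' := by exact_mod_cast (by omega : 0 < T')
      have : (0 : ℝ) < (1 + 2 * L ^ 2 * D + L ^ 2 * D ^ 2) * (4 * T') / (ε / 4) ^ 2 := by
        positivity
      exact_mod_cast this.trans_le hR
    have hRT : T' ≤ R * T' := Nat.le_mul_of_pos_left _ hR0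
    obtain ⟨SR, hSR, hmem⟩ := hgeo.rep hg R
    refine ⟨(Finset.range (R * T')).image (fun k => (M + k, p)) ∪ shiftS M SR, R * T' + 2 * M,
      by omega, ⟨?_, ?_, ?_⟩, ?_⟩
    · intro x hx
      rcases Finset.mem_union.1 hx with hx | hx
      · obtain ⟨k, hk, rfl⟩ := Finset.mem_image.1 hx
        have := Finset.mem_range.1 hk
        simp only; omega
      · obtain ⟨y, hy, rfl⟩ := Finset.mem_image.1 hx
        have := hSR.marg y hy
        simp only; omega
    · intro x hx
      rcases Finset.mem_union.1 hx with hx | hx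
      · obtain ⟨k, hk, rfl⟩ := Finset.mem_image.1 hx
        exact hpU
      · obtain ⟨y, hy, rfl⟩ := Finset.mem_image.1 hx
        exact hSR.lab y hy
    · intro n₀
      obtain ⟨G, hG, hBG, hx⟩ := hSR.win (n₀ - M)
      refine ⟨G, hG, (Finset.subset_insert _ _).trans hBG, ?_⟩
      intro x hx' e1 e2
      rcases Finset.mem_union.1 hx' with hx' | hx'
      · obtain ⟨k, hk, rfl⟩ := Finset.mem_image.1 hx'
        exact hBG (Finset.mem_insert_self _ _)
      · obtain ⟨y, hy, rfl⟩ := Finset.mem_image.1 hx'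
        have := hSR.marg y hy
        simp only at e1 e2
        exact hx y hy (by omega) (by omega)
    · intro c f A n₀ hA hf h0 hc hS F₀ hF₀ happ
      have hcp : ∀ k < R * T', c (n₀ + M + k) p := by
        intro k hk
        have := hS (M + k, p) (Finset.mem_union_left _
          (Finset.mem_image.2 ⟨k, Finset.mem_range.2 hk, rfl⟩))
        simpa only [add_assoc] using this
      have hcell : ∀ k < R * T' + 2 * M, ‖f (n₀ + k + 1) 0 - f (n₀ + k) 0‖ ^ 2 ≤ A :=
        fun k hk => hf.cell _ _ (h0 k hk)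
      by_cases hosc : ∀ r < R, ∃ n ≤ T', ε / 4 < ‖f (n₀ + M + r * T' + n) p -
          f (n₀ + M + r * T' + n) 0 - (f (n₀ + M + r * T') p - f (n₀ + M + r * T') 0)‖
      · obtain ⟨h1, h2⟩ := unstable hL hA hf p (hD p hpU) (by positivity) (n₀ + M) R T'
          (by omega) hR (fun k hk => by rw [add_assoc]; exact h0 _ (by omega)) hcp hosc
        exact chord_ext (fun n => f n 0) n₀ M (R * T') _ A 1 h1 (by omega) hcell h2
      · push Not at hosc
        obtain ⟨r, hr, hst⟩ := hosc
        have hrT : r * T' + T' ≤ R * T' := by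
          rw [← Nat.succ_mul]; exact Nat.mul_le_mul_right _ hr
        have key := hen c f A (n₀ + M + r * T') hA hf
          (fun k hk => by
            have := h0 (M + r * T' + k) (by omega)
            simpa only [add_assoc] using this)
          (fun k hk b hb => by
            rcases Finset.mem_insert.1 hb with rfl | hb
            · have := hcp (r * T' + k) (by omega)
              simpa only [add_assoc] using this
            · have := hc (M + r * T' + k) (by omega) b hb
              simpa only [add_assoc] using this)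
          (fun x hx => by
            have := hS (M + (r * T' + x.1), x.2) (Finset.mem_union_right _
              (Finset.mem_image.2 ⟨_, hmem r hr x hx, rfl⟩))
            simpa only [add_assoc] using this)
          (Function.update F₀ p (f (n₀ + M + r * T') p - f (n₀ + M + r * T') 0))
          ⟨F₀, hF₀, fun x hx => by
            rw [Function.update_of_ne]; rintro rfl; exact hp hx⟩
          (fun b hb n hn => by
            rcases Finset.mem_insert.1 hb with rfl | hb'
            · rw [Function.update_self]; exact hst n hn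
            · have hne : b ≠ p := fun e => hp (e ▸ hb')
              rw [Function.update_of_ne hne]
              have := happ b hb' (M + r * T' + n) (by omega)
              simpa only [add_assoc] using this)
        refine chord_ext (fun n => f n 0) n₀ (M + r * T') T' _ A 1 (by omega) (by omega) hcell ?_
        simpa only [add_assoc] using key
  | split B Φ Φ₁ Φ₂ hc h₁ h₂ ih₁ ih₂ =>
    intro hB
    obtain ⟨U₁, hBU₁, hU₁⟩ := ih₁ hB
    obtain ⟨U₂, hBU₂, hU₂⟩ := ih₂ hB
    refine ⟨U₁ ∪ U₂, hBU₁.trans Finset.subset_union_left, fun ε D M hε hsep hD => ?_⟩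
    obtain ⟨S₁, T₁, hT₁, hgeo₁, hen₁⟩ := hU₁ ε D M hε
      (fun p hp q hq => hsep p (Finset.mem_union_left _ hp) q (Finset.mem_union_left _ hq))
      (fun p hp => hD p (Finset.mem_union_left _ hp))
    obtain ⟨S₂, T₂, hT₂, hgeo₂, hen₂⟩ := hU₂ ε D M hε
      (fun p hp q hq => hsep p (Finset.mem_union_right _ hp) q (Finset.mem_union_right _ hq))
      (fun p hp => hD p (Finset.mem_union_right _ hp))
    refine ⟨S₁ ∪ shiftS T₁ S₂, T₁ + T₂, by omega,
      (hgeo₁.monoU Finset.subset_union_left).cat (hgeo₂.monoU Finset.subset_union_right), ?_⟩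
    intro c f A n₀ hA hf h0 hcB hS F₀ hF₀ happ
    have hcell : ∀ k < T₁ + T₂, ‖f (n₀ + k + 1) 0 - f (n₀ + k) 0‖ ^ 2 ≤ A :=
      fun k hk => hf.cell _ _ (h0 k hk)
    rcases hc hF₀ with hF | hF
    · have key := hen₁ c f A n₀ hA hf (fun k hk => h0 k (by omega))
        (fun k hk b hb => hcB k (by omega) b hb)
        (fun x hx => hS x (Finset.mem_union_left _ hx)) F₀ hF
        (fun b hb n hn => happ b hb n (by omega))
      exact chord_ext (fun n => f n 0) n₀ 0 T₁ _ A 1 (by omega) (by omega) hcell key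
    · have key := hen₂ c f A (n₀ + T₁) hA hf
        (fun k hk => by rw [add_assoc]; exact h0 _ (by omega))
        (fun k hk b hb => by rw [add_assoc]; exact hcB _ (by omega) b hb)
        (fun x hx => by
          rw [add_assoc]
          exact hS (T₁ + x.1, x.2) (Finset.mem_union_right _ (Finset.mem_image.2 ⟨x, hx, rfl⟩)))
        F₀ hF (fun b hb n hn => by rw [add_assoc]; exact happ b hb _ (by omega))
      exact chord_ext (fun n => f n 0) n₀ T₁ T₂ _ A 1 (by omega) (by omega) hcell key

end Crest.Agent.R254
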