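import Crest.Prelude.Def_Doubling

set_option autoImplicit false

namespace Crest.Agent.R254

open Crest.GeometryTopology

/-- Packing property: every `r`-separated finite subset of diameter at most `C r` has at most
`Λ` points. -/
def Pack {X : Type*} [PseudoMetricSpace X] (K : Set X) (C : ℝ) (Λ : ℕ) : Prop :=
  ∀ r : ℝ, 0 < r → ∀ Z : Finset X, (↑Z : Set X) ⊆ K →
    (∀ z ∈ Z, ∀ z' ∈ Z, z ≠ z' → r ≤ dist z z' ∧ dist z z' ≤ C * r) → Z.card ≤ Λ

lemma Pack.mono {X : Type*} [PseudoMetricSpace X] {K K' : Set X} {C : ℝ} {Λ : ℕ}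
    (h : Pack K C Λ) (hK : K' ⊆ K) : Pack K' C Λ :=
  fun r hr Z hZ hs => h r hr Z (hZ.trans hK) hs

lemma Pack.mono_card {X : Type*} [PseudoMetricSpace X] {K : Set X} {C : ℝ} {Λ Λ' : ℕ}
    (h : Pack K C Λ) (hΛ : Λ ≤ Λ') : Pack K C Λ' :=
  fun r hr Z hZ hs => (h r hr Z hZ hs).trans hΛ

lemma pack_empty {X : Type*} [PseudoMetricSpace X] (C : ℝ) (Λ : ℕ) :
    Pack (∅ : Set X) C Λ := by
  intro r hr Z hZ hs
  have : Z = ∅ := by
    apply Finset.eq_empty_of_forall_notMem
    intro x hx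
    exact hZ hx
  simp [this]

/-- Reduction to thin slabs of a `1`-Lipschitz function. -/
lemma pack_of_slab {X : Type*} [PseudoMetricSpace X] {K : Set X} (C : ℕ) {Λ : ℕ} (t : X → ℝ)
    (ht : ∀ x y, |t x - t y| ≤ dist x y)
    (h : ∀ r : ℝ, 0 < r → ∀ Z : Finset X, (↑Z : Set X) ⊆ K →
      (∀ z ∈ Z, ∀ z' ∈ Z, z ≠ z' → r ≤ dist z z' ∧ dist z z' ≤ C * r) →
      (∀ z ∈ Z, ∀ z' ∈ Z, |t z - t z'| ≤ r / 4) → Z.card ≤ Λ) :
    Pack K C (Λ * (8 * C + 1)) := by
  classical
  intro r hr Z hZ hs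
  rcases Z.eq_empty_or_nonempty with rfl | ⟨z₀, hz₀⟩
  · simp
  set i : X → ℤ := fun z => ⌊4 * (t z - t z₀) / r⌋ with hi
  have hmap : ∀ z ∈ Z, i z ∈ Finset.Icc (-(4 * C : ℤ)) (4 * C) := by
    intro z hz
    have hd : |t z - t z₀| ≤ C * r := by
      by_cases hzz : z = z₀
      · subst hzz; simp; positivity
      · exact (ht _ _).trans (hs z hz z₀ hz₀ hzz).2
    rw [abs_le] at hd
    rw [Finset.mem_Icc]
    constructor
    · rw [hi]; simp only
      rw [Int.le_floor, le_div_iff₀ hr]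
      push_cast
      nlinarith [hd.1]
    · rw [hi]; simp only
      have : 4 * (t z - t z₀) / r ≤ ((4 * C : ℤ) : ℝ) := by
        rw [div_le_iff₀ hr]; push_cast; nlinarith [hd.2]
      have h2 := Int.floor_le_floor this
      rwa [Int.floor_intCast] at h2
  have := Finset.card_le_mul_card_image_of_maps_to hmap Λ (by
    intro b _
    apply h r hr
    · intro z hz
      exact hZ (Finset.mem_filter.1 hz).1
    · intro z hz z' hz'
      exact hs z (Finset.mem_filter.1 hz).1 z' (Finset.mem_filter.1 hz').1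
    · intro z hz z' hz'
      have e1 := (Finset.mem_filter.1 hz).2
      have e2 := (Finset.mem_filter.1 hz').2
      have h1 := Int.floor_le (4 * (t z - t z₀) / r)
      have h2 := Int.lt_floor_add_one (4 * (t z - t z₀) / r)
      have h3 := Int.floor_le (4 * (t z' - t z₀) / r)
      have h4 := Int.lt_floor_add_one (4 * (t z' - t z₀) / r)
      simp only [hi] at e1 e2
      rw [e1] at h1 h2
      rw [e2] at h3 h4
      rw [le_div_iff₀ hr] at h1 h3
      rw [div_lt_iff₀ hr] at h2 h4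
      rw [abs_le]
      constructor <;> nlinarith)
  have hc : (Finset.Icc (-(4 * C : ℤ)) (4 * C)).card = 8 * C + 1 := by
    rw [Int.card_Icc]; omega
  rwa [hc] at this

/-- Packing gives doubling. -/
lemma doubling_of_pack {X : Type*} [PseudoMetricSpace X] {K : Set X} {Λ : ℕ}
    (h : Pack K 4 Λ) : DoublingConstLE K Λ := by
  classical
  intro x hx r hr
  let P : ℕ → Prop := fun n => ∃ Z : Finset X, (↑Z : Set X) ⊆ K ∩ Metric.closedBall x (2 * r) ∧
    (∀ z ∈ Z, ∀ z' ∈ Z, z ≠ z' → r < dist z z') ∧ Z.card = n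
  have hP0 : P 0 := ⟨∅, by simp, by simp, by simp⟩
  have hbd : ∀ n, P n → n ≤ Λ := by
    rintro n ⟨Z, hZ, hs, rfl⟩
    apply h r hr Z (fun z hz => (hZ hz).1)
    intro z hz z' hz' hne
    refine ⟨(hs z hz z' hz' hne).le, ?_⟩
    have h1 := (hZ hz).2
    have h2 := (hZ hz').2
    rw [Metric.mem_closedBall] at h1 h2
    have := dist_triangle_right z z' x
    linarith
  have hspec : P (Nat.findGreatest P Λ) := Nat.findGreatest_spec (Nat.zero_le Λ) hP0
  obtain ⟨Z, hZ, hs, hc⟩ := hspec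
  refine ⟨Z, fun z hz => (hZ hz).1, hc ▸ Nat.findGreatest_le Λ, ?_⟩
  intro y hy
  by_contra hcon
  simp only [Set.mem_iUnion, not_exists, Metric.mem_closedBall, not_le] at hcon
  have hyZ : y ∉ Z := by
    intro hyZ
    have := hcon y hyZ
    simp at this
    linarith
  have hP : P (Z.card + 1) := by
    refine ⟨insert y Z, ?_, ?_, Finset.card_insert_of_notMem hyZ⟩
    · intro z hz
      rcases Finset.mem_insert.1 hz with rfl | hz
      · exact hy
      · exact hZ hz
    · intro z hz z' hz' hne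
      rcases Finset.mem_insert.1 hz with rfl | hz1
      · rcases Finset.mem_insert.1 hz' with rfl | hz2
        · exact absurd rfl hne
        · exact hcon z' hz2
      · rcases Finset.mem_insert.1 hz' with rfl | hz2
        · rw [dist_comm]; exact hcon z hz1
        · exact hs z hz1 z' hz2 hne
  have h1 := Nat.le_findGreatest (hbd _ hP) hP
  omega

/-- Transfer of packing along a bi-Lipschitz map. -/
lemma Pack.image {X Y : Type*} [PseudoMetricSpace X] [PseudoMetricSpace Y] {K : Set X}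
    {C C' a b : ℝ} {Λ : ℕ} (h : Pack K C Λ) (T : X → Y) (ha : 0 < a) (hb : 0 < b)
    (hC : C' * b ≤ C * a)
    (hT : ∀ p ∈ K, ∀ q ∈ K, a * dist p q ≤ dist (T p) (T q) ∧ dist (T p) (T q) ≤ b * dist p q) :
    Pack (T '' K) C' Λ := by
  classical
  intro r hr Z hZ hs
  obtain ⟨Z', hZ', hinj, rfl⟩ : ∃ Z' : Finset X, (↑Z' : Set X) ⊆ K ∧ Set.InjOn T Z' ∧
      Z = Z'.image T := by
    choose g hg using fun z (hz : z ∈ Z) => hZ hz
    refine ⟨Z.attach.image (fun z => g z.1 z.2), ?_, ?_, ?_⟩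
    · intro x hx
      simp only [Finset.coe_image, Set.mem_image] at hx
      obtain ⟨z, -, rfl⟩ := hx
      exact (hg z.1 z.2).1
    · intro x hx y hy hxy
      simp only [Finset.coe_image, Set.mem_image] at hx hy
      obtain ⟨z, -, rfl⟩ := hx
      obtain ⟨z', -, rfl⟩ := hy
      rw [(hg z.1 z.2).2, (hg z'.1 z'.2).2] at hxy
      have : z = z' := Subtype.ext hxy
      rw [this]
    · ext z
      simp only [Finset.mem_image, Finset.mem_attach, true_and]
      constructor
      · intro hz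
        exact ⟨_, ⟨⟨z, hz⟩, rfl⟩, (hg z hz).2⟩
      · rintro ⟨x, ⟨z', rfl⟩, rfl⟩
        rw [(hg z'.1 z'.2).2]; exact z'.2
  rw [Finset.card_image_of_injOn hinj]
  apply h (r / b) (by positivity) Z' hZ'
  intro z hz z' hz' hne
  have h1 := hs (T z) (Finset.mem_image_of_mem T hz) (T z') (Finset.mem_image_of_mem T hz')
    (fun e => hne (hinj hz hz' e))
  have h2 := hT z (hZ' hz) z' (hZ' hz')
  constructor
  · rw [div_le_iff₀ hb]; nlinarith [h1.1, h2.2]
  · have h3 : a * dist z z' ≤ C' * r := h2.1.trans h1.2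
    have h4 : C' * r ≤ C * a * (r / b) := by
      have : C' * r = C' * b * (r / b) := by field_simp
      rw [this]
      exact mul_le_mul_of_nonneg_right hC (by positivity)
    have h5 : a * dist z z' ≤ a * (C * (r / b)) := by nlinarith
    exact le_of_mul_le_mul_left h5 ha

end Crest.Agent.R254
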