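import Crest.Agent.R254.Tri

set_option autoImplicit false
set_option linter.unusedSectionVars false

namespace Crest.Agent.R254

open scoped RealInnerProductSpace
open Filter Topology

/-- pigeonhole property of `E` -/
def PH (E : Type*) [NormedAddCommGroup E] (m : ℕ) (R κ : ℝ) : Prop :=
  ∀ v : ℕ → E, (∀ l < m, ‖v l‖ ≤ R) → ∃ S ∈ (Finset.range m).powerset,
    ∃ S' ∈ (Finset.range m).powerset, S ≠ S' ∧ ‖∑ l ∈ S, v l - ∑ l ∈ S', v l‖ ≤ κ

lemma ph_of_card (d m A : ℕ) (R κ : ℝ) (hκ : 0 < κ) (hR : 0 ≤ R)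
    (hA : m * R * (d + 1) ≤ A * κ) (hc : (2 * A + 1) ^ d < 2 ^ m) :
    PH (EuclideanSpace ℝ (Fin d)) m R κ := by
  classical
  intro v hv
  set h : ℝ := κ / (d + 1) with hh
  have hh0 : 0 < h := by positivity
  have hAh : m * R ≤ A * h := by
    rw [hh, ← mul_div_assoc, le_div_iff₀ (by positivity)]; exact hA
  obtain ⟨S, hS, S', hS', hne, heq⟩ := Finset.exists_ne_map_eq_of_card_lt_of_maps_to
    (s := (Finset.range m).powerset)
    (t := Fintype.piFinset (fun _ : Fin d => Finset.Icc (-(A : ℤ)) A))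
    (f := fun S => fun i : Fin d => ⌊(∑ l ∈ S, v l) i / h⌋)
    (by
      rw [Finset.card_powerset, Finset.card_range, Fintype.card_piFinset]
      simp only [Int.card_Icc, Finset.prod_const, Finset.card_univ, Fintype.card_fin]
      have : ((A : ℤ) + 1 - -(A : ℤ)).toNat = 2 * A + 1 := by omega
      rw [this]; exact hc)
    (by
      intro S hS
      have hS' := Finset.mem_powerset.1 hS
      have h1 : ‖∑ l ∈ S, v l‖ ≤ m * R := by
        refine (norm_sum_le _ _).trans ?_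
        have := Finset.sum_le_card_nsmul S (fun l => ‖v l‖) R
          (fun l hl => hv l (Finset.mem_range.1 (hS' hl)))
        refine this.trans ?_
        have h2 := Finset.card_le_card hS'
        rw [Finset.card_range] at h2
        rw [nsmul_eq_mul]
        exact mul_le_mul_of_nonneg_right (by exact_mod_cast h2) hR
      simp only [Finset.mem_coe, Fintype.mem_piFinset, Finset.mem_Icc]
      intro i
      have h3 := (PiLp.norm_apply_le (∑ l ∈ S, v l) i).trans (h1.trans hAh)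
      rw [Real.norm_eq_abs, abs_le] at h3
      constructor
      · rw [Int.le_floor, le_div_iff₀ hh0]; push_cast; linarith [h3.1]
      · have : (∑ l ∈ S, v l) i / h ≤ ((A : ℤ) : ℝ) := by
          rw [div_le_iff₀ hh0]; push_cast; linarith [h3.2]
        have h2 := Int.floor_le_floor this
        rwa [Int.floor_intCast] at h2)
  refine ⟨S, hS, S', hS', hne, ?_⟩
  set x := ∑ l ∈ S, v l
  set y := ∑ l ∈ S', v l
  have hi : ∀ i, |(x - y) i| ≤ h := by
    intro i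
    have e := congrFun heq i
    simp only at e
    have h1 := Int.floor_le (x i / h)
    have h2 := Int.lt_floor_add_one (x i / h)
    have h3 := Int.floor_le (y i / h)
    have h4 := Int.lt_floor_add_one (y i / h)
    rw [e] at h1 h2
    rw [le_div_iff₀ hh0] at h1 h3
    rw [div_lt_iff₀ hh0] at h2 h4
    rw [PiLp.sub_apply, abs_le]
    constructor <;> nlinarith
  have h2 : ‖x - y‖ ^ 2 ≤ κ ^ 2 := by
    rw [EuclideanSpace.norm_sq_eq]
    have : ∑ i, ‖(x - y) i‖ ^ 2 ≤ ∑ _i : Fin d, h ^ 2 :=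
      Finset.sum_le_sum (fun i _ => pow_le_pow_left₀ (norm_nonneg _) (hi i) 2)
    refine this.trans ?_
    simp only [Finset.sum_const, Finset.card_univ, Fintype.card_fin, nsmul_eq_mul]
    have e : κ = h * (d + 1) := by rw [hh]; field_simp
    rw [e]
    have : (0 : ℝ) ≤ d := Nat.cast_nonneg _
    nlinarith [sq_nonneg h, mul_nonneg (sq_nonneg h) this, mul_nonneg (sq_nonneg h) (sq_nonneg (d:ℝ))]
  exact (pow_le_pow_iff_left₀ (norm_nonneg _) hκ.le two_ne_zero).1 h2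

lemma exists_ph (d : ℕ) (R θ : ℝ) (hR : 0 ≤ R) (hθ : 0 < θ) :
    ∃ (m : ℕ) (δ κ : ℝ), 0 < δ ∧ 0 < κ ∧ δ ≤ θ ∧ 4 * m * δ ^ 2 ≤ θ ^ 2 ∧
      (m + 1) * κ < 1 / 2 * δ ∧ PH (EuclideanSpace ℝ (Fin d)) m R κ := by
  obtain ⟨K, hK⟩ := exists_nat_ge (12 * R * (d + 1) / θ)
  have h1 := tendsto_pow_const_div_const_pow_of_one_lt (3 * d) (r := (2 : ℝ)) (by norm_num)
  have h2 : (0 : ℝ) < 1 / ((2 * K + 1) ^ d) := by positivity
  obtain ⟨m, hm, hm1⟩ := ((h1.eventually (gt_mem_nhds h2)).and (eventually_ge_atTop 1)).exists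
  have hm' : (1 : ℝ) ≤ m := by exact_mod_cast hm1
  refine ⟨m, θ / (2 * m), θ / (4 * m * (m + 2)), by positivity, by positivity, ?_, ?_, ?_, ?_⟩
  · rw [div_le_iff₀ (by positivity)]; nlinarith
  · have : 4 * m * (θ / (2 * m)) ^ 2 = θ ^ 2 / m := by field_simp; ring
    rw [this, div_le_iff₀ (by positivity)]; nlinarith [sq_nonneg θ]
  · have e1 : ((m : ℝ) + 1) * (θ / (4 * m * (m + 2))) = θ / (4 * m) * ((m + 1) / (m + 2)) := by
      field_simp
    have e2 : 1 / 2 * (θ / (2 * m)) = θ / (4 * m) * 1 := by field_simp; ring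
    rw [e1, e2]
    apply mul_lt_mul_of_pos_left _ (by positivity)
    rw [div_lt_one (by positivity)]; linarith
  · apply ph_of_card d m (K * m ^ 3) _ _ (by positivity) hR
    · rw [div_le_iff₀ hθ] at hK
      rw [← mul_div_assoc, le_div_iff₀ (by positivity)]
      push_cast
      have a1 : (0 : ℝ) ≤ R * (d + 1) := by positivity
      have a2 : 4 * (m : ℝ) * (m + 2) ≤ 12 * m ^ 2 := by nlinarith
      calc (m : ℝ) * R * (d + 1) * (4 * m * (m + 2)) ≤ m * R * (d + 1) * (12 * m ^ 2) :=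
            mul_le_mul_of_nonneg_left a2 (by positivity)
        _ = m ^ 3 * (12 * R * (d + 1)) := by ring
        _ ≤ m ^ 3 * (K * θ) := mul_le_mul_of_nonneg_left hK (by positivity)
        _ = _ := by ring
    · rw [div_lt_div_iff₀ (by positivity) (by positivity), one_mul] at hm
      have a1 : 2 * (K * m ^ 3) + 1 ≤ m ^ 3 * (2 * K + 1) := by
        have : 1 ≤ m ^ 3 := Nat.one_le_pow _ _ hm1
        nlinarith
      have a2 := Nat.pow_le_pow_left a1 d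
      refine a2.trans_lt ?_
      rw [mul_pow, ← pow_mul]
      exact_mod_cast hm

lemma gain_three {E : Type*} [NormedAddCommGroup E] [InnerProductSpace ℝ E]
    (A₁ A₂ A₃ : E) {a ρ c ℓ κ Γ γ : ℝ} (ha : 0 < a) (hρ : 0 < ρ) (hc : 0 < c)
    (hℓ : ℓ = a + ρ + c) (hκ : 0 ≤ κ) (hdev : κ * ρ ≤ ‖A₂ - ρ • (ℓ⁻¹ • (A₁ + A₂ + A₃))‖)
    (hΓ : Γ ≤ ‖ℓ⁻¹ • (A₁ + A₂ + A₃)‖ ^ 2) (hγ : γ * ℓ ≤ κ ^ 2 * ρ) :
    Γ + γ ≤ ‖a⁻¹ • A₁‖ ^ 2 ∨ Γ + γ ≤ ‖ρ⁻¹ • A₂‖ ^ 2 ∨ Γ + γ ≤ ‖c⁻¹ • A₃‖ ^ 2 := by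
  by_contra hcon
  push Not at hcon
  obtain ⟨h1, h2, h3⟩ := hcon
  have hℓ0 : 0 < ℓ := by linarith
  set V := ℓ⁻¹ • (A₁ + A₂ + A₃) with hV
  set V₁ := a⁻¹ • A₁ with hV₁
  set V₂ := ρ⁻¹ • A₂ with hV₂
  set V₃ := c⁻¹ • A₃ with hV₃
  have e1 : A₁ = a • V₁ := by rw [hV₁, smul_smul, mul_inv_cancel₀ ha.ne', one_smul]
  have e2 : A₂ = ρ • V₂ := by rw [hV₂, smul_smul, mul_inv_cancel₀ hρ.ne', one_smul]
  have e3 : A₃ = c • V₃ := by rw [hV₃, smul_smul, mul_inv_cancel₀ hc.ne', one_smul]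
  have e4 : ℓ • V = a • V₁ + ρ • V₂ + c • V₃ := by
    rw [hV, smul_smul, mul_inv_cancel₀ hℓ0.ne', one_smul, ← e1, ← e2, ← e3]
  have e5 : ℓ * ‖V‖ ^ 2 = a * ⟪V₁, V⟫ + ρ * ⟪V₂, V⟫ + c * ⟪V₃, V⟫ := by
    have := congrArg (fun x => ⟪x, V⟫) e4
    simpa only [inner_add_left, real_inner_smul_left, real_inner_self_eq_norm_sq] using this
  have d1 := norm_sub_sq_real V₁ V
  have d2 := norm_sub_sq_real V₂ V
  have d3 := norm_sub_sq_real V₃ V
  have k1 : κ ≤ ‖V₂ - V‖ := by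
    rw [e2, ← smul_sub, norm_smul, Real.norm_of_nonneg hρ.le, mul_comm] at hdev
    exact le_of_mul_le_mul_left hdev hρ
  have k2 := pow_le_pow_left₀ hκ k1 2
  have m1 := mul_lt_mul_of_pos_left h1 ha
  have m2 := mul_lt_mul_of_pos_left h2 hρ
  have m3 := mul_lt_mul_of_pos_left h3 hc
  have m4 := mul_le_mul_of_nonneg_left hΓ hℓ0.le
  have m5 := mul_le_mul_of_nonneg_left k2 hρ.le
  have m6 := mul_nonneg ha.le (sq_nonneg ‖V₁ - V‖)
  have m7 := mul_nonneg hc.le (sq_nonneg ‖V₃ - V‖)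
  rw [d1] at m6
  rw [d2] at m5
  rw [d3] at m7
  subst hℓ
  nlinarith

lemma exists_fresh {H : Type*} [NormedAddCommGroup H] [InnerProductSpace ℝ H]
    (hH : ¬ FiniteDimensional ℝ H) (M : Submodule ℝ H) [FiniteDimensional ℝ M] :
    ∃ u : H, ‖u‖ = 1 ∧ u ∈ Mᗮ := by
  have hne : Mᗮ ≠ ⊥ := by
    intro h
    rw [Submodule.orthogonal_eq_bot_iff] at h
    apply hH
    have : FiniteDimensional ℝ (⊤ : Submodule ℝ H) := h ▸ inferInstance
    exact Module.Finite.equiv Submodule.topEquiv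
  obtain ⟨v, hv, hv0⟩ := Submodule.exists_mem_ne_zero_of_ne_bot hne
  refine ⟨‖v‖⁻¹ • v, ?_, Submodule.smul_mem _ _ hv⟩
  rw [norm_smul, norm_inv, norm_norm, inv_mul_cancel₀ (norm_ne_zero_iff.2 hv0)]

lemma exists_tau (τ₀ x y z : ℝ) (h0 : 0 < τ₀) (hx : 0 ≤ x) (hy : 0 < y) (hz : 0 < z) :
    ∃ τ : ℝ, 0 < τ ∧ τ ≤ τ₀ ∧ ∃ N : ℕ, x < N * (y * τ) ∧ N * (12 * τ) ^ 2 ≤ z ^ 2 := by
  set τ := min τ₀ (min (z / 24) (z ^ 2 * y / (288 * (x + 1)))) with hτ
  have h1 : 0 < τ := by positivity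
  have h2 : τ ≤ z / 24 := (min_le_right _ _).trans (min_le_left _ _)
  have h3 : τ ≤ z ^ 2 * y / (288 * (x + 1)) := (min_le_right _ _).trans (min_le_right _ _)
  refine ⟨τ, h1, min_le_left _ _, ⌊x / (y * τ)⌋₊ + 1, ?_, ?_⟩
  · have := Nat.lt_floor_add_one (x / (y * τ))
    rw [div_lt_iff₀ (by positivity)] at this
    push_cast; exact this
  · have h4 := Nat.floor_le (a := x / (y * τ)) (by positivity)
    push_cast
    have h5 : x / (y * τ) * (12 * τ) ^ 2 = 144 * x * τ / y := by field_simp; ring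
    have h6 : 144 * x * τ / y ≤ z ^ 2 / 2 := by
      rw [le_div_iff₀ (by positivity)] at h3
      rw [div_le_iff₀ hy]
      nlinarith
    have h7 : (12 * τ) ^ 2 ≤ z ^ 2 / 2 := by nlinarith
    have h8 := mul_le_mul_of_nonneg_right h4 (sq_nonneg (12 * τ))
    nlinarith

end Crest.Agent.R254
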