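import Crest.Agent.R254.GeoC

set_option autoImplicit false
set_option linter.unusedSectionVars false

namespace Crest.Agent.R254

open scoped RealInnerProductSpace

variable {H : Type*} [NormedAddCommGroup H] [InnerProductSpace ℝ H] [DecidableEq H]
  {E : Type*} [NormedAddCommGroup E] [InnerProductSpace ℝ E]

structure VOK (a b : ℝ) (j : ℕ) (B₀ : Finset H) (V : ℕ → (H → E) → E) : Prop where
  det : ∀ l < j, ∀ F F' : H → E, (∀ x ∈ B₀, F x = F' x) → V l F = V l F'
  bd : ∀ l < j, ∀ F, BL a b B₀ F → ‖V l F‖ ≤ 2 * b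

def Cond (κ : ℝ) (k j : ℕ) (x x₀ : H) (ρ : ℝ) (β : ℕ → ℝ) (V : ℕ → (H → E) → E) :
    Set (H → E) :=
  {F | ‖F x - F x₀ + ρ • ∑ l ∈ Finset.range j, β l • V l F‖ ≤ (k + 1) * κ * ρ}

def En (Γ : ℝ) (P w' : H) (ℓ : ℝ) : Set (H → E) :=
  {F | Γ ≤ ‖ℓ⁻¹ • (F (P + ℓ • w') - F P)‖ ^ 2}

noncomputable def epsk (ε₀ δ : ℝ) (k : ℕ) : ℝ := ε₀ * (1 + 13 / δ) ^ k

lemma epsk_mono {ε₀ δ : ℝ} (h0 : 0 < ε₀) (hδ : 0 < δ) {k m : ℕ} (h : k ≤ m) :
    epsk ε₀ δ k ≤ epsk ε₀ δ m :=
  mul_le_mul_of_nonneg_left (pow_le_pow_right₀ (by have : 0 < 13 / δ := by positivity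
                                                   linarith) h) h0.le

lemma det_Cond {a b κ : ℝ} {k j : ℕ} {x x₀ : H} {ρ : ℝ} {β : ℕ → ℝ} {V : ℕ → (H → E) → E}
    {B₀ B : Finset H} (hV : VOK a b j B₀ V) (hB : B₀ ⊆ B) (hx : x ∈ B) (hx₀ : x₀ ∈ B) :
    Det B (Cond κ k j x x₀ ρ β V) := by
  intro F F' h hF
  have e : ∑ l ∈ Finset.range j, β l • V l F' = ∑ l ∈ Finset.range j, β l • V l F :=
    Finset.sum_congr rfl (fun l hl => by
      rw [hV.det l (Finset.mem_range.1 hl) F F' (fun y hy => h y (hB hy))])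
  simp only [Cond, Set.mem_ofPred_eq] at hF ⊢
  rw [e, ← h x hx, ← h x₀ hx₀]; exact hF

lemma det_En {Γ : ℝ} {P w' : H} {ℓ : ℝ} {B : Finset H} (hP : P ∈ B) (hQ : P + ℓ • w' ∈ B) :
    Det B (En (E := E) Γ P w' ℓ) := by
  intro F F' h hF
  simp only [En, Set.mem_ofPred_eq] at hF ⊢
  rw [← h _ hP, ← h _ hQ]; exact hF

lemma slope_bd {a b : ℝ} (hb : 0 ≤ b) {P w' : H} {ℓ : ℝ} (hℓ : 0 < ℓ) (hw : ‖w'‖ ≤ 2)
    {B : Finset H} (hP : P ∈ B) (hQ : P + ℓ • w' ∈ B) {F : H → E} (hF : BL a b B F) :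
    ‖ℓ⁻¹ • (F (P + ℓ • w') - F P)‖ ≤ 2 * b := by
  have h := (hF _ hQ _ hP).2
  rw [add_sub_cancel_left, norm_smul, Real.norm_of_nonneg hℓ.le] at h
  rw [norm_smul, norm_inv, Real.norm_of_nonneg hℓ.le, inv_mul_le_iff₀ hℓ]
  have := mul_le_mul_of_nonneg_left hw (mul_nonneg hb hℓ.le)
  linarith

theorem run (hH : ¬ FiniteDimensional ℝ H) {e : H} {δ θ : ℝ} (hp : Prm e δ θ)
    {good : Finset H → Prop} (hgood : ∀ B Pi, DS e (8 * θ) B Pi → good B) {a b κ ε₀ : ℝ}
    {m : ℕ} (hb : 0 ≤ b) (hκ : 0 < κ) (hε₀ : 0 < ε₀) (hεm : epsk ε₀ δ m ≤ 4 * θ)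
    (hPH : PH E m (2 * b) κ) (k : ℕ) : k ≤ m → ∃ μ : ℝ, 0 < μ ∧ μ ≤ 1 ∧ ∀ j, j + k = m →
      ∀ (c w : H) (s : ℝ) (M W : Submodule ℝ H) (B₀ : Finset H) (Pi₀ : Set (H × H))
        (V : ℕ → (H → E) → E) (Φ : Set (H → E)), Ctx e δ θ k c w s M W B₀ Pi₀ →
        VOK a b j B₀ V → Det B₀ Φ →
        (∀ B Pi x x₀ ρ β u, Ret e δ θ (epsk ε₀ δ k) μ j c w s M W B₀ Pi₀ B Pi x x₀ ρ β u →
          Win good a b B (Φ ∩ Cond κ k j x x₀ ρ β V)) → Win good a b B₀ Φ := by
  classical
  induction k with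
  | zero =>
    intro _
    refine ⟨1 / (2 * m + 2), by positivity, ?_, ?_⟩
    · rw [div_le_one (by positivity)]
      have : (0 : ℝ) ≤ m := Nat.cast_nonneg _
      linarith
    intro j hj c w s M W B₀ Pi₀ V Φ hc hV hΦ cont
    obtain rfl : j = m := by omega
    have := hc.fin
    obtain ⟨u, hu, huM⟩ := exists_fresh hH M
    have hs := hc.s0
    refine Win.add c hΦ (hgood _ _ hc.ds_c) ?_
    let βf : Finset ℕ × Finset ℕ → ℕ → ℝ := fun S l =>
      (if l ∈ S.1 then 1 else 0) - (if l ∈ S.2 then 1 else 0)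
    refine Win.finite_split
      (((Finset.range j).powerset ×ˢ (Finset.range j).powerset).filter (fun S => S.1 ≠ S.2))
      (fun S => Φ ∩ Cond κ 0 j c c (s / (2 * j + 2)) (βf S) V) ?_ ?_
    · intro S hS
      obtain ⟨h1, h2⟩ := Finset.mem_filter.1 hS
      obtain ⟨h3, h4⟩ := Finset.mem_product.1 h1
      refine cont _ _ _ _ _ _ u (hc.bottom hu huM (βf S) ?_ ?_)
      · intro l
        simp only [βf]
        split_ifs <;> simp
      · by_contra hcon
        push Not at hcon
        apply h2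
        ext l
        by_cases hl : l < j
        · have := hcon l hl
          simp only [βf] at this
          split_ifs at this <;> simp_all
        · constructor
          · intro h; exact absurd (Finset.mem_range.1 (Finset.mem_powerset.1 h3 h)) hl
          · intro h; exact absurd (Finset.mem_range.1 (Finset.mem_powerset.1 h4 h)) hl
    · intro F hF hBL
      obtain ⟨S, hS, S', hS', hne, hbd⟩ := hPH (fun l => V l F)
        (fun l hl => hV.bd l hl F (hBL.mono (Finset.subset_insert _ _)))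
      refine ⟨(S, S'), Finset.mem_filter.2 ⟨Finset.mem_product.2 ⟨hS, hS'⟩, hne⟩, hF, ?_⟩
      have e1 : ∑ l ∈ Finset.range j, βf (S, S') l • V l F =
          ∑ l ∈ S, V l F - ∑ l ∈ S', V l F := by
        simp only [βf, sub_smul, ite_smul, one_smul, zero_smul, Finset.sum_sub_distrib,
          Finset.sum_ite_mem, Finset.inter_eq_right.2 (Finset.mem_powerset.1 hS),
          Finset.inter_eq_right.2 (Finset.mem_powerset.1 hS')]
      simp only [Cond, Set.mem_ofPred_eq]
      rw [e1, sub_self, zero_add, norm_smul, Real.norm_of_nonneg (by positivity)]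
      have : 0 ≤ s / (2 * j + 2) := by positivity
      push_cast
      nlinarith
  | succ k ih =>
    intro hk
    obtain ⟨μ', hμ'0, hμ'1, ih⟩ := ih (by omega)
    have hθ0 := hp.θ0
    have hδ0 := hp.δ0
    obtain ⟨τ, hτ0, hττ, N, hN1, hN2⟩ := exists_tau (min (θ * δ / 96) (ε₀ / 96)) ((2 * b) ^ 2)
      (κ ^ 2 * μ') (θ * δ / 3) (by positivity) (by positivity) (by positivity) (by positivity)
    have hn : Num δ θ (epsk ε₀ δ (k + 1)) (epsk ε₀ δ k) τ := by
      refine ⟨hτ0, by linarith [hττ.trans (min_le_left _ _)], ?_, ?_,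
        (epsk_mono hε₀ hδ0 hk).trans hεm⟩
      · have h1 := epsk_mono hε₀ hδ0 (Nat.zero_le k)
        have h2 : epsk ε₀ δ 0 = ε₀ := by simp [epsk]
        linarith [hττ.trans (min_le_right _ _)]
      · simp only [epsk]; ring
    have hτ4 : τ ≤ 1 / 4 := by linarith [hn.τδ hp, hp.δθ, hp.θ1]
    set ν := μ' * τ with hν
    have hν0 : 0 < ν := by positivity
    have hν4 : ν ≤ 1 / 4 := by nlinarith
    have hνp : ∀ {i l : ℕ}, i ≤ l → ν ^ l ≤ ν ^ i := fun h =>
      pow_le_pow_of_le_one hν0.le (by linarith) h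
    refine ⟨ν ^ (N + 1) / 4, by positivity, ?_, ?_⟩
    · have := hνp (Nat.zero_le (N + 1))
      rw [pow_zero] at this
      linarith
    intro j hj c w s M W B₀ Pi₀ V Φ hc hV hΦ cont
    have := hc.fin
    obtain ⟨u, hu, huM⟩ := exists_fresh hH M
    have hs := hc.s0
    have gen : ∀ n g, g + n = N → ∀ B Pi P w' ℓ,
        Gen e δ θ (epsk ε₀ δ (k + 1)) τ g c w s M W B₀ Pi₀ u B Pi P w' ℓ →
        ν ^ g * (s / 4) ≤ ℓ → Win good a b B (Φ ∩ En (g * (κ ^ 2 * μ' * τ)) P w' ℓ) := by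
      intro n
      have hdrift : ∀ g, g ≤ N → ∀ B Pi P w' ℓ,
          Gen e δ θ (epsk ε₀ δ (k + 1)) τ g c w s M W B₀ Pi₀ u B Pi P w' ℓ →
          ‖w' - w - δ • u‖ ≤ θ * δ / 3 := by
        intro g hg B Pi P w' ℓ h
        refine (pow_le_pow_iff_left₀ (norm_nonneg _) (by positivity) two_ne_zero).1
          (h.drift.trans (le_trans ?_ hN2))
        exact mul_le_mul_of_nonneg_right (by exact_mod_cast hg) (sq_nonneg _)
      induction n with
      | zero =>
        intro g hgN B Pi P w' ℓ hg _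
        obtain rfl : g = N := by omega
        refine Win.done _ _ fun F hF hBL => ?_
        have h1 := slope_bd hb hg.ℓ0 (hg.w2 hp hc hu (hdrift _ le_rfl _ _ _ _ _ hg)) hg.PB
          hg.QB hBL
        have h2 := pow_le_pow_left₀ (norm_nonneg _) h1 2
        have h3 : (g : ℝ) * (κ ^ 2 * μ' * τ) ≤ _ := hF.2
        linarith
      | succ n ihn =>
        intro g hgN B Pi P w' ℓ hg hℓ
        have hdr := hdrift g (by omega) _ _ _ _ _ hg
        have hw2 := hg.w2 hp hc hu hdr
        have hℓ0 := hg.ℓ0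
        have hc' := hg.ctx_down hp hc hu huM hτ0 hn.τθ (hn.ε'0.trans (hn.ε'ε hp)) hn.εθ hdr
        set Vj : (H → E) → E := fun F => ℓ⁻¹ • (F (P + ℓ • w') - F P) with hVj
        have hV' : VOK a b (j + 1) B (Function.update V j Vj) := by
          constructor
          · intro l hl F F' h
            rcases Nat.lt_succ_iff_lt_or_eq.1 hl with hl | rfl
            · rw [Function.update_of_ne hl.ne]
              exact hV.det l hl F F' (fun y hy => h y (hg.sub hy))
            · rw [Function.update_self]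
              simp only [hVj]
              rw [h _ hg.PB, h _ hg.QB]
          · intro l hl F hF
            rcases Nat.lt_succ_iff_lt_or_eq.1 hl with hl | rfl
            · rw [Function.update_of_ne hl.ne]
              exact hV.bd l hl F (hF.mono hg.sub)
            · rw [Function.update_self]
              exact slope_bd hb hℓ0 hw2 hg.PB hg.QB hF
        have hdet : Det B (Φ ∩ En (g * (κ ^ 2 * μ' * τ)) P w' ℓ) :=
          (hΦ.mono hg.sub).inter (det_En hg.PB hg.QB)
        refine ih (j + 1) (by omega) _ _ _ _ _ _ _ _ _ hc' hV' hdet ?_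
        intro B₂ Pi₂ x x₀ ρ β u' hr
        have hρν : ν * ℓ ≤ ρ := by have := hr.ρμ; rw [hν]; linarith
        have hρ : 0 < ρ := lt_of_lt_of_le (by positivity) hρν
        have hq := hr.post hp hc' hρ hn.ε'0 hn.εe hn.εθ
        have hlen : ν ^ (g + 1) * (s / 4) ≤ ν * ℓ := by
          rw [pow_succ']; nlinarith
        have hup := ret_up (μ := ν ^ (N + 1) / 4) hp hn hc hu huM hg hdr hr hρ (by
          have := mul_le_mul_of_nonneg_right (hνp (show g + 1 ≤ N + 1 by omega))
            (show 0 ≤ s / 4 by positivity)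
          linarith)
        set x' := x + (β j * ρ) • w' with hx'
        refine Win.add x' ((hdet.mono hr.sub).inter (det_Cond hV' hr.sub hr.xB hr.x₀B))
          (hgood _ _ hq.ds) ?_
        refine Win.split _ _ (Φ ∩ Cond κ (k + 1) j x' x₀ ρ β V)
          ((Φ ∩ En (g * (κ ^ 2 * μ' * τ)) P w' ℓ) ∩
            {F | κ * ρ ≤ ‖F x' - F x - (β j * ρ) • Vj F‖}) ?_ (cont _ _ _ _ _ _ _ hup) ?_
        · rintro F ⟨hF1, hF2⟩
          by_cases hdev : κ * ρ ≤ ‖F x' - F x - (β j * ρ) • Vj F‖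
          · exact Or.inr ⟨hF1, hdev⟩
          refine Or.inl ⟨hF1.1, ?_⟩
          simp only [Cond, Set.mem_ofPred_eq] at hF2 ⊢
          have e1 : ∑ l ∈ Finset.range (j + 1), β l • Function.update V j Vj l F =
              ∑ l ∈ Finset.range j, β l • V l F + β j • Vj F := by
            rw [Finset.sum_range_succ, Function.update_self]
            congr 1
            exact Finset.sum_congr rfl (fun l hl => by
              rw [Function.update_of_ne (Finset.mem_range.1 hl).ne])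
          rw [e1] at hF2
          have e2 : F x' - F x₀ + ρ • ∑ l ∈ Finset.range j, β l • V l F =
              (F x' - F x - (β j * ρ) • Vj F) +
              (F x - F x₀ + ρ • (∑ l ∈ Finset.range j, β l • V l F + β j • Vj F)) := by module
          rw [e2]
          refine (norm_add_le _ _).trans ?_
          push_cast
          linarith [not_le.1 hdev]
        have hgain : ∀ y : H, ((x = y ∧ x' = y + ρ • w') ∨ (x = y + ρ • w' ∧ x' = y)) →
            Win good a b (insert x' B₂) ((Φ ∩ En (g * (κ ^ 2 * μ' * τ)) P w' ℓ) ∩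
              {F | κ * ρ ≤ ‖F (y + ρ • w') - F y - ρ • Vj F‖}) := by
          intro y hxy
          obtain ⟨a₁, w₁, w₃, h1, h3, e1, e3, g1, g2, g3⟩ := three hp hn hc hg hw2 hq hρ hxy
          have hl4 : ν * ℓ ≤ ℓ / 4 := by nlinarith
          have W1 := ihn (g + 1) (by omega) _ _ _ _ _ g1 (by linarith)
          have W2 := ihn (g + 1) (by omega) _ _ _ _ _ g2 (by linarith)
          have W3 := ihn (g + 1) (by omega) _ _ _ _ _ g3 (by linarith)
          refine Win.split _ _ _ _ ?_ W1 (Win.split _ _ _ _ subset_rfl W2 W3)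
          rintro F ⟨⟨hF1, hF2⟩, hF3⟩
          have e4 : F y - F P + (F (y + ρ • w') - F y) + (F (P + ℓ • w') - F (y + ρ • w')) =
              F (P + ℓ • w') - F P := by abel
          have := gain_three (F y - F P) (F (y + ρ • w') - F y)
            (F (P + ℓ • w') - F (y + ρ • w')) (a := a₁) (ρ := ρ) (c := ℓ - a₁ - ρ) (ℓ := ℓ)
            (Γ := g * (κ ^ 2 * μ' * τ)) (γ := κ ^ 2 * μ' * τ) (by linarith) hρ (by linarith)
            (by ring) hκ.le (by rw [e4]; exact hF3) (by rw [e4]; exact hF2)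
            (by have := mul_le_mul_of_nonneg_left hρν (sq_nonneg κ)
                rw [hν] at this; linarith)
          have e5 : (g : ℝ) * (κ ^ 2 * μ' * τ) + κ ^ 2 * μ' * τ =
              ((g + 1 : ℕ) : ℝ) * (κ ^ 2 * μ' * τ) := by push_cast; ring
          rw [e5] at this
          rcases this with h | h | h
          · refine Or.inl ⟨hF1, ?_⟩
            simp only [En, Set.mem_ofPred_eq]
            rw [e1]; exact h
          · exact Or.inr (Or.inl ⟨hF1, h⟩)
          · refine Or.inr (Or.inr ⟨hF1, ?_⟩)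
            simp only [En, Set.mem_ofPred_eq]
            rw [e3]; exact h
        rcases hr.βv j with hβ | hβ | hβ
        · refine Win.done _ _ fun F hF _ => ?_
          have h1 : κ * ρ ≤ _ := hF.2
          rw [hx', hβ] at h1
          simp at h1
          nlinarith [mul_pos hκ hρ]
        · refine (hgain x (Or.inl ⟨rfl, by rw [hx', hβ, one_mul]⟩)).anti ?_
          rintro F ⟨hF1, hF2⟩
          refine ⟨hF1, ?_⟩
          simp only [Set.mem_ofPred_eq] at hF2 ⊢
          rwa [hx', hβ, one_mul] at hF2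
        · have e1 : x = x' + ρ • w' := by rw [hx', hβ]; module
          refine (hgain x' (Or.inr ⟨e1, rfl⟩)).anti ?_
          rintro F ⟨hF1, hF2⟩
          refine ⟨hF1, ?_⟩
          simp only [Set.mem_ofPred_eq] at hF2 ⊢
          rw [← e1, ← norm_neg]
          refine hF2.trans (le_of_eq ?_)
          congr 1
          rw [hβ]; module
    have hi := hc.init (τ := τ) hp hu huM (hn.ε'0.trans (hn.ε'ε hp))
    refine Win.add c hΦ (hgood _ _ hc.ds_c) (Win.add _ (hΦ.mono (Finset.subset_insert _ _))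
      (hgood _ _ hi.ds) ((gen N 0 (by omega) _ _ _ _ _ hi (by simp)).anti ?_))
    intro F hF
    exact ⟨hF, by simp [En]⟩

/-- the adversary wins the online game -/
theorem online (hH : ¬ FiniteDimensional ℝ H) (d C : ℕ) (b : ℝ) (hb : 0 ≤ b) :
    Win (fun G : Finset H => Pack (↑G : Set H) C ((2 * C ^ 2 + 1) * (8 * C + 1))) (1 / 2) b ∅
      (Set.univ : Set (H → EuclideanSpace ℝ (Fin d))) := by
  obtain ⟨e, he, -⟩ := exists_fresh hH ⊥
  set θ : ℝ := 1 / (64 * (C + 1) ^ 2) with hθ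
  have hC : (0 : ℝ) ≤ C := Nat.cast_nonneg _
  have hθ0 : 0 < θ := by positivity
  obtain ⟨m, δ, κ, hδ0, hκ, hδθ, hmδ, hmκ, hPH⟩ := exists_ph d (2 * b) θ (by positivity) hθ0
  have hp : Prm e δ θ := ⟨he, hδ0, hδθ, by
    rw [hθ]; apply one_div_le_one_div_of_le (by norm_num); nlinarith⟩
  obtain ⟨μ, hμ, -, h⟩ := run (a := 1 / 2) hH hp
    (good := fun G : Finset H => Pack (↑G : Set H) C ((2 * C ^ 2 + 1) * (8 * C + 1)))
    (fun B Pi h => h.pack he C (by positivity) (by
      have e1 : 8 * θ * C ^ 2 = 1 / 8 * (C ^ 2 / (C + 1) ^ 2) := by rw [hθ]; field_simp; ring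
      have e2 : (C : ℝ) ^ 2 / (C + 1) ^ 2 ≤ 1 := by
        rw [div_le_one (by positivity)]; nlinarith
      rw [e1]; linarith))
    (ε₀ := 4 * θ / (1 + 13 / δ) ^ m) hb hκ (by positivity)
    (by rw [epsk, div_mul_cancel₀ _ (by positivity)]) hPH m le_rfl
  have hem := Submodule.mem_span_singleton_self (R := ℝ) e
  refine h 0 (by simp) 0 e 1 (Submodule.span ℝ {e}) (Submodule.span ℝ {e}) ∅ ∅ (fun _ _ => 0) _
    ⟨inferInstance, hem, Submodule.zero_mem _, hem, le_rfl, by simp,
      by rw [real_inner_self_eq_norm_sq, he]; norm_num, by simpa using hmδ, one_pos,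
      ⟨fun _ => 0, by simp, by simp, by simp⟩, by simp, by simp, by simp⟩
    ⟨by simp, by simp⟩ (fun _ _ _ _ => Set.mem_univ _) ?_
  intro B Pi x x₀ ρ β u hr
  refine Win.done _ _ fun F hF hBL => ?_
  have hρ : 0 < ρ := by linarith [hr.ρμ]
  rcases hr.far with ⟨-, l, hl, -⟩ | h
  · omega
  have h1 := h 0 (Submodule.zero_mem _)
  rw [add_zero] at h1
  have h2 := (hBL _ hr.xB _ hr.x₀B).1
  have h3 := hF.2
  simp only [Cond, Set.mem_ofPred_eq, Finset.range_zero, Finset.sum_empty, smul_zero,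
    add_zero] at h3
  nlinarith

end Crest.Agent.R254
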