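import Crest.Agent.R254.Game

set_option autoImplicit false
set_option linter.unusedSectionVars false

namespace Crest.Agent.R254

open scoped RealInnerProductSpace

variable {H : Type*} [NormedAddCommGroup H] [InnerProductSpace ℝ H]

/-- `v` reduced along `w`, using the coordinate `⟪e, ·⟫` -/
def red (e w v : H) : H := v - ⟪e, v⟫ • w

lemma abs_t_le {e : H} (he : ‖e‖ = 1) (v : H) : |⟪e, v⟫| ≤ ‖v‖ := by
  have := abs_real_inner_le_norm e v
  rwa [he, one_mul] at this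

lemma norm_perp_le {e : H} (he : ‖e‖ = 1) (v : H) : ‖red e e v‖ ≤ ‖v‖ := by
  have h : ‖red e e v‖ ^ 2 = ‖v‖ ^ 2 - ⟪e, v⟫ ^ 2 := by
    rw [red, norm_sub_sq_real, norm_smul, he, inner_smul_right, real_inner_comm e v]
    simp only [Real.norm_eq_abs, mul_one, sq_abs]
    ring
  have h2 : ‖red e e v‖ ^ 2 ≤ ‖v‖ ^ 2 := by rw [h]; nlinarith [sq_nonneg ⟪e, v⟫]
  exact (pow_le_pow_iff_left₀ (norm_nonneg _) (norm_nonneg _) two_ne_zero).1 h2

lemma pyth {M : Submodule ℝ H} {a χ : H} (ha : a ∈ M) (hχ : χ ∈ Mᗮ) :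
    ‖a + χ‖ ^ 2 = ‖a‖ ^ 2 + ‖χ‖ ^ 2 := by
  rw [norm_add_sq_real, Submodule.inner_right_of_mem_orthogonal ha hχ]; ring

lemma pyth_left {M : Submodule ℝ H} {a χ : H} (ha : a ∈ M) (hχ : χ ∈ Mᗮ) : ‖a‖ ≤ ‖a + χ‖ := by
  have := pyth ha hχ
  exact (pow_le_pow_iff_left₀ (norm_nonneg _) (norm_nonneg _) two_ne_zero).1
    (by nlinarith [sq_nonneg ‖χ‖])

lemma pyth_right {M : Submodule ℝ H} {a χ : H} (ha : a ∈ M) (hχ : χ ∈ Mᗮ) : ‖χ‖ ≤ ‖a + χ‖ := by
  have := pyth ha hχ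
  exact (pow_le_pow_iff_left₀ (norm_nonneg _) (norm_nonneg _) two_ne_zero).1
    (by nlinarith [sq_nonneg ‖a‖])

/-- the triple condition for `p` older than `q'` older than `q` -/
def Tri (e : H) (θ : ℝ) (p q' q : H) : Prop :=
  ⟪q - q', red e e (p - q')⟫ ≤ θ * ‖q - q'‖ * ‖p - q'‖

/-- the robust form of the triple condition -/
def RR (e : H) (θ : ℝ) (q' p y : H) (W : Submodule ℝ H) (η : ℝ) : Prop :=
  ∀ ζ ∈ W, ⟪y + ζ - q', red e e (p - q')⟫ ≤ (θ * ‖y + ζ - q'‖ + η) * ‖p - q'‖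

section RR
variable {e : H} {θ η η' : ℝ} {q' p y : H} {W W' : Submodule ℝ H}

lemma RR.mono (h : RR e θ q' p y W η) (hW : W' ≤ W) (hη : η ≤ η') : RR e θ q' p y W' η' :=
  fun ζ hζ => (h ζ (hW hζ)).trans
    (mul_le_mul_of_nonneg_right (by linarith) (norm_nonneg _))

lemma RR.shift (h : RR e θ q' p y W η) {ζ₀ : H} (hζ₀ : ζ₀ ∈ W) : RR e θ q' p (y + ζ₀) W η := by
  intro ζ hζ
  have := h (ζ₀ + ζ) (W.add_mem hζ₀ hζ)
  rwa [← add_assoc] at this

lemma RR.err (he : ‖e‖ = 1) (h0 : 0 ≤ θ) (h1 : θ ≤ 1) (h : RR e θ q' p y W η) (r : H) :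
    RR e θ q' p (y + r) W (η + 2 * ‖r‖) := by
  intro ζ hζ
  have h2 := h ζ hζ
  have e1 : y + r + ζ - q' = (y + ζ - q') + r := by abel
  have h3 : ‖y + ζ - q'‖ ≤ ‖y + r + ζ - q'‖ + ‖r‖ := by
    have : y + ζ - q' = (y + r + ζ - q') - r := by abel
    conv_lhs => rw [this]
    exact norm_sub_le _ _
  have h4 : ⟪r, red e e (p - q')⟫ ≤ ‖r‖ * ‖p - q'‖ :=
    (real_inner_le_norm _ _).trans
      (mul_le_mul_of_nonneg_left (norm_perp_le he _) (norm_nonneg _))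
  have h5 : θ * ‖y + ζ - q'‖ ≤ θ * ‖y + r + ζ - q'‖ + ‖r‖ := by
    nlinarith [norm_nonneg r]
  have h6 := mul_le_mul_of_nonneg_right h5 (norm_nonneg (p - q'))
  conv_lhs => rw [e1, inner_add_left]
  nlinarith

lemma RR.orth {M : Submodule ℝ H} (h0 : 0 ≤ θ) (h : RR e θ q' p y W η) (hy : y ∈ M)
    (hq : q' ∈ M) (hp : p ∈ M) (he : e ∈ M) (hW : W ≤ M) {χ : H} (hχ : χ ∈ Mᗮ) :
    RR e θ q' p (y + χ) W η := by
  intro ζ hζ
  have h2 := h ζ hζ
  have e1 : y + χ + ζ - q' = (y + ζ - q') + χ := by abel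
  have hm : y + ζ - q' ∈ M := M.sub_mem (M.add_mem hy (hW hζ)) hq
  have hv : red e e (p - q') ∈ M := M.sub_mem (M.sub_mem hp hq) (M.smul_mem _ he)
  have h3 := pyth_left hm hχ
  rw [e1, inner_add_left, Submodule.inner_left_of_mem_orthogonal hv hχ, add_zero]
  refine h2.trans (mul_le_mul_of_nonneg_right ?_ (norm_nonneg _))
  nlinarith

lemma RR.tri {ε θ' : ℝ} (h : RR e θ q' p y W (ε * ‖y - q'‖)) (hθ : θ + ε ≤ θ') :
    Tri e θ' p q' y := by
  have := h 0 W.zero_mem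
  rw [add_zero] at this
  refine this.trans (mul_le_mul_of_nonneg_right ?_ (norm_nonneg _))
  nlinarith [norm_nonneg (y - q')]

/-- if the old point is seen in a direction close to `e` modulo `Wᗮ`, the condition is trivial -/
lemma RR.of_slope (he : ‖e‖ = 1) {w : H} (hw : ‖w - e‖ ≤ θ)
    (hχ : red e w (p - q') ∈ Wᗮ) : RR e θ q' p q' W 0 := by
  intro ζ hζ
  have e1 : q' + ζ - q' = ζ := by abel
  have e2 : red e e (p - q') = red e w (p - q') + ⟪e, p - q'⟫ • (w - e) := by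
    simp only [red, smul_sub]; abel
  rw [e1, e2, inner_add_right, Submodule.inner_right_of_mem_orthogonal hζ hχ, zero_add, add_zero]
  refine (real_inner_le_norm _ _).trans ?_
  rw [norm_smul, Real.norm_eq_abs]
  have h1 := abs_t_le he (p - q')
  have h2 : |⟪e, p - q'⟫| * ‖w - e‖ ≤ ‖p - q'‖ * θ :=
    mul_le_mul h1 hw (norm_nonneg _) (norm_nonneg _)
  nlinarith [norm_nonneg ζ]

end RR

variable [DecidableEq H]

/-- a creation order satisfying the triple condition; `Pi` contains all (newer, older) pairs -/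
def DS (e : H) (θ : ℝ) (B : Finset H) (Pi : Set (H × H)) : Prop :=
  ∃ rk : H → ℕ, Set.InjOn rk B ∧
    (∀ p ∈ B, ∀ q' ∈ B, ∀ q ∈ B, rk p < rk q' → rk q' < rk q → Tri e θ p q' q) ∧
    (∀ p ∈ B, ∀ q' ∈ B, rk p < rk q' → (q', p) ∈ Pi)

def addP (Pi : Set (H × H)) (q : H) (B : Finset H) : Set (H × H) :=
  Pi ∪ {π | π.1 = q ∧ π.2 ∈ B}

lemma DS.insert {e : H} {θ : ℝ} {B : Finset H} {Pi : Set (H × H)} (h : DS e θ B Pi) (q : H)
    (hq : ∀ π ∈ Pi, Tri e θ π.2 π.1 q) : DS e θ (insert q B) (addP Pi q B) := by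
  obtain ⟨rk, h1, h2, h3⟩ := h
  by_cases hqB : q ∈ B
  · rw [Finset.insert_eq_of_mem hqB]
    exact ⟨rk, h1, h2, fun p hp q' hq' hlt => Or.inl (h3 p hp q' hq' hlt)⟩
  set n := B.sup rk + 1 with hn
  have hlt : ∀ p ∈ B, rk p < n := fun p hp => Nat.lt_succ_of_le (Finset.le_sup (f := rk) hp)
  have hu : ∀ p ∈ B, Function.update rk q n p = rk p := fun p hp =>
    Function.update_of_ne (by rintro rfl; exact hqB hp) _ _
  have hq' : Function.update rk q n q = n := Function.update_self _ _ _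
  refine ⟨Function.update rk q n, ?_, ?_, ?_⟩
  · intro x hx y hy hxy
    rcases Finset.mem_insert.1 hx with rfl | hx1 <;> rcases Finset.mem_insert.1 hy with rfl | hy1
    · rfl
    · rw [hq', hu y hy1] at hxy; have := hlt y hy1; omega
    · rw [hq', hu x hx1] at hxy; have := hlt x hx1; omega
    · rw [hu x hx1, hu y hy1] at hxy; exact h1 hx1 hy1 hxy
  · intro p hp q₁ hq₁ q₂ hq₂ l1 l2
    have hle : ∀ x ∈ Insert.insert q B, Function.update rk q n x ≤ n := by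
      intro x hx
      rcases Finset.mem_insert.1 hx with rfl | hx1
      · rw [hq']
      · rw [hu x hx1]; exact (hlt x hx1).le
    have hq₁B : q₁ ∈ B := by
      rcases Finset.mem_insert.1 hq₁ with rfl | hx1
      · rw [hq'] at l2; have := hle q₂ hq₂; omega
      · exact hx1
    have hpB : p ∈ B := by
      rcases Finset.mem_insert.1 hp with rfl | hx1
      · rw [hq'] at l1; have := hle q₁ hq₁; omega
      · exact hx1
    rw [hu p hpB, hu q₁ hq₁B] at l1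
    rcases Finset.mem_insert.1 hq₂ with rfl | hx1
    · exact hq (q₁, p) (h3 p hpB q₁ hq₁B l1)
    · rw [hu q₁ hq₁B, hu q₂ hx1] at l2
      exact h2 p hpB q₁ hq₁B q₂ hx1 l1 l2
  · intro p hp q₁ hq₁ l1
    have hpB : p ∈ B := by
      rcases Finset.mem_insert.1 hp with rfl | hx1
      · rw [hq'] at l1
        rcases Finset.mem_insert.1 hq₁ with rfl | hx1
        · rw [hq'] at l1; omega
        · rw [hu q₁ hx1] at l1; have := hlt q₁ hx1; omega
      · exact hx1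
    rcases Finset.mem_insert.1 hq₁ with rfl | hx1
    · exact Or.inr ⟨rfl, hpB⟩
    · rw [hu p hpB, hu q₁ hx1] at l1
      exact Or.inl (h3 p hpB q₁ hx1 l1)

lemma DS.pack {e : H} (he : ‖e‖ = 1) {θ : ℝ} (C : ℕ) (h0 : 0 ≤ θ) (hθ : θ * C ^ 2 ≤ 1 / 8)
    {B : Finset H} {Pi : Set (H × H)} (h : DS e θ B Pi) :
    Pack (↑B : Set H) C ((2 * C ^ 2 + 1) * (8 * C + 1)) := by
  obtain ⟨rk, h1, h2, -⟩ := h
  apply pack_of_slab C (fun v => ⟪e, v⟫)
  · intro x y
    rw [← inner_sub_right, dist_eq_norm]; exact abs_t_le he _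
  intro r hr Z hZ hs ht
  have key : ∀ Z' : Finset H, Z' ⊆ Z → Z'.Nonempty → ∃ z₁ ∈ Z', ∃ z₂ ∈ Z',
      (∀ z ∈ Z', rk z₁ ≤ rk z ∧ rk z ≤ rk z₂) ∧
        ((Z'.card : ℝ) - 1) * (r ^ 2 / 2) ≤ ‖z₂ - z₁‖ ^ 2 := by
    intro Z'
    induction Z' using Finset.induction_on_max_value rk with
    | empty => intro _ h; simp at h
    | insert a s has hmax ih =>
      intro hsub _
      have haZ : a ∈ Z := hsub (Finset.mem_insert_self _ _)
      have hsZ : s ⊆ Z := (Finset.subset_insert _ _).trans hsub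
      rcases s.eq_empty_or_nonempty with rfl | hne
      · exact ⟨a, by simp, a, by simp, by simp, by simp⟩
      obtain ⟨z₁, hz₁, z₂, hz₂, hord, hbd⟩ := ih hsZ hne
      refine ⟨z₁, Finset.mem_insert_of_mem hz₁, a, Finset.mem_insert_self _ _, ?_, ?_⟩
      · intro z hz
        rcases Finset.mem_insert.1 hz with rfl | hz
        · exact ⟨hmax z₁ hz₁, le_rfl⟩
        · exact ⟨(hord z hz).1, hmax z hz⟩
      rw [Finset.card_insert_of_notMem has]
      have hne2 : a ≠ z₂ := by rintro rfl; exact has hz₂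
      have d1 := hs a haZ z₂ (hsZ hz₂) hne2
      rw [dist_eq_norm] at d1
      have hin : ⟪a - z₂, z₁ - z₂⟫ ≤ r ^ 2 / 4 := by
        by_cases h12 : z₁ = z₂
        · rw [h12]; simp; positivity
        have d2 := hs z₁ (hsZ hz₁) z₂ (hsZ hz₂) h12
        rw [dist_eq_norm] at d2
        have l1 : rk z₁ < rk z₂ := lt_of_le_of_ne (hord z₂ hz₂).1
          (fun e => h12 (h1 (hZ (hsZ hz₁)) (hZ (hsZ hz₂)) e))
        have l2 : rk z₂ < rk a := lt_of_le_of_ne (hmax z₂ hz₂)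
          (fun e => hne2 (h1 (hZ (hsZ hz₂)) (hZ haZ) e).symm)
        have t1 := h2 z₁ (hZ (hsZ hz₁)) z₂ (hZ (hsZ hz₂)) a (hZ haZ) l1 l2
        have t2 := ht a haZ z₂ (hsZ hz₂)
        have t3 := ht z₁ (hsZ hz₁) z₂ (hsZ hz₂)
        simp only [← inner_sub_right] at t2 t3
        rw [Tri, red, inner_sub_right, inner_smul_right, real_inner_comm e] at t1
        have t4 : ⟪e, z₁ - z₂⟫ * ⟪e, a - z₂⟫ ≤ r / 4 * (r / 4) := by
          refine (le_abs_self _).trans ?_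
          rw [abs_mul]
          exact mul_le_mul t3 t2 (abs_nonneg _) (by positivity)
        have t5 : ‖a - z₂‖ * ‖z₁ - z₂‖ ≤ (C * r) * (C * r) :=
          mul_le_mul d1.2 d2.2 (norm_nonneg _) (by positivity)
        have t6 := mul_le_mul_of_nonneg_left t5 h0
        have t7 := mul_le_mul_of_nonneg_right hθ (sq_nonneg r)
        nlinarith
      have e1 : a - z₁ = (a - z₂) - (z₁ - z₂) := by abel
      have d3 : r ^ 2 ≤ ‖a - z₂‖ ^ 2 := pow_le_pow_left₀ hr.le d1.1 2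
      rw [e1, norm_sub_sq_real, norm_sub_rev z₁ z₂]
      push_cast
      nlinarith
  rcases Z.eq_empty_or_nonempty with rfl | hne
  · simp
  obtain ⟨z₁, hz₁, z₂, hz₂, -, hbd⟩ := key Z subset_rfl hne
  have hd : ‖z₂ - z₁‖ ≤ C * r := by
    by_cases h12 : z₂ = z₁
    · rw [h12]; simp; positivity
    · rw [← dist_eq_norm]; exact (hs z₂ hz₂ z₁ hz₁ h12).2
  have hd2 := pow_le_pow_left₀ (norm_nonneg _) hd 2
  have h3 : ((Z.card : ℝ) - 1) * (r ^ 2 / 2) ≤ (2 * C ^ 2) * (r ^ 2 / 2) := by nlinarith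
  have h4 := le_of_mul_le_mul_right h3 (by positivity)
  have h5 : (Z.card : ℝ) ≤ 2 * C ^ 2 + 1 := by linarith
  exact_mod_cast h5

end Crest.Agent.R254
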